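import Vale.Agent.P179.H166.KN4
import Vale.Agent.P179.H524.Wr3

/-!
# The sum over the chains of the stabilisers, weighted by the numbers of simple modules
-/

namespace P179H443

open Subgroup P179A P179C P179H524 P179R RegularWreathProduct

open scoped Classical

universe u

/-- the number of simple `kH`-modules on which the truncation of `e` acts as the identity -/
noncomputable def nT {k : Type u} [Field k] {G : Type} [Group G] (e : MonoidAlgebra k G)
    (H : Subgroup G) : ℕ :=
  numSimpleIn (trunc H e)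

/-- the summand attached to a subgroup -/
noncomputable def wt {k : Type u} [Field k] {G : Type} [Group G] (e : MonoidAlgebra k G)
    (H : Subgroup G) : ℤ :=
  (Nat.card H : ℤ) * nT e H

/-- the sum over all chains of `p`-subgroups -/
noncomputable def KS (p : ℕ) {k : Type u} [Field k] {G : Type} [Group G] [Finite G]
    (e : MonoidAlgebra k G) : ℤ :=
  ∑ s ∈ chains p G, (-1) ^ s.card * wt e (stab s)

/-- the base group of the wreath product -/
def base (G Q : Type) [Group G] [Group Q] : Subgroup (G ≀ᵣ Q) :=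
  (incl G Q).range

theorem mem_base {G Q : Type} [Group G] [Group Q] {x : G ≀ᵣ Q} : x ∈ base G Q ↔ x.right = 1 := by
  constructor
  · rintro ⟨y, rfl⟩
    rfl
  · intro h
    exact ⟨x.left, (eq_incl h).symm⟩

/-- the part of the sum for the wreath product which belongs to the chains in the base group -/
noncomputable def KSbase (p : ℕ) {k : Type u} [Field k] {G Q : Type} [Group G] [Group Q]
    [Finite (G ≀ᵣ Q)] (f : MonoidAlgebra k (G ≀ᵣ Q)) : ℤ :=
  ∑ s ∈ (chains p (G ≀ᵣ Q)).filter (fun s => ∀ V ∈ s, V ≤ base G Q),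
    (-1) ^ s.card * wt f (stab s)

/-- the part of the sum for the wreath product which belongs to the other chains -/
noncomputable def KSoff (p : ℕ) {k : Type u} [Field k] {G Q : Type} [Group G] [Group Q]
    [Finite (G ≀ᵣ Q)] (f : MonoidAlgebra k (G ≀ᵣ Q)) : ℤ :=
  ∑ s ∈ (chains p (G ≀ᵣ Q)).filter (fun s => ¬ ∀ V ∈ s, V ≤ base G Q),
    (-1) ^ s.card * wt f (stab s)

theorem KS_eq (p : ℕ) {k : Type u} [Field k] {G Q : Type} [Group G] [Group Q]
    [Finite (G ≀ᵣ Q)] (f : MonoidAlgebra k (G ≀ᵣ Q)) : KS p f = KSbase p f + KSoff p f :=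
  (Finset.sum_filter_add_sum_filter_not _ _ _).symm

/-- the subgroup `∏ H_q` of the base group -/
def prodSub {G Q : Type} [Group G] [Group Q] (H : Q → Subgroup G) : Subgroup (G ≀ᵣ Q) where
  carrier := {x | x.right = 1 ∧ ∀ q, x.left q ∈ H q}
  one_mem' := ⟨rfl, fun q => (H q).one_mem⟩
  mul_mem' := by
    rintro a b ⟨ha, ha'⟩ ⟨hb, hb'⟩
    refine ⟨by rw [RegularWreathProduct.mul_right, ha, hb, one_mul], fun q => ?_⟩
    rw [RegularWreathProduct.mul_left, ha]
    simpa using (H q).mul_mem (ha' q) (hb' q)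
  inv_mem' := by
    rintro a ⟨ha, ha'⟩
    refine ⟨by rw [inv_right, ha, inv_one], fun q => ?_⟩
    rw [inv_left, ha]
    simpa using (H q).inv_mem (ha' q)

theorem mem_prodSub {G Q : Type} [Group G] [Group Q] {H : Q → Subgroup G} {x : G ≀ᵣ Q} :
    x ∈ prodSub H ↔ x.right = 1 ∧ ∀ q, x.left q ∈ H q := Iff.rfl

/-- the subgroup `H ≀ Q` of the wreath product `G ≀ Q` -/
def wrSub {G : Type} [Group G] (H : Subgroup G) (Q : Type) [Group Q] : Subgroup (G ≀ᵣ Q) where
  carrier := {x | ∀ q, x.left q ∈ H}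
  one_mem' := fun q => H.one_mem
  mul_mem' := by
    intro a b ha hb q
    rw [RegularWreathProduct.mul_left]
    exact H.mul_mem (ha q) (hb _)
  inv_mem' := by
    intro a ha q
    rw [inv_left]
    exact H.inv_mem (ha _)

theorem mem_wrSub {G : Type} [Group G] {H : Subgroup G} {Q : Type} [Group Q] {x : G ≀ᵣ Q} :
    x ∈ wrSub H Q ↔ ∀ q, x.left q ∈ H := Iff.rfl

/-- the element acts as `0` or `1` on each simple module -/
def ZO {k : Type u} [Field k] {G : Type} [Group G] (z : MonoidAlgebra k G) : Prop :=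
  ∀ a : IrrRep k G, a.1.2.asAlgebraHom z = 0 ∨ a.1.2.asAlgebraHom z = 1

end P179H443
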