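import Vale.Agent.P179.R2.H443.Hyp
import Vale.Agent.P179.R2.H292.ExpDvd
import Vale.Agent.P179.R2.H292.Base
import Vale.Agent.P179.R2.H967.Nt

/-!
# The wreath formula for the Knörr–Robinson sums, from the counting lemmas
-/

namespace P179H443

open Subgroup P179A P179C P179H524 P179R RegularWreathProduct P179H854

open P179B (krSum)

open scoped Classical Pointwise

universe u

section Conj

variable {p : ℕ} [hp : Fact p.Prime] {k : Type u} [Field k] [CharP k p]
  {G : Type} [Group G] [Finite G]

include hp in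
theorem nT_cj (e : MonoidAlgebra k G) (he : e ∈ Subalgebra.center k (MonoidAlgebra k G)) (g : G)
    (K : Subgroup G) : nT e (cj g K) = nT e K := by
  unfold nT
  symm
  refine numSimpleIn_equiv (p := p) (K.equivMapOfInjective (MulAut.conj g).toMonoidHom
    (MulAut.conj g).injective) _ _ fun x => ?_
  rw [coeff_trunc]
  refine (coeff_trunc (cj g K) e _).trans ?_
  exact (P179C.mem_center_iff e).1 he g x

include hp in
theorem wt_cj (e : MonoidAlgebra k G) (he : e ∈ Subalgebra.center k (MonoidAlgebra k G)) (g : G)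
    (K : Subgroup G) : wt e (cj g K) = wt e K := by
  unfold wt
  rw [nT_cj (p := p) e he g K]
  congr 2
  exact (Nat.card_congr (K.equivMapOfInjective (MulAut.conj g).toMonoidHom
    (MulAut.conj g).injective).toEquiv).symm

include hp in
theorem nT_top (e : MonoidAlgebra k G) : nT e ⊤ = numSimpleIn e := by
  unfold nT
  exact numSimpleIn_equiv (p := p) topEquiv _ _ fun x => (coeff_trunc _ _ _).symm

end Conj

section Sum

variable {p : ℕ} [hp : Fact p.Prime] {k : Type u} [Field k] [IsAlgClosed k] [CharP k p]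
  {G : Type} [Group G] [Finite G]

theorem card_mul_krSum {B : MonoidAlgebra k G} (hB : P179B.IsBlock B) :
    (Nat.card G : ℤ) * krSum p B = Phi p (wt B) ⊤ ⊤ ⊥ := by
  rw [Phi_top, P179H292.card_mul_krSum' hB ?_ (nT_top (p := p) B)]
  · rfl
  · intro g s
    symm
    refine numSimpleIn_equiv (p := p) (P179K.stabEquiv g s) _ _ fun x => ?_
    rw [coeff_trunc, coeff_trunc]
    exact (P179C.mem_center_iff B).1 hB.1 g x

end Sum

section Final

variable {p : ℕ} [hp : Fact p.Prime] {k : Type u} [Field k] [IsAlgClosed k] [CharP k p]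
  {G : Type} [Group G] [Fintype G] {Q : Type} [Group Q] [Fintype Q]

omit [Fintype G] in
theorem card_PP [Finite G] (K : Q → Subgroup G) : Nat.card (PP K) = ∏ q, Nat.card (K q) := by
  rw [← Nat.card_pi]
  refine Nat.card_congr
    { toFun := fun w q => ⟨w.1.left q, (mem_PP.1 w.2).2 q⟩
      invFun := fun c => ⟨incl G Q fun q => (c q : G), mem_PP.2 ⟨rfl, fun q => (c q).2⟩⟩
      left_inv := fun w => Subtype.ext (eq_incl (mem_PP.1 w.2).1).symm
      right_inv := fun c => rfl }

/-- the wreath formula, given the two counting lemmas -/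
theorem krSum_ehat_of (hQ : Nat.card Q = p) (e : MonoidAlgebra k G) (he : P179B.IsBlock e)
    (hZ : ∀ K x : Subgroup G, Good p K x → ZO (trunc K e))
    (hP : ∀ K : Q → Subgroup G, (∀ q, ZO (trunc (K q) e)) →
      nT (ehat Q e) (PP K) = ∏ q, nT e (K q)) :
    (p : ℤ) * krSum p (ehat Q e) = krSum p e ^ p - krSum p e := by
  have hc := he.1
  have hb : P179B.IsBlock (ehat Q e) := P179H292.isBlock_ehat hQ he
  have h1 := Phi_wreath (p := p) hQ (wt e) (wt (ehat Q e)) (fun g K => wt_cj (p := p) e hc g K)
    (fun g K => wt_cj (p := p) (ehat Q e) hb.1 g K)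
    (fun K x h => by
      unfold wt
      rw [hP K fun q => hZ _ _ (h q), card_PP, Finset.prod_mul_distrib]
      push_cast
      rfl)
    (fun K x h => wt_bR hQ e hc K (hZ K x h))
    (fun K x _ => wt_dD hQ e hc K)
  rw [← card_mul_krSum he, ← card_mul_krSum hb, card_wr, hQ] at h1
  have hG : (Nat.card G : ℤ) ≠ 0 := by exact_mod_cast Nat.card_pos.ne'
  have h5 : (Nat.card G : ℤ) ^ p = (Nat.card G : ℤ) ^ (p - 1) * (Nat.card G : ℤ) := by
    rw [← pow_succ, Nat.sub_add_cancel hp.out.one_le]
  push_cast at h1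
  refine mul_left_cancel₀ (pow_ne_zero p hG) ?_
  rw [mul_pow] at h1
  rw [mul_sub, ← mul_assoc, h1, h5]
  ring

/-- **the wreath formula for the Knörr–Robinson sums** -/
theorem krSum_ehat (hQ : Nat.card Q = p) (e : MonoidAlgebra k G) (he : P179B.IsBlock e) :
    (p : ℤ) * krSum p (ehat Q e) = krSum p e ^ p - krSum p e :=
  krSum_ehat_of hQ e he (fun _ _ h => P179H967.zo_good he.1 he.2.1 h) fun K hK => by
    rw [P179H967.PP_eq]
    exact P179H967.nT_prodSub he.1 K hK

/-- the wreath formula, in the form used for the exponent theorem -/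
theorem krWr (p : ℕ) [Fact p.Prime] (k : Type u) [Field k] [IsAlgClosed k] [CharP k p] :
    P179H292.KrWr p k := fun _ _ _ e he => krSum_ehat (P179H292.card_Cp p) e he

end Final

end P179H443
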