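import Vale.Agent.P179.R2.H725.Ind
import Vale.Agent.P179.R2.H292.Free

/-!
# The congruence modulo a power of `p`, relative to the equality for smaller defect groups
-/

namespace P179H443

open Subgroup P179H524 P179A P179K P179R P179C

open P179B (NChain inertialGroup inertialIndex)

open scoped Classical

universe u

section Defs

variable (p : ℕ) {k : Type u} [Field k] (red : integralClosure ℤ ℂ →+* k) {G : Type*} [Group G]

/-- the equality for all blocks of all groups whose defect groups are isomorphic to `D / R` -/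
def QuoEq (D R : Subgroup G) : Prop :=
  ∀ (X : Type) [Group X] [Finite X] (B : MonoidAlgebra k X) (D' : Subgroup X), IsBlock B →
    IsDefectGroup B D' → (∃ f : D →* D', Function.Surjective f ∧ ∀ d : D, f d = 1 ↔ (d : G) ∈ R) →
    numSimpleIn B = numWeightsIn p red B

/-- the subgroups `R ≠ 1` of `D` centralised by an element of `T` not centralising `D` do not
contain `D ^ (p ^ a)`, or the equality holds for the defect group `D / R` -/
def StarQ (a : ℕ) (D T : Subgroup G) : Prop :=
  ∀ R ≤ D, R ≠ ⊥ → ∀ n ∈ T, n ∈ centralizer (R : Set G) → n ∉ centralizer (D : Set G) →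
    (∀ d ∈ D, d ^ p ^ a ∈ R) → QuoEq p red D R

variable {p}

theorem starQ_of_star {a : ℕ} {D T : Subgroup G} (h : P179H725.Star p a D T) :
    StarQ p red a D T := by
  intro R _ _ n hn hnR hnD hall
  obtain ⟨d, hd, hdR⟩ := P179H725.star_notMem h hn hnR hnD
  exact absurd (hall d hd) hdR

theorem starQ_below {a : ℕ} {D T : Subgroup G} (h : StarQ p red a D T) {H : Subgroup G}
    {E TE : Subgroup H} {g : G} (h1 : ∀ x ∈ D, g * x * g⁻¹ ∈ H)
    (h2 : ∀ x : H, x ∈ E ↔ g⁻¹ * x * g ∈ D) (h3 : ∀ n : H, n ∈ TE ↔ g⁻¹ * n * g ∈ T) :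
    StarQ p red a E TE := by
  intro R' hR' hR1 n hn hnR hnE hall X _ _ B D' hB hD' hf
  obtain ⟨f, hfs, hfk⟩ := hf
  -- the conjugate of `R'` in `D`
  have hmem : ∀ x : G, x ∈ (R'.map H.subtype).comap (MulAut.conj g).toMonoidHom ↔
      ∃ r ∈ R', (r : G) = g * x * g⁻¹ := by
    intro x
    rw [mem_comap]
    exact Iff.rfl
  have hRD : (R'.map H.subtype).comap (MulAut.conj g).toMonoidHom ≤ D := by
    intro x hx
    obtain ⟨r, hr, hrx⟩ := (hmem x).1 hx
    have h4 := (h2 r).1 (hR' hr)
    rw [hrx] at h4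
    have h5 : g⁻¹ * (g * x * g⁻¹) * g = x := by group
    rwa [h5] at h4
  refine h _ hRD ?_ (g⁻¹ * n * g) ((h3 n).1 hn) ?_ ?_ ?_ X B D' hB hD' ?_
  · intro hbot
    apply hR1
    rw [eq_bot_iff]
    intro r hr
    have h4 : g⁻¹ * (r : G) * g ∈ (R'.map H.subtype).comap (MulAut.conj g).toMonoidHom :=
      (hmem _).2 ⟨r, hr, by group⟩
    rw [hbot, mem_bot] at h4
    rw [mem_bot]
    apply Subtype.ext
    calc (r : G) = g * (g⁻¹ * (r : G) * g) * g⁻¹ := by group
      _ = 1 := by rw [h4]; group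
  · rw [mem_centralizer_iff]
    intro x hx
    obtain ⟨r, hr, hrx⟩ := (hmem x).1 hx
    have h4 : (r : G) * n = n * r := congrArg Subtype.val (mem_centralizer_iff.1 hnR r hr)
    rw [hrx] at h4
    calc x * (g⁻¹ * n * g) = g⁻¹ * (g * x * g⁻¹ * n) * g := by group
      _ = g⁻¹ * n * g * x := by rw [h4]; group
  · intro hc
    apply hnE
    rw [mem_centralizer_iff] at hc ⊢
    intro x hx
    have h4 := hc _ ((h2 x).1 hx)
    apply Subtype.ext
    change (x : G) * n = n * x
    calc (x : G) * n = g * (g⁻¹ * x * g * (g⁻¹ * n * g)) * g⁻¹ := by group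
      _ = n * x := by rw [h4]; group
  · intro d hd
    have h4 : (⟨g * d * g⁻¹, h1 d hd⟩ : H) ∈ E := by
      rw [h2]
      have h5 : g⁻¹ * (g * d * g⁻¹) * g = d := by group
      change g⁻¹ * (g * d * g⁻¹) * g ∈ D
      rwa [h5]
    refine (hmem _).2 ⟨_, hall _ h4, ?_⟩
    change (g * d * g⁻¹) ^ p ^ a = g * d ^ p ^ a * g⁻¹
    rw [conj_pow]
  · -- the isomorphism `D ≃ E`
    have hE : ∀ d : D, (⟨g * d * g⁻¹, h1 d d.2⟩ : H) ∈ E := by
      intro d
      rw [h2]
      have h5 : g⁻¹ * (g * d * g⁻¹) * g = d := by group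
      change g⁻¹ * (g * d * g⁻¹) * g ∈ D
      rw [h5]
      exact d.2
    let c : D →* E :=
      { toFun := fun d => ⟨⟨g * d * g⁻¹, h1 d d.2⟩, hE d⟩
        map_one' := Subtype.ext (Subtype.ext (by
          change g * 1 * g⁻¹ = 1
          group))
        map_mul' := fun x y => Subtype.ext (Subtype.ext (by
          change g * (x * y) * g⁻¹ = g * x * g⁻¹ * (g * y * g⁻¹)
          group)) }
    refine ⟨f.comp c, hfs.comp ?_, fun d => ?_⟩
    · intro e
      refine ⟨⟨g⁻¹ * ((e : H) : G) * g, (h2 e).1 e.2⟩, Subtype.ext (Subtype.ext ?_)⟩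
      change g * (g⁻¹ * ((e : H) : G) * g) * g⁻¹ = _
      group
    · rw [MonoidHom.comp_apply, hfk, hmem]
      constructor
      · intro h4
        exact ⟨_, h4, rfl⟩
      · rintro ⟨r, hr, hrd⟩
        have h4 : ((c d : E) : H) = r := Subtype.ext hrd.symm
        rw [h4]
        exact hr

end Defs

section Rel

variable {p : ℕ} [hp : Fact p.Prime] {k : Type u} [Field k] [IsAlgClosed k] [hk : CharP k p]
  (red : integralClosure ℤ ℂ →+* k)

/-- the equality passes from the blocks with defect group `D / R` to the blocks with defect group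
`D` of the groups with normal `p`-subgroup `R` -/
theorem eq_of_quoEq (hQ : P179H725.DefQuo p k) {G : Type} [Group G] [Finite G]
    {B : MonoidAlgebra k G} {D : Subgroup G} (R : Subgroup G) [R.Normal] (hR : IsPGroup p R)
    (hB : IsBlock B) (hD : IsDefectGroup B D) (hab : ∀ a ∈ D, ∀ b ∈ D, a * b = b * a)
    (h : QuoEq p red D R) : numSimpleIn B = numWeightsIn p red B := by
  refine P179R.eq_of_quo p red R hR hB fun B' hB' hBB' => ?_
  obtain ⟨D', g, hD', hg⟩ := hQ G B D R B' hR hB hD hab hB' hBB'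
  refine h (G ⧸ R) B' D' hB' hD' ?_
  have hmem : ∀ d : D, g * QuotientGroup.mk' R (d : G) * g⁻¹ ∈ D' := by
    intro d
    rw [hg]
    have h1 : g⁻¹ * (g * QuotientGroup.mk' R (d : G) * g⁻¹) * g = QuotientGroup.mk' R (d : G) := by
      group
    rw [h1]
    exact ⟨d, d.2, rfl⟩
  refine ⟨{ toFun := fun d => ⟨_, hmem d⟩
            map_one' := Subtype.ext (by
              change g * QuotientGroup.mk' R (1 : G) * g⁻¹ = 1
              rw [map_one]
              group)
            map_mul' := fun x y => Subtype.ext (by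
              change g * QuotientGroup.mk' R ((x : G) * (y : G)) * g⁻¹ =
                g * QuotientGroup.mk' R (x : G) * g⁻¹ * (g * QuotientGroup.mk' R (y : G) * g⁻¹)
              rw [map_mul]
              group) }, ?_, ?_⟩
  · rintro ⟨x, hx⟩
    obtain ⟨d, hd, hdx⟩ := (hg x).1 hx
    refine ⟨⟨d, hd⟩, Subtype.ext ?_⟩
    change g * QuotientGroup.mk' R d * g⁻¹ = x
    rw [hdx]
    group
  · intro d
    rw [← QuotientGroup.eq_one_iff]
    constructor
    · intro h1
      have h2 : g * QuotientGroup.mk' R (d : G) * g⁻¹ = 1 := congrArg Subtype.val h1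
      calc ((d : G) : G ⧸ R) = g⁻¹ * (g * QuotientGroup.mk' R (d : G) * g⁻¹) * g := by
            rw [QuotientGroup.mk'_apply]
            group
        _ = 1 := by rw [h2]; group
    · intro h1
      apply Subtype.ext
      change g * QuotientGroup.mk' R (d : G) * g⁻¹ = 1
      rw [QuotientGroup.mk'_apply, h1]
      group

/-- **The congruence modulo `p ^ (a + 1)`**, relative to the equality for the defect groups `D / R`
for the subgroups `R` containing `D ^ (p ^ a)` and centralised by an element of the inertial group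
not centralising `D`. -/
theorem dvd_delta_rel (hkr : P179H292.KrWr p k) (hEq : P179H725.EqRel p red)
    (hQ : P179H725.DefQuo p k) (a : ℕ) :
    ∀ (N : ℕ) (G : Type) [Group G] [Finite G], Nat.card G = N →
      ∀ (B : MonoidAlgebra k G) (D : Subgroup G) (β : MonoidAlgebra k (centralizer (D : Set G))),
      IsBlock B → IsDefectGroup B D → (∀ a ∈ D, ∀ b ∈ D, a * b = b * a) → IsBlock β →
      InducesTo β B → (∃ d ∈ D, d ^ p ^ a ≠ 1) → StarQ p red a D (inertialGroup D β) →
      (p : ℤ) ^ (a + 1) ∣ (numSimpleIn B : ℤ) - numWeightsIn p red B := by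
  intro N
  induction N using Nat.strong_induction_on with
  | _ N ih =>
  intro G _ _ hN B D β hB hD hab hβ hβB hex hstar
  have := Fintype.ofFinite G
  by_cases hT : ∀ n ∈ inertialGroup D β, n ∈ centralizer (D : Set G)
  · have h1 : inertialIndex D β = 1 := relIndex_eq_one.2 hT
    have h2 := P179I.equality_half red hB hD hab hβ hβB (by rw [h1]; exact hp.out.two_le)
    rw [h2, sub_self]
    exact dvd_zero _
  obtain ⟨R, hRn, hR, hO⟩ := P179H725.exists_Op p G
  by_cases hC : ∀ n ∈ inertialGroup D β, n ∈ centralizer (R : Set G) →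
      n ∈ centralizer (D : Set G)
  · have hR1 : R ≠ ⊥ := by
      rintro rfl
      apply hT
      intro n hn
      refine hC n hn ?_
      rw [mem_centralizer_iff]
      intro x hx
      rw [SetLike.mem_coe, mem_bot] at hx
      rw [hx, one_mul, mul_one]
    rw [hEq G B D β R hR hR1 hB hD hab hβ hβB hC, sub_self]
    exact dvd_zero _
  push Not at hC
  obtain ⟨n, hn, hnR, hnD⟩ := hC
  have hRD : R ≤ D := P179H725.le_defect hB hD R hR
  by_cases hdR : ∀ d ∈ D, d ^ p ^ a ∈ R
  · have hR1 : R ≠ ⊥ := by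
      rintro rfl
      obtain ⟨d, hd, hd1⟩ := hex
      exact hd1 (mem_bot.1 (hdR d hd))
    rw [eq_of_quoEq red hQ R hR hB hD hab (hstar R hRD hR1 n hn hnR hnD hdR), sub_self]
    exact dvd_zero _
  push Not at hdR
  obtain ⟨d, hd, hdR⟩ := hdR
  have hbelow : ∀ B' : MonoidAlgebra k (G ⧸ R), IsBlock B' → B' * quo R B = B' →
      ∃ D' : Subgroup (G ⧸ R), IsDefectGroup B' D' ∧ ∃ z : D', z ∈ center D' ∧
        z ^ p ^ a ∉ commutator D' := by
    intro B' hB' hBB'
    obtain ⟨D', g, hD', hg⟩ := hQ G B D R B' hR hB hD hab hB' hBB'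
    have habD : ∀ x ∈ D', ∀ y ∈ D', x * y = y * x := by
      intro x hx y hy
      obtain ⟨x0, hx0, hx1⟩ := (hg x).1 hx
      obtain ⟨y0, hy0, hy1⟩ := (hg y).1 hy
      have h1 : (QuotientGroup.mk' R) (x0 * y0) = (QuotientGroup.mk' R) (y0 * x0) :=
        congrArg _ (hab x0 hx0 y0 hy0)
      rw [map_mul, map_mul, hx1, hy1] at h1
      calc x * y = g * (g⁻¹ * x * g * (g⁻¹ * y * g)) * g⁻¹ := by group
        _ = y * x := by rw [h1]; group
    have hcomm : commutator D' = ⊥ := by
      rw [_root_.commutator_def, commutator_eq_bot_iff_le_centralizer]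
      intro x _
      rw [mem_centralizer_iff]
      intro y _
      exact Subtype.ext (habD y y.2 x x.2)
    have hz : g * (d : G ⧸ R) * g⁻¹ ∈ D' := by
      rw [hg]
      have : g⁻¹ * (g * (d : G ⧸ R) * g⁻¹) * g = d := by group
      rw [this]
      exact ⟨d, hd, rfl⟩
    refine ⟨D', hD', ⟨_, hz⟩, ?_, ?_⟩
    · rw [Subgroup.mem_center_iff]
      intro y
      exact Subtype.ext (habD y y.2 _ hz)
    · rw [hcomm, mem_bot]
      intro h1
      have h2 : (g * (d : G ⧸ R) * g⁻¹) ^ p ^ a = 1 := congrArg Subtype.val h1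
      rw [conj_pow] at h2
      have h3 : ((d : G ⧸ R)) ^ p ^ a = 1 := by
        calc (d : G ⧸ R) ^ p ^ a = g⁻¹ * (g * (d : G ⧸ R) ^ p ^ a * g⁻¹) * g := by group
          _ = 1 := by rw [h2]; group
      apply hdR
      rw [← QuotientGroup.eq_one_iff]
      exact h3
  refine P179H854.delta_dvd_quo (R := R) red hR hO hB _ ?_ ?_ ?_
  · intro B' hB' hBB'
    obtain ⟨D', hD', z, -, hz⟩ := hbelow B' hB' hBB'
    refine ⟨D', hD', ?_⟩
    rintro rfl
    apply hz
    have : z ^ p ^ a = 1 := Subsingleton.elim _ _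
    rw [this]
    exact one_mem _
  · intro B' hB' hBB'
    obtain ⟨D', hD', z, hz, hz1⟩ := hbelow B' hB' hBB'
    exact P179H292.pow_dvd_krSum hkr a (G ⧸ R) B' hB' D' hD' z hz hz1
  · intro s _ hs b hb hbB
    obtain ⟨M, hMs, -, hMp, hM1, hMle, hMn, hMC⟩ := P179H725.exists_top s
    have hHM : stab s.1 ≤ normalizer (M : Set G) := fun g hg => (mem_stab.1 hg) M hMs
    obtain ⟨E, ε, g, hE, -, hEab, hε, hεb, -, -, hg1, hg2, hg3⟩ :=
      P179H725.below_data hB hD hab hβ hβB hMp hMle hHM hMC hb hbB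
    refine ih (Nat.card (stab s.1)) ?_ (stab s.1) rfl b E ε hb hE hEab hε hεb ?_
      (starQ_below red hstar hg1 hg2 hg3)
    · rw [← hN]
      exact lt_of_le_of_ne (card_le_card_group (stab s.1))
        fun h => hs (card_eq_iff_eq_top _ |>.1 h)
    · obtain ⟨d, hd, hd1⟩ := hex
      refine ⟨⟨g * d * g⁻¹, hg1 d hd⟩, (hg2 _).2 ?_, ?_⟩
      · have h5 : g⁻¹ * (g * d * g⁻¹) * g = d := by group
        change g⁻¹ * (g * d * g⁻¹) * g ∈ D
        rwa [h5]
      · intro h1
        have h2 : (g * d * g⁻¹) ^ p ^ a = 1 := congrArg Subtype.val h1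
        rw [conj_pow] at h2
        apply hd1
        calc d ^ p ^ a = g⁻¹ * (g * d ^ p ^ a * g⁻¹) * g := by group
          _ = 1 := by rw [h2]; group

/-- **The congruence modulo the exponent**, relative to the equality for the blocks `b` of the
groups `H` with a nontrivial normal `p`-subgroup `M` centralised by an element of the inertial group
of `b` which does not centralise the defect group of `b`. -/
theorem dvd_sub_of_loc (hEq : P179H725.EqRel p red) {G : Type} [Group G] [Finite G]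
    {B : MonoidAlgebra k G} (hB : P179B.IsBlock B) {D : Subgroup G} (hD : P179B.IsDefectGroup B D)
    (hab : ∀ a ∈ D, ∀ b ∈ D, a * b = b * a) {β : MonoidAlgebra k (centralizer (D : Set G))}
    (hβ : P179B.IsBlock β) (hβB : P179B.InducesTo β B)
    (hloc : ∀ (H : Subgroup G) (M : Subgroup H) [M.Normal] (b : MonoidAlgebra k H)
      (E : Subgroup H) (ε : MonoidAlgebra k (centralizer (E : Set H))) (g : G),
      IsPGroup p M → M ≠ ⊥ → IsBlock b → IsDefectGroup b E → (∀ x ∈ E, ∀ y ∈ E, x * y = y * x) →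
      IsBlock ε → InducesTo ε b → (∀ x ∈ D, g * x * g⁻¹ ∈ H) →
      (∀ x : H, x ∈ E ↔ g⁻¹ * x * g ∈ D) →
      (∀ n : H, n ∈ inertialGroup E ε ↔ g⁻¹ * n * g ∈ inertialGroup D β) →
      (∃ n ∈ inertialGroup E ε, n ∈ centralizer (M : Set H) ∧ n ∉ centralizer (E : Set H)) →
      numSimpleIn b = numWeightsIn p red b)
    {a : ℕ} {z : G} (hz : z ∈ D) (hza : z ^ p ^ a ≠ 1) :
    (p : ℤ) ^ (a + 1) ∣ (P179B.numSimpleIn B : ℤ) - P179B.numWeightsIn p red B := by
  have hD1 : D ≠ ⊥ := by
    rintro rfl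
    apply hza
    rw [mem_bot.1 hz, one_pow]
  rw [← P179H725.krSum_eq_of_local red hB hD hD1 ?_]
  · exact P179H292.pow_dvd_krSum_of_comm hB hD hab hz hza
  · intro s b hb hbB
    obtain ⟨M, hMs, -, hMp, hM1, hMH, hMn, hMC⟩ := P179H725.exists_top s
    obtain ⟨E, ε, g, hE, hME, hEab, hε, hεb, -, -, hg1, hg2, hg3⟩ :=
      P179H725.below_data (p := p) hB hD hab hβ ((P179B.inducesTo_iff β B).1 hβB) hMp hMH
        (fun x hx => P179A.mem_stab.1 hx M hMs) hMC hb ((P179B.inducesTo_iff b B).1 hbB)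
    have hn : (M.subgroupOf (stab s.1)).Normal := hMn
    have hMp' : IsPGroup p (M.subgroupOf (stab s.1)) :=
      hMp.of_equiv (subgroupOfEquivOfLe hMH).symm
    have hM1' : M.subgroupOf (stab s.1) ≠ ⊥ := by
      intro h
      apply hM1
      rw [subgroupOf_eq_bot, disjoint_iff] at h
      rw [← h]
      exact (inf_eq_left.mpr hMH).symm
    rw [P179B.numSimpleIn_eq, P179B.numWeightsIn_eq]
    by_cases hC : ∀ n ∈ inertialGroup E ε, n ∈ centralizer (M.subgroupOf (stab s.1) : Set _) →
        n ∈ centralizer (E : Set (stab s.1))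
    · exact hEq (stab s.1) b E ε (M.subgroupOf (stab s.1)) hMp' hM1' hb hE hEab hε hεb hC
    · push Not at hC
      obtain ⟨n, hn1, hn2, hn3⟩ := hC
      exact hloc (stab s.1) (M.subgroupOf (stab s.1)) b E ε g hMp' hM1' hb hE hEab hε hεb hg1 hg2
        hg3 ⟨n, hn1, hn2, hn3⟩

end Rel

end P179H443
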