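import Vale.Agent.P179.R2.H443.Defs
import Vale.Agent.P179.H526.Z14

/-!
# The number of simple modules and surjective homomorphisms
-/

namespace P179H443

open Subgroup P179A P179C P179H524 P179R MonoidAlgebra Finset

universe u

section Surj

variable {k : Type u} [Field k] {G G' : Type} [Group G] [Group G']

/-- the homomorphism of the group algebras -/
noncomputable def mapA (k : Type u) [Field k] (φ : G →* G') :
    MonoidAlgebra k G →ₐ[k] MonoidAlgebra k G' :=
  MonoidAlgebra.mapDomainAlgHom k k φ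

theorem mapA_single (φ : G →* G') (g : G) (a : k) : mapA k φ (MonoidAlgebra.single g a) =
    MonoidAlgebra.single (φ g) a := by
  simp [mapA]

theorem asAlgebraHom_mapA (φ : G →* G') {V : Type*} [AddCommGroup V] [Module k V]
    (ρ : Representation k G' V) (e : MonoidAlgebra k G) :
    Representation.asAlgebraHom (ρ.comp φ : Representation k G V) e =
      ρ.asAlgebraHom (mapA k φ e) := by
  induction e using MonoidAlgebra.induction_linear with
  | zero => rw [map_zero, map_zero, map_zero]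
  | add a b ha hb => rw [map_add, ha, hb, map_add, map_add]
  | single g a =>
    rw [mapA_single, Representation.asAlgebraHom_single, Representation.asAlgebraHom_single]
    rfl

/-- inflation along a surjective homomorphism -/
noncomputable def inflS (k : Type u) [Field k] (φ : G →* G') (hφ : Function.Surjective φ) :
    IrrRep k G' → IrrRep k G := fun x =>
  ⟨⟨x.1.1, x.1.2.comp φ⟩, (isIrreducible_comp_iff x.1.2 φ hφ).mpr x.2⟩

theorem inflS_iso_iff (φ : G →* G') (hφ : Function.Surjective φ)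
    (a b : IrrRep k G') : (inflS k φ hφ a).Iso (inflS k φ hφ b) ↔ a.Iso b := by
  constructor
  · rintro ⟨e⟩
    refine ⟨Representation.Equiv.mk e.toLinearEquiv fun g => ?_⟩
    obtain ⟨g, rfl⟩ := hφ g
    exact e.isIntertwining' g
  · rintro ⟨e⟩
    exact ⟨Representation.Equiv.mk e.toLinearEquiv fun g => e.isIntertwining' (φ g)⟩

theorem exists_inflS {p : ℕ} [hp : Fact p.Prime] [CharP k p] [Finite G] (φ : G →* G')
    (hφ : Function.Surjective φ) (hker : IsPGroup p φ.ker) (b : IrrRep k G) :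
    ∃ a : IrrRep k G', inflS k φ hφ a = b := by
  obtain ⟨⟨n, ρ⟩, hρ⟩ := b
  have h1 : ∀ r ∈ φ.ker, ρ r = 1 := fun r hr =>
    apply_eq_one_of_isIrreducible φ.ker hker ρ hρ r hr
  let ρ' : Representation k G' (Fin n → k) :=
    (QuotientGroup.lift φ.ker ρ h1).comp
      (QuotientGroup.quotientKerEquivOfSurjective φ hφ).symm.toMonoidHom
  have h2 : ρ'.comp φ = ρ := by
    refine MonoidHom.ext fun g => ?_
    change QuotientGroup.lift φ.ker ρ h1
      ((QuotientGroup.quotientKerEquivOfSurjective φ hφ).symm (φ g)) = ρ g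
    have h3 : φ g = QuotientGroup.quotientKerEquivOfSurjective φ hφ (g : G ⧸ φ.ker) := rfl
    rw [h3, MulEquiv.symm_apply_apply]
    rfl
  have h3 : ρ'.IsIrreducible := by
    rw [← isIrreducible_comp_iff ρ' φ hφ, h2]
    exact hρ
  refine ⟨⟨⟨n, ρ'⟩, h3⟩, ?_⟩
  unfold inflS
  congr 1
  exact Sigma.ext rfl (heq_of_eq h2)

theorem numSimpleIn_mapA {p : ℕ} [hp : Fact p.Prime] [CharP k p] [Finite G] (φ : G →* G')
    (hφ : Function.Surjective φ) (hker : IsPGroup p φ.ker)
    (e : MonoidAlgebra k G) : numSimpleIn e = numSimpleIn (mapA k φ e) := by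
  symm
  unfold numSimpleIn
  have hin : ∀ a : IrrRep k G', InBlock (inflS k φ hφ a) e ↔ InBlock a (mapA k φ e) := by
    intro a
    unfold InBlock
    rw [← asAlgebraHom_mapA]
    rfl
  have hsurj := exists_inflS (k := k) φ hφ hker
  have hE : ∀ (K : Type) [Group K] (P : IrrRep k K → Prop),
      Equivalence (fun a b : {a : IrrRep k K // P a} => IrrRep.Iso a.1 b.1) := fun K _ P =>
    ⟨fun a => (isoEqv k K).refl _, fun h => (isoEqv k K).symm h,
      fun h h' => (isoEqv k K).trans h h'⟩
  let F : (Quot fun a b : {a : IrrRep k G' // InBlock a (mapA k φ e)} => IrrRep.Iso a.1 b.1) →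
      (Quot fun a b : {a : IrrRep k G // InBlock a e} => IrrRep.Iso a.1 b.1) :=
    Quot.map (fun a => ⟨inflS k φ hφ a.1, (hin a.1).2 a.2⟩)
      fun a b h => (inflS_iso_iff φ hφ a.1 b.1).mpr h
  refine Nat.card_congr (Equiv.ofBijective F ⟨?_, ?_⟩)
  · rintro ⟨a⟩ ⟨b⟩ h
    exact Quot.sound ((inflS_iso_iff φ hφ a.1 b.1).mp (((hE G _).quot_mk_eq_iff _ _).1 h))
  · rintro ⟨b, hb⟩
    obtain ⟨a, rfl⟩ := hsurj b
    exact ⟨Quot.mk _ ⟨a, (hin a).1 hb⟩, rfl⟩

theorem ZO_mapA {p : ℕ} [hp : Fact p.Prime] [CharP k p] [Finite G] (φ : G →* G')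
    (hφ : Function.Surjective φ) (hker : IsPGroup p φ.ker)
    (e : MonoidAlgebra k G) : ZO e ↔ ZO (mapA k φ e) := by
  constructor
  · intro h a
    have h1 := h (inflS k φ hφ a)
    rw [← asAlgebraHom_mapA]
    exact h1
  · intro h b
    obtain ⟨a, rfl⟩ := exists_inflS (k := k) φ hφ hker b
    have h1 := h a
    rw [← asAlgebraHom_mapA] at h1
    exact h1

theorem coeff_mapA_injective (φ : G →* G') (hφ : Function.Injective φ) (e : MonoidAlgebra k G)
    (x : G) : (mapA k φ e).coeff (φ x) = e.coeff x := by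
  induction e using MonoidAlgebra.induction_linear with
  | zero => simp
  | add a b ha hb =>
    rw [map_add]
    have h1 : (mapA k φ a + mapA k φ b).coeff (φ x) =
        (mapA k φ a).coeff (φ x) + (mapA k φ b).coeff (φ x) := by simp
    rw [h1, ha, hb]
    simp
  | single g a =>
    classical
    rw [mapA_single, MonoidAlgebra.coeff_single, MonoidAlgebra.coeff_single,
      Finsupp.single_apply, Finsupp.single_apply]
    by_cases h : g = x
    · rw [if_pos h, if_pos (congrArg φ h)]
    · rw [if_neg h, if_neg fun h' => h (hφ h')]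

theorem mapA_eq (φ : G ≃* G') (e : MonoidAlgebra k G) (e' : MonoidAlgebra k G')
    (h : ∀ x, e'.coeff (φ x) = e.coeff x) : mapA k φ.toMonoidHom e = e' := by
  apply MonoidAlgebra.ext
  ext y
  obtain ⟨x, rfl⟩ := φ.surjective y
  rw [h]
  exact coeff_mapA_injective φ.toMonoidHom φ.injective e x

theorem numSimpleIn_equiv {p : ℕ} [hp : Fact p.Prime] [CharP k p] [Finite G] (φ : G ≃* G')
    (e : MonoidAlgebra k G) (e' : MonoidAlgebra k G')
    (h : ∀ x, e'.coeff (φ x) = e.coeff x) : numSimpleIn e = numSimpleIn e' := by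
  rw [← mapA_eq φ e e' h]
  refine numSimpleIn_mapA (p := p) φ.toMonoidHom φ.surjective ?_ e
  intro x
  refine ⟨0, ?_⟩
  have h1 : (x : G) = 1 := (φ.map_eq_one_iff).1 x.2
  rw [pow_zero, pow_one]
  exact Subtype.ext h1

theorem ZO_equiv {p : ℕ} [hp : Fact p.Prime] [CharP k p] [Finite G] (φ : G ≃* G')
    (e : MonoidAlgebra k G) (e' : MonoidAlgebra k G')
    (h : ∀ x, e'.coeff (φ x) = e.coeff x) : ZO e ↔ ZO e' := by
  rw [← mapA_eq φ e e' h]
  refine ZO_mapA (p := p) φ.toMonoidHom φ.surjective ?_ e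
  intro x
  refine ⟨0, ?_⟩
  have h1 : (x : G) = 1 := (φ.map_eq_one_iff).1 x.2
  rw [pow_zero, pow_one]
  exact Subtype.ext h1

end Surj

end P179H443
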