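import Vale.Agent.P179.R2.H443.Rel
import Vale.Agent.P179.R2.H292.Fin2
import Vale.Agent.P179.R2.H450.R2q
import Vale.Agent.P179.H526.Z20

/-!
# Abelian defect groups of rank two
-/

namespace P179H443

open Subgroup P179H524 P179A P179K P179R P179C

open P179B (NChain inertialGroup inertialIndex regularElements)

open scoped Classical

universe u

/-- the equality for the blocks with abelian defect group `D` of rank two of the groups with a
nontrivial normal `p`-subgroup `M` centralised by an element of the inertial group not centralising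
`D` -/
def LocR2 (p : ℕ) (k : Type u) [Field k] (red : integralClosure ℤ ℂ →+* k) : Prop :=
  ∀ (H : Type) [Group H] [Finite H] (M : Subgroup H) [M.Normal] (b : MonoidAlgebra k H)
    (D : Subgroup H) (β : MonoidAlgebra k (centralizer (D : Set H))),
    IsPGroup p M → M ≠ ⊥ → IsBlock b → IsDefectGroup b D → (∀ x ∈ D, ∀ y ∈ D, x * y = y * x) →
    IsBlock β → InducesTo β b → Nat.card {x : H // x ∈ D ∧ x ^ p = 1} = p ^ 2 →
    (∃ n ∈ inertialGroup D β, n ∈ centralizer (M : Set H) ∧ n ∉ centralizer (D : Set H)) →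
    numSimpleIn b = numWeightsIn p red b

theorem card_omega_below {p : ℕ} {G : Type*} [Group G] {D H : Subgroup G} {E : Subgroup H} {g : G}
    (hg1 : ∀ x ∈ D, g * x * g⁻¹ ∈ H) (hg2 : ∀ x : H, x ∈ E ↔ g⁻¹ * x * g ∈ D) :
    Nat.card {x : H // x ∈ E ∧ x ^ p = 1} = Nat.card {x : G // x ∈ D ∧ x ^ p = 1} := by
  refine Nat.card_congr
    { toFun := fun x => ⟨g⁻¹ * (x.1 : G) * g, (hg2 x.1).1 x.2.1, ?_⟩
      invFun := fun y => ⟨⟨g * y.1 * g⁻¹, hg1 _ y.2.1⟩, (hg2 _).2 ?_, ?_⟩
      left_inv := fun x => ?_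
      right_inv := fun y => ?_ }
  · have h1 : (x.1 : G) ^ p = 1 := congrArg Subtype.val x.2.2
    have h2 : g⁻¹ * (x.1 : G) * g = g⁻¹ * (x.1 : G) * g⁻¹⁻¹ := by rw [inv_inv]
    rw [h2, conj_pow, h1]
    group
  · have h1 : g⁻¹ * (g * y.1 * g⁻¹) * g = y.1 := by group
    change g⁻¹ * (g * y.1 * g⁻¹) * g ∈ D
    rw [h1]
    exact y.2.1
  · apply Subtype.ext
    change (g * y.1 * g⁻¹) ^ p = 1
    rw [conj_pow, y.2.2]
    group
  · apply Subtype.ext
    apply Subtype.ext
    change g * (g⁻¹ * (x.1 : G) * g) * g⁻¹ = x.1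
    group
  · apply Subtype.ext
    change g⁻¹ * (g * y.1 * g⁻¹) * g = y.1
    group

section

variable {p : ℕ} [hp : Fact p.Prime] {k : Type u} [Field k] [IsAlgClosed k] [hk : CharP k p]
  (red : integralClosure ℤ ℂ →+* k)

/-- **the congruence modulo the exponent, rank two**, relative to `LocR2` -/
theorem dvd_sub_rank2 (hEq : P179H725.EqRel p red) (hL : LocR2 p k red) {G : Type} [Group G]
    [Finite G] {B : MonoidAlgebra k G} (hB : P179B.IsBlock B) {D : Subgroup G}
    (hD : P179B.IsDefectGroup B D) (hab : ∀ a ∈ D, ∀ b ∈ D, a * b = b * a)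
    (h1 : Nat.card {x : G // x ∈ D ∧ x ^ p = 1} = p ^ 2) {a : ℕ} {z : G} (hz : z ∈ D)
    (hza : z ^ p ^ a ≠ 1) :
    (p : ℤ) ^ (a + 1) ∣ (P179B.numSimpleIn B : ℤ) - P179B.numWeightsIn p red B := by
  have := Fintype.ofFinite G
  obtain ⟨β, hβ, hβB⟩ := P179B.exists_root p hB hD
  refine dvd_sub_of_loc red hEq hB hD hab hβ hβB ?_ hz hza
  intro H M _ b E ε g hM hM1 hb hE hEab hε hεb hg1 hg2 hg3 hn
  exact hL H M b E ε hM hM1 hb hE hEab hε hεb ((card_omega_below hg1 hg2).trans h1) hn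

/-- blocks with defect groups of order at most `9`, `p = 3` -/
theorem eq_of_card_le_nine [CharP k 3] {G : Type} [Group G] [Finite G] {B : MonoidAlgebra k G}
    (hB : IsBlock B) {D : Subgroup G} (hD : IsDefectGroup B D) (h : Nat.card D ≤ 9) :
    haveI : Fact (Nat.Prime 3) := ⟨Nat.prime_three⟩
    P179B.numSimpleIn B = P179B.numWeightsIn 3 red B := by
  have : Fact (Nat.Prime 3) := ⟨Nat.prime_three⟩
  have := Fintype.ofFinite G
  have hDp : IsPGroup 3 D := (P179Y.exists_BP_of_block (p := 3) B hB D hD).1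
  refine P179B.equality_small red hB ?_
  obtain ⟨m, hm⟩ := (IsPGroup.iff_card).1 hDp
  have hm2 : m ≤ 2 := by
    by_contra hcon
    push Not at hcon
    have h2 : 3 ^ 3 ≤ 3 ^ m := Nat.pow_le_pow_right (by norm_num) hcon
    rw [hm] at h
    omega
  rcases Nat.lt_or_ge m 2 with hm1 | hm1
  · have hc : IsCyclic D := by
      interval_cases m
      · exact isCyclic_of_card_dvd_prime (p := 3) (by rw [hm]; norm_num)
      · exact isCyclic_of_prime_card (p := 3) (by rw [hm]; norm_num)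
    exact P179B.smallBlock_of_cyclic red hB hD
  · have : m = 2 := le_antisymm hm2 hm1
    subst this
    exact ⟨D, hD, Or.inl ⟨rfl, by rw [hm]; norm_num⟩⟩

/-- `p = 3`: the elementary abelian quotients of the abelian groups of rank two -/
theorem quoEq_three [CharP k 3] {G : Type} [Group G] [Finite G] {D : Subgroup G}
    (hab : ∀ a ∈ D, ∀ b ∈ D, a * b = b * a)
    (h1 : Nat.card {x : G // x ∈ D ∧ x ^ 3 = 1} = 3 ^ 2) {R : Subgroup G}
    (hR : ∀ d ∈ D, d ^ 3 ∈ R) : QuoEq 3 red D R := by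
  intro X _ _ B D' hB hD' hf
  obtain ⟨f, hfs, hfk⟩ := hf
  have h2 : Nat.card D' ≤ 9 := by
    have h3 : Nat.card D = Nat.card D' * Nat.card f.ker := by
      rw [← Nat.card_congr (QuotientGroup.quotientKerEquivOfSurjective f hfs).toEquiv,
        ← Subgroup.card_eq_card_quotient_mul_card_subgroup]
    have h4 := P179H450.card_pw hab 3
    have h5 : Nat.card (P179H450.pw hab 3) ≤ Nat.card f.ker := by
      refine Nat.card_le_card_of_injective (fun x : P179H450.pw hab 3 =>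
        (⟨⟨x.1, ?_⟩, ?_⟩ : f.ker)) ?_
      · obtain ⟨d, hd, hdx⟩ := x.2
        rw [← hdx]
        exact pow_mem hd _
      · obtain ⟨d, hd, hdx⟩ := x.2
        rw [MonoidHom.mem_ker, hfk]
        change x.1 ∈ R
        rw [← hdx]
        exact hR d hd
      · intro x y hxy
        exact Subtype.ext (congrArg (fun z : f.ker => ((z : D) : G)) hxy)
    have h6 : Nat.card (P179H292.omS hab 3) = 9 := h1.trans (by norm_num)
    rw [h6, h3] at h4
    have h7 : Nat.card D' * Nat.card f.ker ≤ 9 * Nat.card f.ker := by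
      rw [← h4]
      exact Nat.mul_le_mul_left _ h5
    exact Nat.le_of_mul_le_mul_right h7 Nat.card_pos
  have h3 := eq_of_card_le_nine red hB hD' h2
  rwa [P179B.numSimpleIn_eq, P179B.numWeightsIn_eq] at h3

/-- `p = 3`: the congruence modulo `9` -/
theorem nine_dvd [CharP k 3] (hEq : haveI : Fact (Nat.Prime 3) := ⟨Nat.prime_three⟩
    P179H725.EqRel 3 red) {G : Type} [Group G]
    [Finite G] {B : MonoidAlgebra k G} (hB : P179B.IsBlock B) {D : Subgroup G}
    (hD : P179B.IsDefectGroup B D) (hab : ∀ a ∈ D, ∀ b ∈ D, a * b = b * a)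
    (h1 : Nat.card {x : G // x ∈ D ∧ x ^ 3 = 1} = 3 ^ 2) {z : G} (hz : z ∈ D)
    (hza : z ^ 3 ≠ 1) :
    (9 : ℤ) ∣ (P179B.numSimpleIn B : ℤ) - P179B.numWeightsIn 3 red B := by
  have : Fact (Nat.Prime 3) := ⟨Nat.prime_three⟩
  have := Fintype.ofFinite G
  obtain ⟨β, hβ, hβB⟩ := P179B.exists_root 3 hB hD
  have h := dvd_delta_rel red (P179H443.krWr 3 k) hEq (P179H450.defQuo 3 k) 1 _ G rfl B D β hB hD
    hab hβ ((P179B.inducesTo_iff β B).1 hβB) ⟨z, hz, by simpa using hza⟩
    (fun R _ _ _ _ _ _ hR => quoEq_three red hab h1 (by simpa using hR))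
  rw [P179B.numSimpleIn_eq, P179B.numWeightsIn_eq]
  norm_num at h
  exact h

/-- **the equality for the abelian defect groups of rank two which are not homocyclic**, `p` odd;
relative to `LocR2` if `p > 3` -/
theorem eq_rank2 (hEq : P179H725.EqRel p red) (h7 : P179H292.M7Stmt p k)
    (hL : 3 < p → LocR2 p k red) (hp2 : p ≠ 2) {G : Type} [Group G]
    [Finite G] {B : MonoidAlgebra k G} (hB : P179B.IsBlock B) {D : Subgroup G}
    (hD : P179B.IsDefectGroup B D) (hab : ∀ a ∈ D, ∀ b ∈ D, a * b = b * a)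
    (h1 : Nat.card {x : G // x ∈ D ∧ x ^ p = 1} = p ^ 2)
    (h2 : ∃ a : ℕ, (∃ z ∈ D, z ^ p ^ a ≠ 1) ∧ ∃ x ∈ D, x ^ p = 1 ∧ ∀ y ∈ D, y ^ p ^ a ≠ x) :
    P179B.numSimpleIn B = P179B.numWeightsIn p red B := by
  have := Fintype.ofFinite G
  obtain ⟨β, hβ, hβB⟩ := P179B.exists_root p hB hD
  have hDp := P179H292.isPGroup_of_defect (p := p) hB hD
  obtain ⟨hw, hdiv⟩ := P179H292.numWeights_le red hB hD hab hβ hβB
  have hTN : inertialGroup D β ≤ normalizer (D : Set G) := fun n hn => hn.1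
  have hCT : centralizer (D : Set G) ≤ inertialGroup D β := by
    intro x hx
    have h3 := P179Y.cent_le_stabT D (fun _ : G → k => (0 : k)) hx
    refine ⟨h3.1, fun y z hyz => ?_⟩
    have hcf := (P179C.mem_center_iff _).1 hβ.1
    have h4 := hcf ⟨x, hx⟩ y
    have h5 : z = ⟨x, hx⟩ * y * ⟨x, hx⟩⁻¹ := Subtype.ext hyz
    rw [h5]
    exact h4
  obtain ⟨w, hwD, hw1, hw2, hw3, hw4, hw5⟩ := P179H450.rank2_gen hDp hab hTN hCT hdiv h1 h2
  -- the congruence modulo `p ^ 2`
  obtain ⟨a, ⟨z, hz, hza⟩, x, hx, hxp, hxa⟩ := h2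
  have ha : a ≠ 0 := by
    rintro rfl
    exact hxa x hx (by rw [pow_zero, pow_one])
  have hzp : z ^ p ^ 1 ≠ 1 := by
    intro h
    apply hza
    obtain ⟨c, rfl⟩ := Nat.exists_eq_succ_of_ne_zero ha
    rw [Nat.succ_eq_add_one, add_comm, pow_add, pow_mul, h, one_pow]
  have hdvd : (p : ℤ) ^ (1 + 1) ∣ (P179B.numSimpleIn B : ℤ) - P179B.numWeightsIn p red B := by
    have hp3 : 3 ≤ p := by
      have := hp.out.two_le
      omega
    rcases hp3.eq_or_lt with rfl | hp3
    · have h := nine_dvd red hEq hB hD hab h1 hz (by simpa using hzp)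
      norm_num
      exact h
    · exact dvd_sub_rank2 red hEq (hL hp3) hB hD hab h1 hz hzp
  have hmod : P179B.numSimpleIn B ≡ P179B.numWeightsIn p red B [MOD p ^ 2] := by
    rw [← Int.natCast_modEq_iff]
    refine Int.ModEq.symm ((Int.modEq_iff_dvd).2 ?_)
    exact_mod_cast hdvd
  -- the bound
  have hl0 : 0 < P179B.numSimpleIn B := by
    rw [P179B.numSimpleIn_eq]
    exact P179C.numSimpleIn_pos B hB
  have h8 := h7 G B D β 1 p w hB hD hab hβ hβB le_rfl hwD (by simpa using hw1)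
    (by simpa using hw2) hw3
  rw [pow_one] at h8
  have hY : 0 < Nat.card {y : G // ∃ d ∈ D, d ^ p = y} := by
    rw [Nat.card_pos_iff]
    exact ⟨⟨⟨1, 1, one_mem D, one_pow _⟩⟩, inferInstance⟩
  have hl : P179B.numSimpleIn B ≤ p ^ 2 := by
    have h9 : P179B.numSimpleIn B * (Nat.card {y : G // ∃ d ∈ D, d ^ p = y} * p) ≤
        p ^ 2 * (Nat.card {y : G // ∃ d ∈ D, d ^ p = y} * p) := by
      rw [← mul_assoc, ← mul_assoc, ← hw4]
      exact h8
    exact Nat.le_of_mul_le_mul_right h9 (Nat.mul_pos hY hp.out.pos)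
  have hwp : P179B.numWeightsIn p red B ≤ p ^ 2 :=
    (hw.trans hw5).trans (Nat.pow_le_pow_left (Nat.sub_le _ _) 2)
  exact P179H292.eq_of_modEq_le hmod hl0 hl (P179H292.numWeights_pos red hB hD hab) hwp

end

end P179H443
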