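import Vale.Agent.P179.R2.H443.Rank2T

/-!
# Defect groups `C_(p^2) × C_(p^2)`: the equality from the bound `l(B) ≤ p^2`
-/

namespace P179H443

open Subgroup P179H524 P179R P179C

open P179B (inertialGroup inertialIndex)

open scoped Classical

universe u

/-- `D ≅ C_(p^2) × C_(p^2)`, for abelian `D` -/
def HomSq (p : ℕ) {G : Type*} [Group G] (D : Subgroup G) : Prop :=
  Nat.card {x : G // x ∈ D ∧ x ^ p = 1} = p ^ 2 ∧ (∀ x ∈ D, x ^ p = 1 → ∃ y ∈ D, y ^ p = x) ∧
    ∀ x ∈ D, x ^ p ^ 2 = 1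

/-- the bound for the blocks with defect groups `C_(p^2) × C_(p^2)` -/
def BdSq (p : ℕ) (k : Type u) [Field k] : Prop :=
  ∀ (G : Type) [Group G] [Finite G] (B : MonoidAlgebra k G) (D : Subgroup G),
    P179B.IsBlock B → P179B.IsDefectGroup B D → (∀ x ∈ D, ∀ y ∈ D, x * y = y * x) →
    HomSq p D → P179B.numSimpleIn B ≤ p ^ 2

theorem homSq_below {p : ℕ} {G : Type*} [Group G] {D H : Subgroup G} {E : Subgroup H} {g : G}
    (hg1 : ∀ x ∈ D, g * x * g⁻¹ ∈ H) (hg2 : ∀ x : H, x ∈ E ↔ g⁻¹ * x * g ∈ D)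
    (h : HomSq p D) : HomSq p E := by
  obtain ⟨h1, h2, h3⟩ := h
  have key : ∀ (x : G) (n : ℕ), (g⁻¹ * x * g) ^ n = g⁻¹ * x ^ n * g := by
    intro x n
    have := conj_pow (i := n) (a := g⁻¹) (b := x)
    rwa [inv_inv] at this
  refine ⟨(card_omega_below hg1 hg2).trans h1, ?_, ?_⟩
  · intro x hx hxp
    have hxp' : (x : G) ^ p = 1 := congrArg Subtype.val hxp
    obtain ⟨y, hy, hyx⟩ := h2 _ ((hg2 x).1 hx) (by rw [key, hxp']; group)
    refine ⟨⟨g * y * g⁻¹, hg1 y hy⟩, (hg2 _).2 ?_, Subtype.ext ?_⟩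
    · have h4 : g⁻¹ * (g * y * g⁻¹) * g = y := by group
      change g⁻¹ * (g * y * g⁻¹) * g ∈ D
      rwa [h4]
    · change (g * y * g⁻¹) ^ p = x
      rw [conj_pow, hyx]
      group
  · intro x hx
    have h4 := h3 _ ((hg2 x).1 hx)
    rw [key] at h4
    apply Subtype.ext
    change (x : G) ^ p ^ 2 = 1
    calc (x : G) ^ p ^ 2 = g * (g⁻¹ * (x : G) ^ p ^ 2 * g) * g⁻¹ := by group
      _ = 1 := by rw [h4]; group

section

variable {p : ℕ} [hp : Fact p.Prime] {k : Type u} [Field k] [IsAlgClosed k] [hk : CharP k p]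
  (red : integralClosure ℤ ℂ →+* k)

/-- the bound also holds for the number of weights -/
theorem numWeights_le_of_bdSq (hbd : BdSq p k) {G : Type} [Group G] [Finite G]
    {B : MonoidAlgebra k G} (hB : P179B.IsBlock B) {D : Subgroup G}
    (hD : P179B.IsDefectGroup B D) (hab : ∀ a ∈ D, ∀ b ∈ D, a * b = b * a) (h : HomSq p D) :
    P179B.numWeightsIn p red B ≤ p ^ 2 := by
  have := Fintype.ofFinite G
  obtain ⟨β, hβ, hβB⟩ := P179B.exists_root p hB hD
  have hDp := P179H292.isPGroup_of_defect (p := p) hB hD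
  obtain ⟨b, hb, hbB, -, hn, -⟩ := P179H450.W1_corr p red hB hD hab
  obtain ⟨E, ε, g, hE, -, hEab, -, -, -, -, hg1, hg2, -⟩ :=
    P179H725.below_data (p := p) hB hD hab hβ ((P179B.inducesTo_iff β B).1 hβB) hDp
      le_normalizer le_rfl (P179Y.cent_le_norm D) hb hbB
  have h1 := hbd (normalizer (D : Set G)) b E hb hE hEab (homSq_below hg1 hg2 h)
  rw [P179B.numSimpleIn_eq, hn] at h1
  rw [P179B.numWeightsIn_eq]
  exact h1

/-- **the equality for the defect groups `C_(p^2) × C_(p^2)`, from the bound** -/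
theorem eq_of_bdSq (hbd : BdSq p k) {G : Type} [Group G] [Finite G]
    {B : MonoidAlgebra k G} (hB : P179B.IsBlock B) {D : Subgroup G}
    (hD : P179B.IsDefectGroup B D) (hab : ∀ a ∈ D, ∀ b ∈ D, a * b = b * a) (h : HomSq p D) :
    P179B.numSimpleIn B = P179B.numWeightsIn p red B := by
  have := Fintype.ofFinite G
  obtain ⟨β, hβ, hβB⟩ := P179B.exists_root p hB hD
  have hDp := P179H292.isPGroup_of_defect (p := p) hB hD
  obtain ⟨-, hdiv⟩ := P179H292.numWeights_le red hB hD hab hβ hβB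
  have hTN : inertialGroup D β ≤ normalizer (D : Set G) := fun n hn => hn.1
  have hstar := P179H725.star_homocyclic (a := 1) hDp hab
    (fun x hx hxp => by simpa using h.2.1 x hx hxp) hTN hdiv
  have hmod := P179H292.modEq_of_star red (P179H843.eqRel p k red) (P179H450.defQuo p k) hB hD hab
    hβ hβB (a := 1) hstar
  have hl0 : 0 < P179B.numSimpleIn B := by
    rw [P179B.numSimpleIn_eq]
    exact P179C.numSimpleIn_pos B hB
  exact P179H292.eq_of_modEq_le hmod hl0 (hbd G B D hB hD hab h)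
    (P179H292.numWeights_pos red hB hD hab) (numWeights_le_of_bdSq red hbd hB hD hab h)

end

end P179H443
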