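import Vale.Agent.P179.R2.H443.Asm5
import Vale.Agent.P179.R2.H450.KN
import Vale.Agent.P179.R2.H450.As1

/-!
# Defect groups `C_(p^2) × C_(p^2)`: the equality
-/

namespace P179H443

open Subgroup P179H524 P179R P179C P179Y P179I P179P

open scoped Classical

universe u

section

variable {p : ℕ} [hp : Fact p.Prime] {k : Type u} [Field k] [IsAlgClosed k] [hk : CharP k p]
  (red : integralClosure ℤ ℂ →+* k)

/-- the bound for the number of rational characters -/
theorem case2 (hp2 : p ≠ 2) : P179H450.Case2 p k red := by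
  intro G _ _ D l w t s m₁ hl hD hab hT hsq hs hmc hm1 hgen
  have hab' : D ≤ centralizer (D : Set G) := by
    intro x hx
    rw [mem_centralizer_iff]
    intro y hy
    exact hab y hy x hx
  obtain ⟨m, ψ, σ, hN⟩ := P179H450.exists_nDat red hl hD hab hp2 hT hsq hs
  obtain ⟨Φ, aH, bH, ε, κ₀, hL⟩ := exists_LocR (red := red) hl hD hab'
  exact card_X1_le hs hN hL hl hD hab' hp2 hT hsq hmc hm1 hgen

include red in
/-- **the bound** `l(B) ≤ p ^ 2` for the defect groups `C_(p^2) × C_(p^2)` -/
theorem bdSq (hp2 : p ≠ 2) : BdSq p k := P179H450.bdSq_of_case2 red hp2 (case2 red hp2)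

/-- **the equality for the defect groups `C_(p^2) × C_(p^2)`**, `p` odd, any group, any fusion -/
theorem eq_sq (hp2 : p ≠ 2) {G : Type} [Group G] [Finite G]
    {B : MonoidAlgebra k G} (hB : P179B.IsBlock B) {D : Subgroup G}
    (hD : P179B.IsDefectGroup B D) (hab : ∀ a ∈ D, ∀ b ∈ D, a * b = b * a) (h : HomSq p D) :
    P179B.numSimpleIn B = P179B.numWeightsIn p red B :=
  eq_of_bdSq red (bdSq red hp2) hB hD hab h

end

end P179H443
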