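import Vale.Agent.P179.R2.H12.Wat1
import Vale.Agent.P179.R2.H12.Tst

/-!
# The statement of the equality `l(B) = l(B_L)`
-/

namespace P179H443

open Subgroup P179H524 P179C P179A P179P P179Y P179H12

open scoped Classical

universe u

/-- **(EQW)** `M` is a subgroup of `D` normalised by `T = stabT D l`, and `R` is the group of the
fixed points of `C_T(M)` on `D`. The number of simple modules of `T C_G(M)` in the block of
`C_G(M)` below `l` is the number of simple modules of `T C_G(R)` in the block of `C_G(R)`
below `l`. -/
def EqwStmt (p : ℕ) (k : Type u) [Field k] : Prop :=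
  ∀ (G : Type) [Group G] [Fintype G] (D M R : Subgroup G) (l : (G → k) → k),
    BP p D l → IsPGroup p D → D ≤ centralizer (D : Set G) →
    ¬ p ∣ (centralizer (D : Set G)).relIndex (stabT D l) →
    M ≤ D → (∀ t ∈ stabT D l, ∀ x ∈ M, t * x * t⁻¹ ∈ M) →
    R = D ⊓ centralizer ((stabT D l ⊓ centralizer (M : Set G) : Subgroup G) : Set G) →
    numSimpleIn (mkF fun g : (stabT D l ⊔ centralizer (M : Set G) : Subgroup G) =>
        eH (centralizer (M : Set G)) l g) =
      numSimpleIn (mkF fun g : (stabT D l ⊔ centralizer (R : Set G) : Subgroup G) =>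
        eH (centralizer (R : Set G)) l g)

end P179H443
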