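import Vale.Agent.P179.R2.H443.Rank2
import Vale.Agent.P179.R2.H843.EqClose
import Vale.Agent.P179.R2.H452.M7

/-!
# Abelian defect groups of rank two which are not homocyclic
-/

namespace P179H443

open Subgroup P179H524 P179R P179C

open scoped Classical

universe u

section

variable {p : ℕ} [hp : Fact p.Prime] {k : Type u} [Field k] [IsAlgClosed k] [hk : CharP k p]
  (red : integralClosure ℤ ℂ →+* k)

/-- **the equality for the abelian defect groups of rank two which are not homocyclic**, `p` odd;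
relative to `LocR2` if `p > 3` -/
theorem eq_rank2_loc (hL : 3 < p → LocR2 p k red) (hp2 : p ≠ 2) {G : Type} [Group G]
    [Finite G] {B : MonoidAlgebra k G} (hB : P179B.IsBlock B) {D : Subgroup G}
    (hD : P179B.IsDefectGroup B D) (hab : ∀ a ∈ D, ∀ b ∈ D, a * b = b * a)
    (h1 : Nat.card {x : G // x ∈ D ∧ x ^ p = 1} = p ^ 2)
    (h2 : ∃ a : ℕ, (∃ z ∈ D, z ^ p ^ a ≠ 1) ∧ ∃ x ∈ D, x ^ p = 1 ∧ ∀ y ∈ D, y ^ p ^ a ≠ x) :
    P179B.numSimpleIn B = P179B.numWeightsIn p red B :=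
  eq_rank2 red (P179H843.eqRel p k red) (P179H452.m7Stmt red hp2) hL hp2 hB hD hab h1 h2

end

section

variable {k : Type u} [Field k] [IsAlgClosed k] [hk : CharP k 3]
  (red : integralClosure ℤ ℂ →+* k)

/-- `p = 3`: the congruence modulo `9`, abelian defect groups of rank two and exponent at least
`9` -/
theorem modEq_nine {G : Type} [Group G] [Finite G] {B : MonoidAlgebra k G}
    (hB : P179B.IsBlock B) {D : Subgroup G}
    (hD : P179B.IsDefectGroup B D) (hab : ∀ a ∈ D, ∀ b ∈ D, a * b = b * a)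
    (h1 : Nat.card {x : G // x ∈ D ∧ x ^ 3 = 1} = 3 ^ 2) {z : G} (hz : z ∈ D)
    (hza : z ^ 3 ≠ 1) :
    P179B.numSimpleIn B ≡ P179B.numWeightsIn 3 red B [MOD 9] := by
  have : Fact (Nat.Prime 3) := ⟨Nat.prime_three⟩
  have h := nine_dvd red (P179H843.eqRel 3 k red) hB hD hab h1 hz hza
  rw [← Int.natCast_modEq_iff]
  refine Int.ModEq.symm ((Int.modEq_iff_dvd).2 ?_)
  exact_mod_cast h

/-- **`p = 3`: the equality for the abelian defect groups of rank two which are not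
homocyclic** -/
theorem eq_rank2_three {G : Type} [Group G] [Finite G] {B : MonoidAlgebra k G}
    (hB : P179B.IsBlock B) {D : Subgroup G}
    (hD : P179B.IsDefectGroup B D) (hab : ∀ a ∈ D, ∀ b ∈ D, a * b = b * a)
    (h1 : Nat.card {x : G // x ∈ D ∧ x ^ 3 = 1} = 3 ^ 2)
    (h2 : ∃ a : ℕ, (∃ z ∈ D, z ^ 3 ^ a ≠ 1) ∧ ∃ x ∈ D, x ^ 3 = 1 ∧ ∀ y ∈ D, y ^ 3 ^ a ≠ x) :
    P179B.numSimpleIn B = P179B.numWeightsIn 3 red B := by
  have : Fact (Nat.Prime 3) := ⟨Nat.prime_three⟩
  exact eq_rank2_loc red (fun h => absurd h (lt_irrefl 3)) (by norm_num) hB hD hab h1 h2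

end

end P179H443
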