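import Vale.Agent.P179.R2.H443.RelM
import Vale.Agent.P179.R2.H351.Ind4
import Vale.Agent.P179.R2.H443.Glue
import Vale.Agent.P179.R2.H843.EqClose

/-!
# The congruence modulo a power of `p`, relative to `EqwStmt`
-/

namespace P179H443

open Subgroup P179H524 P179A P179K P179R P179C P179H292

open P179B (NChain inertialGroup inertialIndex)

open scoped Classical

universe u

section Defs

variable (p : ℕ) {k : Type u} [Field k] (red : integralClosure ℤ ℂ →+* k) {G : Type*} [Group G]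

/-- the equality holds for the defect groups `[D, F]`, for the subgroups `F` of `T` not
centralising `D` but centralising a subgroup `M ≠ 1` of `D` which contains `D ^ (p ^ a)` -/
def StarF (a : ℕ) (D T : Subgroup G) : Prop :=
  ∀ F ≤ T, centralizer (D : Set G) ≤ F → ∀ M ≤ D, M ≠ ⊥ → (∀ d ∈ D, d ^ p ^ a ∈ M) →
    F ≤ centralizer (M : Set G) → ¬ F ≤ centralizer (D : Set G) →
    EqFor p red (⁅F, D⁆ : Subgroup G)

variable {p}

theorem starF_below {a : ℕ} {D T : Subgroup G} (h : StarF p red a D T) {H : Subgroup G}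
    {E TE : Subgroup H} {g : G} (h0 : ∀ c ∈ centralizer (D : Set G), g * c * g⁻¹ ∈ H)
    (h1 : ∀ x ∈ D, g * x * g⁻¹ ∈ H) (h2 : ∀ x : H, x ∈ E ↔ g⁻¹ * x * g ∈ D)
    (h3 : ∀ n : H, n ∈ TE ↔ g⁻¹ * n * g ∈ T) : StarF p red a E TE := by
  intro F' hF' hCF' M' hM' hM1 hpow hFM hFE
  let φ : H →* G := (MulAut.conj g⁻¹).toMonoidHom.comp H.subtype
  have hφ : ∀ x : H, φ x = g⁻¹ * x * g := by
    intro x
    change g⁻¹ * (x : G) * g⁻¹⁻¹ = _
    rw [inv_inv]
  have hφi : Function.Injective φ := (MulAut.conj g⁻¹).injective.comp H.subtype_injective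
  have hED : E.map φ = D := by
    ext x
    constructor
    · rintro ⟨e, he, rfl⟩
      rw [hφ]
      exact (h2 e).1 he
    · intro hx
      refine ⟨⟨g * x * g⁻¹, h1 x hx⟩, ?_, ?_⟩
      · rw [SetLike.mem_coe, h2]
        have h5 : g⁻¹ * (g * x * g⁻¹) * g = x := by group
        change g⁻¹ * (g * x * g⁻¹) * g ∈ D
        rwa [h5]
      · rw [hφ]
        change g⁻¹ * (g * x * g⁻¹) * g = x
        group
  have hmemD : ∀ x ∈ D, ∃ e ∈ E, φ e = x := by
    intro x hx
    rw [← hED] at hx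
    exact hx
  have hK : (⁅F'.map φ, D⁆ : Subgroup G) = (⁅F', E⁆ : Subgroup H).map φ := by
    rw [map_commutator, hED]
  have hmain : EqFor p red (⁅F'.map φ, D⁆ : Subgroup G) := by
    refine h (F'.map φ) ?_ ?_ (M'.map φ) ?_ ?_ ?_ ?_ ?_
    · rintro _ ⟨f, hf, rfl⟩
      rw [hφ]
      exact (h3 f).1 (hF' hf)
    · intro c hc
      refine ⟨⟨g * c * g⁻¹, h0 c hc⟩, hCF' ?_, ?_⟩
      · rw [mem_centralizer_iff]
        intro e he
        apply Subtype.ext
        change (e : G) * (g * c * g⁻¹) = g * c * g⁻¹ * e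
        have h4 := mem_centralizer_iff.1 hc _ ((h2 e).1 he)
        calc (e : G) * (g * c * g⁻¹) = g * (g⁻¹ * e * g * c) * g⁻¹ := by group
          _ = g * c * g⁻¹ * e := by rw [h4]; group
      · rw [hφ]
        change g⁻¹ * (g * c * g⁻¹) * g = c
        group
    · rw [← hED]
      exact map_mono hM'
    · intro h4
      exact hM1 ((map_eq_bot_iff_of_injective _ hφi).1 h4)
    · intro d hd
      obtain ⟨e, he, rfl⟩ := hmemD d hd
      rw [← map_pow]
      exact mem_map_of_mem φ (hpow e he)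
    · rintro _ ⟨f, hf, rfl⟩
      rw [mem_centralizer_iff]
      rintro _ ⟨m, hm, rfl⟩
      rw [← map_mul, ← map_mul, mem_centralizer_iff.1 (hFM hf) m hm]
    · intro h4
      apply hFE
      intro f hf
      rw [mem_centralizer_iff]
      intro e he
      apply hφi
      rw [map_mul, map_mul]
      exact mem_centralizer_iff.1 (h4 (mem_map_of_mem φ hf)) (φ e) (by
        rw [SetLike.mem_coe, ← hED]
        exact mem_map_of_mem φ he)
  exact hmain.congr ((equivMapOfInjective _ φ hφi).trans (MulEquiv.subgroupCongr hK.symm))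

end Defs

section Rel

variable {p : ℕ} [hp : Fact p.Prime] {k : Type u} [Field k] [IsAlgClosed k] [hk : CharP k p]
  (red : integralClosure ℤ ℂ →+* k)

/-- **The congruence modulo `p ^ (a + 1)`**, relative to `EqwStmt` and to the equality for the
defect groups `[D, F]`. -/
theorem dvd_of_eqw (hE : EqwStmt p k) (hkr : P179H292.KrWr p k) (hEq : P179H725.EqRel p red)
    (hQ : P179H725.DefQuo p k) (a : ℕ) :
    ∀ (N : ℕ) (G : Type) [Group G] [Finite G], Nat.card G = N →
      ∀ (B : MonoidAlgebra k G) (D : Subgroup G) (β : MonoidAlgebra k (centralizer (D : Set G))),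
      IsBlock B → IsDefectGroup B D → (∀ a ∈ D, ∀ b ∈ D, a * b = b * a) → IsBlock β →
      InducesTo β B → (∃ d ∈ D, d ^ p ^ a ≠ 1) → StarF p red a D (inertialGroup D β) →
      (p : ℤ) ^ (a + 1) ∣ (numSimpleIn B : ℤ) - numWeightsIn p red B := by
  intro N
  induction N using Nat.strong_induction_on with
  | _ N ih =>
  intro G _ _ hN B D β hB hD hab hβ hβB hex hstar
  have := Fintype.ofFinite G
  by_cases hT : ∀ n ∈ inertialGroup D β, n ∈ centralizer (D : Set G)
  · have h1 : inertialIndex D β = 1 := relIndex_eq_one.2 hT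
    have h2 := P179I.equality_half red hB hD hab hβ hβB (by rw [h1]; exact hp.out.two_le)
    rw [h2, sub_self]
    exact dvd_zero _
  obtain ⟨R, hRn, hR, hO⟩ := P179H725.exists_Op p G
  by_cases hC : ∀ n ∈ inertialGroup D β, n ∈ centralizer (R : Set G) →
      n ∈ centralizer (D : Set G)
  · have hR1 : R ≠ ⊥ := by
      rintro rfl
      apply hT
      intro n hn
      refine hC n hn ?_
      rw [mem_centralizer_iff]
      intro x hx
      rw [SetLike.mem_coe, mem_bot] at hx
      rw [hx, one_mul, mul_one]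
    rw [hEq G B D β R hR hR1 hB hD hab hβ hβB hC, sub_self]
    exact dvd_zero _
  push Not at hC
  obtain ⟨n, hn, hnR, hnD⟩ := hC
  have hRD : R ≤ D := P179H725.le_defect hB hD R hR
  have hCT : centralizer (D : Set G) ≤ inertialGroup D β := by
    obtain ⟨l, hl, hlz, hlb⟩ := P179Y.exists_BP_of_subblock (p := p) hB hD hab hβ hβB
    rw [← P179Y.stabT_eq_inertialGroup hβ hlb]
    exact P179Y.cent_le_stabT D l
  by_cases hdR : ∀ d ∈ D, d ^ p ^ a ∈ R
  · have hR1 : R ≠ ⊥ := by
      rintro rfl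
      obtain ⟨d, hd, hd1⟩ := hex
      exact hd1 (mem_bot.1 (hdR d hd))
    rw [eq_of_eqw red hE hQ R hR hB hD hab hβ hβB (hstar _ inf_le_left
      (le_inf hCT (centralizer_le hRD)) R hRD hR1 hdR inf_le_right
      fun h => hnD (h ⟨hn, hnR⟩)), sub_self]
    exact dvd_zero _
  push Not at hdR
  obtain ⟨d, hd, hdR⟩ := hdR
  have hbelow : ∀ B' : MonoidAlgebra k (G ⧸ R), IsBlock B' → B' * quo R B = B' →
      ∃ D' : Subgroup (G ⧸ R), IsDefectGroup B' D' ∧ ∃ z : D', z ∈ center D' ∧
        z ^ p ^ a ∉ commutator D' := by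
    intro B' hB' hBB'
    obtain ⟨D', g, hD', hg⟩ := hQ G B D R B' hR hB hD hab hB' hBB'
    have habD : ∀ x ∈ D', ∀ y ∈ D', x * y = y * x := by
      intro x hx y hy
      obtain ⟨x0, hx0, hx1⟩ := (hg x).1 hx
      obtain ⟨y0, hy0, hy1⟩ := (hg y).1 hy
      have h1 : (QuotientGroup.mk' R) (x0 * y0) = (QuotientGroup.mk' R) (y0 * x0) :=
        congrArg _ (hab x0 hx0 y0 hy0)
      rw [map_mul, map_mul, hx1, hy1] at h1
      calc x * y = g * (g⁻¹ * x * g * (g⁻¹ * y * g)) * g⁻¹ := by group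
        _ = y * x := by rw [h1]; group
    have hcomm : commutator D' = ⊥ := by
      rw [_root_.commutator_def, commutator_eq_bot_iff_le_centralizer]
      intro x _
      rw [mem_centralizer_iff]
      intro y _
      exact Subtype.ext (habD y y.2 x x.2)
    have hz : g * (d : G ⧸ R) * g⁻¹ ∈ D' := by
      rw [hg]
      have : g⁻¹ * (g * (d : G ⧸ R) * g⁻¹) * g = d := by group
      rw [this]
      exact ⟨d, hd, rfl⟩
    refine ⟨D', hD', ⟨_, hz⟩, ?_, ?_⟩
    · rw [Subgroup.mem_center_iff]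
      intro y
      exact Subtype.ext (habD y y.2 _ hz)
    · rw [hcomm, mem_bot]
      intro h1
      have h2 : (g * (d : G ⧸ R) * g⁻¹) ^ p ^ a = 1 := congrArg Subtype.val h1
      rw [conj_pow] at h2
      have h3 : ((d : G ⧸ R)) ^ p ^ a = 1 := by
        calc (d : G ⧸ R) ^ p ^ a = g⁻¹ * (g * (d : G ⧸ R) ^ p ^ a * g⁻¹) * g := by group
          _ = 1 := by rw [h2]; group
      apply hdR
      rw [← QuotientGroup.eq_one_iff]
      exact h3
  refine P179H854.delta_dvd_quo (R := R) red hR hO hB _ ?_ ?_ ?_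
  · intro B' hB' hBB'
    obtain ⟨D', hD', z, -, hz⟩ := hbelow B' hB' hBB'
    refine ⟨D', hD', ?_⟩
    rintro rfl
    apply hz
    have : z ^ p ^ a = 1 := Subsingleton.elim _ _
    rw [this]
    exact one_mem _
  · intro B' hB' hBB'
    obtain ⟨D', hD', z, hz, hz1⟩ := hbelow B' hB' hBB'
    exact P179H292.pow_dvd_krSum hkr a (G ⧸ R) B' hB' D' hD' z hz hz1
  · intro s _ hs b hb hbB
    obtain ⟨M, hMs, -, hMp, hM1, hMle, hMn, hMC⟩ := P179H725.exists_top s
    have hHM : stab s.1 ≤ normalizer (M : Set G) := fun g hg => (mem_stab.1 hg) M hMs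
    obtain ⟨E, ε, g, hE, hME, hEab, hε, hεb, -, -, hg1, hg2, hg3⟩ :=
      P179H725.below_data hB hD hab hβ hβB hMp hMle hHM hMC hb hbB
    have hg0 : ∀ c ∈ centralizer (D : Set G), g * c * g⁻¹ ∈ stab s.1 := by
      intro c hc
      apply hMC
      rw [mem_centralizer_iff]
      intro m hm
      have h4 : g⁻¹ * m * g ∈ D := (hg2 ⟨m, hMle hm⟩).1 (hME (mem_subgroupOf.2 hm))
      have h5 := mem_centralizer_iff.1 hc _ h4
      calc m * (g * c * g⁻¹) = g * (g⁻¹ * m * g * c) * g⁻¹ := by group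
        _ = g * c * g⁻¹ * m := by rw [h5]; group
    refine ih (Nat.card (stab s.1)) ?_ (stab s.1) rfl b E ε hb hE hEab hε hεb ?_
      (starF_below red hstar hg0 hg1 hg2 hg3)
    · rw [← hN]
      exact lt_of_le_of_ne (card_le_card_group (stab s.1))
        fun h => hs (card_eq_iff_eq_top _ |>.1 h)
    · obtain ⟨d, hd, hd1⟩ := hex
      refine ⟨⟨g * d * g⁻¹, hg1 d hd⟩, (hg2 _).2 ?_, ?_⟩
      · have h5 : g⁻¹ * (g * d * g⁻¹) * g = d := by group
        change g⁻¹ * (g * d * g⁻¹) * g ∈ D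
        rwa [h5]
      · intro h1
        have h2 : (g * d * g⁻¹) ^ p ^ a = 1 := congrArg Subtype.val h1
        rw [conj_pow] at h2
        apply hd1
        calc d ^ p ^ a = g⁻¹ * (g * d ^ p ^ a * g⁻¹) * g := by group
          _ = 1 := by rw [h2]; group

omit [IsAlgClosed k] hk in
/-- a solved family of direct factors gives the hypothesis of `dvd_of_eqw` -/
theorem starF_of_fac {G : Type} [Group G] [Finite G] {D T : Subgroup G} {a : ℕ}
    (hD : IsPGroup p D) (hab : ∀ x ∈ D, ∀ y ∈ D, x * y = y * x)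
    (hTN : T ≤ normalizer (D : Set G)) (hT : ¬ p ∣ (centralizer (D : Set G)).relIndex T)
    (h : P179H351.FacSolved p red a D) : StarF p red a D T := by
  intro F hFT hCF M hMD _ hpow hFM _
  have hFN : F ≤ normalizer (D : Set G) := hFT.trans hTN
  have hF : ¬ p ∣ (centralizer (D : Set G)).relIndex F := by
    intro h1
    apply hT
    refine h1.trans ?_
    rw [← relIndex_mul_relIndex (centralizer (D : Set G)) F T hCF hFT]
    exact dvd_mul_right _ _
  have hfix : ∀ d ∈ D, d ∈ D ⊓ centralizer (F : Set G) ↔ ∀ t ∈ F, t * d * t⁻¹ = d := by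
    intro d hd
    rw [mem_inf, mem_centralizer_iff]
    refine ⟨fun h1 t ht => ?_, fun h1 => ⟨hd, fun t ht => ?_⟩⟩
    · rw [h1.2 t ht, mul_inv_cancel_right]
    · calc t * d = t * d * t⁻¹ * t := by group
        _ = d * t := by rw [h1 t ht]
  refine h _ ⟨comm_le hFN, D ⊓ centralizer (F : Set G), inf_le_left, fun x hx hxK => ?_,
    fun d hd => ?_⟩ fun x hx => ?_
  · exact comm_inf_fix hD hab hFN hF hxK ((hfix x hx.1).1 hx)
  · obtain ⟨y, hy, hyfix, z, hz, hyz⟩ := mem_fix_mul hD hab hFN hF hd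
    exact ⟨y, (hfix y hy).2 hyfix, z, hz, hyz⟩
  · have hxD : x ∈ D := comm_le hFN hx
    refine comm_inf_fix hD hab hFN hF (pow_mem hx _) fun t ht => ?_
    rw [← (mem_centralizer_iff.1 (hFM ht)) _ (hpow x hxD), mul_inv_cancel_right]

/-- **(W7)** -/
theorem w7Stmt_of (hE : EqwStmt p k) : P179H351.W7Stmt p k red := by
  intro G _ _ B D β a hB hDB hab hβ hβB hex hfac
  have hB' : IsBlock B := hB
  have hDB' : IsDefectGroup B D := hDB
  have hβ' : IsBlock β := hβ
  have hβB' : InducesTo β B := (P179B.inducesTo_iff β B).1 hβB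
  have := Fintype.ofFinite G
  obtain ⟨l, hl, hlz, hlb⟩ := P179Y.exists_BP_of_subblock (p := p) hB' hDB' hab hβ' hβB'
  have hST : P179Y.stabT D l = inertialGroup D β := P179Y.stabT_eq_inertialGroup hβ' hlb
  have hD : IsPGroup p D := (P179Y.exists_BP_of_block (p := p) B hB' D hDB').1
  have hT : ¬ p ∣ (centralizer (D : Set G)).relIndex (inertialGroup D β) := by
    rw [← hST]
    exact P179Y.hT_of_block hB' hDB' hD hab hl hlz
  rw [P179B.numSimpleIn_eq, P179B.numWeightsIn_eq]
  exact dvd_of_eqw red hE (krWr p k) (P179H843.eqRel p k red) (P179H450.defQuo p k) a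
    _ G rfl B D β hB' hDB' hab hβ' hβB' hex
    (starF_of_fac red hD hab (fun n hn => hn.1) hT hfac)

end Rel

end P179H443
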