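import Vale.Agent.P179.R2.H443.KnDef
import Vale.Agent.P179.R2.H450.Ab4
import Vale.Agent.P179.R2.H450.RegB
import Vale.Agent.P179.R2.H12.Small2
import Vale.Agent.P179.R2.H364.KnCov
import Vale.Agent.P179.R2.H450.Ab6
import Vale.Agent.P179.R2.H364.KForm2

/-!
# The equality for the groups `K` with the action of `S` which satisfy `Known`
-/

namespace P179H443

open Subgroup P179H524 P179R P179Y P179H292 P179H351

open P179B (inertialIndex inertialGroup regularElements hyperfocal Known GrowBy facA facB)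

open scoped Classical

universe u

section Act

variable {G X : Type*} [Group G] [Group X] {K S : Subgroup G} {D' T' : Subgroup X}

theorem rankTwo_act {p : ℕ} (h : ActSub K S D' T') (hK : P179B.RankTwoNotElem p K) :
    P179B.RankTwoNotElem p D' := by
  refine ⟨(P179H364.card_omega_act p h).trans hK.1, hK.2.imp_right ?_⟩
  rintro ⟨z, hz, hz1⟩
  obtain ⟨e, -⟩ := h
  refine ⟨e ⟨z, hz⟩, (e _).2, fun h1 => hz1 ?_⟩
  have h2 : e (⟨z, hz⟩ ^ p) = 1 := by
    rw [map_pow]
    exact Subtype.ext h1
  exact congrArg Subtype.val ((MulEquiv.map_eq_one_iff e).1 h2)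

/-- **`Known` is preserved by isomorphisms and restriction of the action** -/
theorem known_act [Finite G] {p : ℕ} (hS : S ≤ normalizer (K : Set G)) (h : ActSub K S D' T')
    (hK : Known p K S) : Known p D' T' := by
  have hc : ∀ t ∈ S, ∀ x ∈ K, t * x * t⁻¹ ∈ K := fun t ht x hx =>
    (mem_normalizer_iff.1 (hS ht) x).1 hx
  rcases hK with hK | hK | ⟨h1, hK⟩ | ⟨j, h1, hK⟩ | ⟨h1, hK⟩ | hK | ⟨h1, hK⟩
  · exact Or.inl (rankTwo_act h hK)
  · obtain ⟨e, -⟩ := h
    exact Or.inr (Or.inl (P179H450.growBy_equiv e hK))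
  · refine Or.inr (Or.inr (Or.inl ⟨?_, ?_⟩))
    · exact (P179H450.ActAb.act h ⟨hS, h1⟩).2
    · obtain ⟨e, -⟩ := h
      exact P179H450.growBy_equiv e hK
  · refine Or.inr (Or.inr (Or.inr (Or.inl ⟨j, (P179H364.relIndex_act hc h).trans h1, ?_⟩)))
    obtain ⟨e, -⟩ := h
    exact P179H450.growBy_equiv e hK
  · have h2 := P179H364.relIndex_act hc h
    refine Or.inr (Or.inr (Or.inr (Or.inr (Or.inl ⟨by omega, ?_⟩))))
    obtain ⟨e, -⟩ := id h
    refine hK.imp (fun hK => P179H450.growBy_equiv e hK) fun hK =>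
      ⟨(h2.trans hK.1).trans (Nat.pow_le_pow_left (by omega) 2), P179H450.growBy_equiv e hK.2⟩
  · exact Or.inr (Or.inr (Or.inr (Or.inr (Or.inr (Or.inl
      (P179H364.fewFixed_act inferInstance hS h hK))))))
  · refine Or.inr (Or.inr (Or.inr (Or.inr (Or.inr (Or.inr
      ⟨P179H364.free_act hc h h1, ?_⟩)))))
    rw [P179H364.exponent_act h, P179H364.card_omega_act p h]
    exact hK.imp_left fun h2 => lt_of_le_of_lt (P179H364.relIndex_act hc h) h2

end Act

section Main

variable {p : ℕ} [hp : Fact p.Prime] {k : Type u} [Field k] [IsAlgClosed k] [hk : CharP k p]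
  (red : integralClosure ℤ ℂ →+* k)

/-- the equality for a defect group which satisfies `Known` with the action of the inertial
group -/
theorem eq_of_known (hE : EqwStmt p k) (hp2 : 2 < p) {G : Type} [Group G] [Finite G]
    {B : MonoidAlgebra k G} (hB : P179B.IsBlock B) {D : Subgroup G}
    (hD : P179B.IsDefectGroup B D) (hab : ∀ x ∈ D, ∀ y ∈ D, x * y = y * x)
    {β : MonoidAlgebra k (centralizer (D : Set G))} (hβ : P179B.IsBlock β)
    (hβB : P179B.InducesTo β B) (h : Known p D (inertialGroup D β)) :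
    P179B.numSimpleIn B = P179B.numWeightsIn p red B := by
  have hp2' : p ≠ 2 := by omega
  have hact : ActSub D (inertialGroup D β) D (inertialGroup D β) :=
    ⟨MulEquiv.refl _, fun t ht => ⟨t, ht, fun x y hxy => hxy⟩⟩
  have hTN : inertialGroup D β ≤ normalizer (D : Set G) := fun n hn => hn.1
  rcases h with h | h | ⟨h1, h⟩ | ⟨j, h1, h⟩ | ⟨h1, h⟩ | h | ⟨h1, h⟩
  · exact eq_of_rankTwoNotElem red (P179H443.bdSq red hp2') hp2' hB hD hab h
  · rw [P179B.numSimpleIn_eq, P179B.numWeightsIn_eq]
    exact P179H450.eqForAct_of_growBy red hE hp2' (n := facB) (by decide)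
      (P179H450.regHAll_facB hp2) h G B D β hB hD hab hβ ((P179B.inducesTo_iff β B).1 hβB) hact
  · rw [P179B.numSimpleIn_eq, P179B.numWeightsIn_eq]
    exact P179H450.eqForAct_of_growA red hE hp2' hTN h1 h G B D β hB hD hab hβ
      ((P179B.inducesTo_iff β B).1 hβB) hact
  · rw [P179B.numSimpleIn_eq, P179B.numWeightsIn_eq]
    exact P179H12.eqForAct_of_smallJ red hE hp2' hTN h1 h G B D β hB hD hab hβ
      ((P179B.inducesTo_iff β B).1 hβB) hact
  · rw [P179B.numSimpleIn_eq, P179B.numWeightsIn_eq]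
    rcases h with h | ⟨h2, h⟩
    · exact P179H450.eqForAct_of_three red hE hp2 hTN h1 h G B D β hB hD hab hβ
        ((P179B.inducesTo_iff β B).1 hβB) hact
    · exact P179H450.eqForAct_of_two red hE hp2 hTN h1 h2 h G B D β hB hD hab hβ
        ((P179B.inducesTo_iff β B).1 hβB) hact
  · exact P179H364.eq_of_fewFixed red hB hD hab hβ hβB h
  · refine P179H443.free_eq red (P179H12.m4free p k red) hp2' hB hD hab hβ hβB
      (fun u hu hu1 => ⟨hu, h1 u hu hu1⟩) ?_
    rcases h with h | h
    · exact Or.inl h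
    · exact Or.inr (Or.inr h)

/-- **the equality for the groups `K` with the action of `S` which satisfy `Known`** -/
theorem eqForAct_of_known (hE : EqwStmt p k) (hp2 : 2 < p) {G : Type} [Group G] [Finite G]
    {K S : Subgroup G} (hS : S ≤ normalizer (K : Set G)) (h : Known p K S) :
    EqForAct p red K S := by
  intro X _ _ B D β hB hD hab hβ hβB hact
  have h1 := eq_of_known red hE hp2 hB hD hab hβ ((P179B.inducesTo_iff β B).2 hβB)
    (known_act hS hact h)
  rwa [P179B.numSimpleIn_eq, P179B.numWeightsIn_eq] at h1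

end Main

end P179H443
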