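import Vale.Agent.P179.R2.H443.Glue
import Vale.Agent.P179.R2.H725.Rec

/-!
# The exponent of `Z(D)D'/D'` divides the Knörr–Robinson sum of a block with defect group `D`
-/

namespace P179B

open Subgroup

/-- The exponent of the image `Z(D)D'/D'` of the centre of `D` in `D/D'` (the exponent of `D` if
`D` is abelian). -/
noncomputable def centralExp (D : Type*) [Group D] : ℕ :=
  Monoid.exponent ((center D).map (QuotientGroup.mk' (commutator D)))

end P179B

namespace P179H443

open Subgroup P179H524 P179R

open P179B (krSum IsBlock IsDefectGroup centralExp NChain chainStab InducesTo)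

universe u

section Group

theorem centralExp_of_comm (D : Type*) [Group D] (h : ∀ a b : D, a * b = b * a) :
    centralExp D = Monoid.exponent D := by
  unfold centralExp
  have h1 : commutator D = ⊥ := by
    rw [commutator_eq_bot_iff_center_eq_top, eq_top_iff]
    intro a _
    rw [mem_center_iff]
    exact fun b => h b a
  have h2 : center D = ⊤ := by
    rw [eq_top_iff]
    intro a _
    rw [mem_center_iff]
    exact fun b => h b a
  rw [h2]
  let f : D →* (⊤ : Subgroup D).map (QuotientGroup.mk' (commutator D)) :=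
    { toFun := fun a => ⟨QuotientGroup.mk' (commutator D) a, ⟨a, mem_top a, rfl⟩⟩
      map_one' := rfl
      map_mul' := fun a b => rfl }
  have hf : Function.Bijective f := by
    constructor
    · intro a b hab
      have h3 : (QuotientGroup.mk' (commutator D) a) = QuotientGroup.mk' (commutator D) b :=
        congrArg Subtype.val hab
      have h4 : a⁻¹ * b ∈ commutator D := QuotientGroup.eq.1 h3
      rw [h1, mem_bot, inv_mul_eq_one] at h4
      exact h4
    · rintro ⟨_, a, -, rfl⟩
      exact ⟨a, rfl⟩
  exact (Monoid.exponent_eq_of_mulEquiv (MulEquiv.ofBijective f hf)).symm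

/-- the exponent is a power of `p`, attained by an element of the centre -/
theorem exists_pow_centralExp {p : ℕ} [hp : Fact p.Prime] {D : Type*} [Group D] [Finite D]
    (hD : IsPGroup p D) : ∃ m, centralExp D = p ^ m ∧
      (m = 0 ∨ ∃ z ∈ center D, z ^ p ^ (m - 1) ∉ commutator D) := by
  have hA : IsPGroup p ((center D).map (QuotientGroup.mk' (commutator D))) := by
    have h1 : IsPGroup p (D ⧸ commutator D) := hD.to_quotient _
    exact h1.to_subgroup _
  let _ : CommGroup ((center D).map (QuotientGroup.mk' (commutator D))) :=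
    { (inferInstance : Group ((center D).map (QuotientGroup.mk' (commutator D)))) with
      mul_comm := by
        rintro ⟨_, a, ha, rfl⟩ ⟨_, b, hb, rfl⟩
        apply Subtype.ext
        change QuotientGroup.mk' (commutator D) a * QuotientGroup.mk' (commutator D) b =
          QuotientGroup.mk' (commutator D) b * QuotientGroup.mk' (commutator D) a
        rw [← map_mul, ← map_mul, mem_center_iff.1 ha b] }
  obtain ⟨x, hx⟩ := Monoid.exists_orderOf_eq_exponent
    (G := (center D).map (QuotientGroup.mk' (commutator D)))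
    (Monoid.ExponentExists.of_finite)
  obtain ⟨m, hm⟩ := (IsPGroup.iff_orderOf.1 hA) x
  refine ⟨m, ?_, ?_⟩
  · unfold centralExp
    rw [← hx, hm]
  · rcases Nat.eq_zero_or_pos m with h | h
    · exact Or.inl h
    · right
      obtain ⟨_, z, hz, rfl⟩ := x
      refine ⟨z, hz, fun h1 => ?_⟩
      have h2 : (⟨QuotientGroup.mk' (commutator D) z, ⟨z, hz, rfl⟩⟩ :
          (center D).map (QuotientGroup.mk' (commutator D))) ^ p ^ (m - 1) = 1 := by
        apply Subtype.ext
        change QuotientGroup.mk' (commutator D) z ^ p ^ (m - 1) = 1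
        rw [← map_pow]
        exact (QuotientGroup.eq_one_iff _).2 h1
      have h3 := orderOf_dvd_of_pow_eq_one h2
      rw [hm, Nat.pow_dvd_pow_iff_le_right hp.out.one_lt] at h3
      omega

end Group

variable {p : ℕ} [hp : Fact p.Prime] {k : Type u} [Field k] [IsAlgClosed k] [CharP k p]
  {G : Type} [Group G] [Finite G]

/-- **the exponent of `Z(D)D'/D'` divides the Knörr–Robinson sum** -/
theorem centralExp_dvd_krSum {B : MonoidAlgebra k G} (hB : IsBlock B) {D : Subgroup G}
    (hD : IsDefectGroup B D) : (centralExp D : ℤ) ∣ krSum p B := by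
  have := Fintype.ofFinite G
  have hDp : IsPGroup p D := (P179Y.exists_BP_of_block (p := p) B hB D hD).1
  obtain ⟨m, hm, h⟩ := exists_pow_centralExp hDp
  rw [hm]
  rcases Nat.eq_zero_or_pos m with h0 | h0
  · rw [h0, pow_zero]
    exact one_dvd _
  · rcases h with h | ⟨z, hz, hz'⟩
    · omega
    · have h1 := P179H292.pow_dvd_krSum (krWr p k) (m - 1) G B hB D hD z hz hz'
      rw [Nat.sub_add_cancel h0] at h1
      exact_mod_cast h1

/-- the congruence modulo a divisor of the exponent passes from the local blocks to `B` -/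
theorem modEq_of_local (red : integralClosure ℤ ℂ →+* k) {B : MonoidAlgebra k G}
    (hB : IsBlock B) {D : Subgroup G} (hD : IsDefectGroup B D) {n : ℕ} (hn : n ∣ centralExp D)
    (h : ∀ (s : NChain p G) (b : MonoidAlgebra k (chainStab s.1)), IsBlock b →
      InducesTo b B → P179B.numSimpleIn b ≡ P179B.numWeightsIn p red b [MOD n]) :
    P179B.numSimpleIn B ≡ P179B.numWeightsIn p red B [MOD n] := by
  by_cases hD1 : D = ⊥
  · subst hD1
    have h1 : centralExp (⊥ : Subgroup G) = 1 := by
      obtain ⟨m, hm, h⟩ := exists_pow_centralExp (p := p) (D := (⊥ : Subgroup G)) IsPGroup.of_bot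
      rcases h with h | ⟨z, hz, hz'⟩
      · rw [hm, h, pow_zero]
      · exfalso
        apply hz'
        have : z ^ p ^ (m - 1) = 1 := Subsingleton.elim _ _
        rw [this]
        exact one_mem _
    rw [h1, Nat.dvd_one] at hn
    rw [hn]
    exact Nat.modEq_one
  · have h1 := (Int.natCast_dvd_natCast.2 hn).trans (centralExp_dvd_krSum hB hD)
    rw [P179H725.krSum_eq red hB hD hD1] at h1
    have h2 : (n : ℤ) ∣ ∑ᶠ c : Quot (NChain.Conj (p := p) (G := G)), (-1) ^ c.out.1.card *
        ∑ᶠ b : {b : MonoidAlgebra k (chainStab c.out.1) // IsBlock b ∧ InducesTo b B},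
          ((P179B.numSimpleIn b.1 : ℤ) - P179B.numWeightsIn p red b.1) := by
      have hsum : ∀ {ι : Type u} (f : ι → ℤ), (∀ i, (n : ℤ) ∣ f i) → (n : ℤ) ∣ ∑ᶠ i, f i :=
        fun f hf => finsum_induction (fun x => (n : ℤ) ∣ x) (dvd_zero _)
          (fun _ _ => dvd_add) hf
      refine finsum_induction (fun x => (n : ℤ) ∣ x) (dvd_zero _) (fun _ _ => dvd_add) fun c => ?_
      refine Dvd.dvd.mul_left (hsum _ fun b => ?_) _
      rw [dvd_sub_comm]
      exact (Nat.modEq_iff_dvd).1 (h c.out b.1 b.2.1 b.2.2)
    rw [Nat.modEq_iff_dvd, dvd_sub_comm]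
    exact (dvd_add_left h2).1 h1

end P179H443
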