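import Vale.Agent.P179.H526.InertDefs

/-!
# Free inertial quotients: the inertial index divides `|Ω_1(D)| - 1`
-/

namespace P179H443

open Subgroup P179B

section

variable {G : Type*} [Group G]

/-- conjugation action of `T` on the nontrivial elements of `D` of order dividing `m` -/
@[reducible]
def conjOm (D T : Subgroup G) (hT : T ≤ normalizer (D : Set G)) (m : ℕ) :
    MulAction T {x : G // (x ∈ D ∧ x ^ m = 1) ∧ x ≠ 1} where
  smul t x := ⟨t * x * (t : G)⁻¹, ⟨(mem_normalizer_iff.1 (hT t.2) x.1).1 x.2.1.1, by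
    rw [conj_pow, x.2.1.2, mul_one, mul_inv_cancel]⟩, fun h => x.2.2 (by
    rwa [conj_eq_one_iff] at h)⟩
  one_smul x := Subtype.ext (by
    change (1 : G) * x * (1 : G)⁻¹ = x
    simp)
  mul_smul s t x := Subtype.ext (by
    change ((s : G) * t) * x * ((s : G) * t)⁻¹ = s * (t * x * (t : G)⁻¹) * (s : G)⁻¹
    group)

/-- if all nontrivial elements of `D` of order dividing `m` are centralised in `T` only by the
elements of `C`, then `|T : C|` divides their number -/
theorem relIndex_dvd_card_om [Finite G] (D T C : Subgroup G)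
    (hT : T ≤ normalizer (D : Set G)) (hC : C ≤ centralizer (D : Set G)) (m : ℕ)
    (h : ∀ u ∈ D, u ^ m = 1 → u ≠ 1 → ∀ n ∈ T, n * u * n⁻¹ = u → n ∈ C) :
    C.relIndex T ∣ Nat.card {x : G // (x ∈ D ∧ x ^ m = 1) ∧ x ≠ 1} := by
  let _ := conjOm D T hT m
  have hstab : ∀ x : {x : G // (x ∈ D ∧ x ^ m = 1) ∧ x ≠ 1},
      MulAction.stabilizer T x = C.subgroupOf T := by
    intro x
    ext t
    rw [MulAction.mem_stabilizer_iff, mem_subgroupOf]
    constructor
    · intro ht
      exact h x.1 x.2.1.1 x.2.1.2 x.2.2 t t.2 (congrArg Subtype.val ht)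
    · intro ht
      apply Subtype.ext
      change (t : G) * x * (t : G)⁻¹ = x
      have h1 := mem_centralizer_iff.1 (hC ht) x.1 x.2.1.1
      rw [← h1, mul_inv_cancel_right]
  have h1 := Nat.card_congr
    (MulAction.selfEquivSigmaOrbitsQuotientStabilizer T {x : G // (x ∈ D ∧ x ^ m = 1) ∧ x ≠ 1})
  have := Fintype.ofFinite
    (Quotient (MulAction.orbitRel T {x : G // (x ∈ D ∧ x ^ m = 1) ∧ x ≠ 1}))
  rw [h1, Nat.card_sigma]
  refine Finset.dvd_sum fun ω _ => ?_
  rw [hstab ω.out]
  exact dvd_rfl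

/-- the number of the elements of order dividing `m`, without `1` -/
theorem card_om [Finite G] (D : Subgroup G) (m : ℕ) :
    Nat.card {x : G // (x ∈ D ∧ x ^ m = 1) ∧ x ≠ 1} =
      Nat.card {x : G // x ∈ D ∧ x ^ m = 1} - 1 := by
  classical
  have := Fintype.ofFinite G
  rw [Nat.card_eq_fintype_card, Nat.card_eq_fintype_card, Fintype.card_subtype,
    Fintype.card_subtype, ← Finset.card_erase_of_mem (a := (1 : G)) (by simp [one_mem])]
  congr 1
  ext x
  simp [and_comm]

variable {k : Type*} [Field k]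

/-- **the inertial index divides `|Ω_1(D)| - 1`** if the inertial quotient acts freely on
`D - 1` -/
theorem inertialIndex_dvd [Finite G] (D : Subgroup G)
    (b : MonoidAlgebra k (centralizer (D : Set G)))
    (h : ∀ u ∈ D, u ≠ 1 → u ∈ regularElements D b) (m : ℕ) :
    inertialIndex D b ∣ Nat.card {x : G // x ∈ D ∧ x ^ m = 1} - 1 := by
  rw [← card_om]
  exact relIndex_dvd_card_om D (inertialGroup D b) _ (fun n hn => hn.1) le_rfl m
    fun u hu _ hu1 n hn hnu => (h u hu hu1).2 n hn hnu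

/-- a nontrivial `p`-group has a nontrivial element of order `p` -/
theorem card_om_pos [Finite G] {p : ℕ} [hp : Fact p.Prime] {D : Subgroup G} (hD : IsPGroup p D)
    (hD1 : D ≠ ⊥) : 0 < Nat.card {x : G // x ∈ D ∧ x ^ p = 1} - 1 := by
  rw [← card_om, Nat.card_pos_iff]
  refine ⟨?_, inferInstance⟩
  have : Nontrivial D := (Subgroup.nontrivial_iff_ne_bot D).2 hD1
  obtain ⟨n, hn⟩ := IsPGroup.iff_card.1 hD
  have hdvd : p ∣ Nat.card D := by
    rw [hn]
    refine dvd_pow_self p fun h => ?_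
    rw [h, pow_zero] at hn
    exact (Finite.one_lt_card (α := D)).ne' hn
  obtain ⟨x, hx⟩ := exists_prime_orderOf_dvd_card' p hdvd
  refine ⟨⟨x, ⟨x.2, ?_⟩, fun h => ?_⟩⟩
  · have h1 : x ^ p = 1 := hx ▸ pow_orderOf_eq_one x
    exact congrArg Subtype.val h1
  · have h1 : x = 1 := Subtype.ext h
    rw [h1, orderOf_one] at hx
    exact hp.out.one_lt.ne hx

/-- the inertial index is smaller than `|Ω_1(D)|` -/
theorem inertialIndex_lt [Finite G] {p : ℕ} [hp : Fact p.Prime] {D : Subgroup G}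
    (hD : IsPGroup p D) (hD1 : D ≠ ⊥) (b : MonoidAlgebra k (centralizer (D : Set G)))
    (h : ∀ u ∈ D, u ≠ 1 → u ∈ regularElements D b) :
    inertialIndex D b < Nat.card {x : G // x ∈ D ∧ x ^ p = 1} := by
  have h1 := Nat.le_of_dvd (card_om_pos hD hD1) (inertialIndex_dvd D b h p)
  have h2 := card_om_pos hD hD1
  omega

end

end P179H443
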