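import Vale.Agent.P179.R2.H292.Free
import Vale.Agent.P179.R2.H443.ExpT
import Vale.Agent.P179.R2.H443.Rank
import Vale.Agent.P179.H905.K4

/-!
# Blocks with abelian defect group and free inertial action: the final form
-/

namespace P179H443

open Subgroup P179H524 P179R P179Y

open P179B (krSum IsBlock IsDefectGroup centralExp NChain chainStab InducesTo numSimpleIn
  numWeightsIn inertialIndex regularElements inertialGroup)

universe u

section

variable {p : ℕ} [hp : Fact p.Prime]

/-- the exponent of a nontrivial `p`-group which is abelian -/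
theorem exists_exponent_of_comm {G : Type*} [Group G] {D : Subgroup G} [Finite D]
    (hD : IsPGroup p D) (hab : ∀ a ∈ D, ∀ b ∈ D, a * b = b * a) (hD1 : D ≠ ⊥) :
    ∃ a, Monoid.exponent D = p ^ (a + 1) ∧ ∃ z ∈ D, z ^ p ^ a ≠ 1 := by
  let _ : CommGroup D := { (inferInstance : Group D) with
    mul_comm := fun a b => Subtype.ext (hab a a.2 b b.2) }
  obtain ⟨x, hx⟩ := Monoid.exists_orderOf_eq_exponent (G := D) Monoid.ExponentExists.of_finite
  obtain ⟨m, hm⟩ := (IsPGroup.iff_orderOf.1 hD) x
  have hm0 : m ≠ 0 := by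
    rintro rfl
    rw [pow_zero, hx] at hm
    apply hD1
    rw [eq_bot_iff]
    intro y hy
    have h1 : (⟨y, hy⟩ : D) ^ Monoid.exponent D = 1 := Monoid.pow_exponent_eq_one _
    rw [hm, pow_one] at h1
    exact congrArg Subtype.val h1
  obtain ⟨a, rfl⟩ := Nat.exists_eq_succ_of_ne_zero hm0
  refine ⟨a, ?_, x, x.2, fun h => ?_⟩
  · exact hx.symm.trans hm
  · have h1 : x ^ p ^ a = 1 := Subtype.ext h
    have h2 := orderOf_dvd_of_pow_eq_one h1
    rw [hm, Nat.pow_dvd_pow_iff_le_right hp.out.one_lt] at h2
    omega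

variable {k : Type u} [Field k] [IsAlgClosed k] [CharP k p] (red : integralClosure ℤ ℂ →+* k)
  {G : Type} [Group G] [Finite G]

include hp in
theorem inertialIndex_bot (β : MonoidAlgebra k (centralizer ((⊥ : Subgroup G) : Set G))) :
    inertialIndex (⊥ : Subgroup G) β = 1 := by
  have h1 : centralizer ((⊥ : Subgroup G) : Set G) = ⊤ := by
    rw [eq_top_iff]
    intro x _
    rw [mem_centralizer_iff]
    intro y hy
    have hy' : y = 1 := hy
    rw [hy', one_mul, mul_one]
  unfold inertialIndex
  exact Subgroup.relIndex_eq_one.2 fun x _ => h1 ▸ mem_top x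

/-- the congruence -/
theorem free_modEq (m4 : P179H292.M4FreeStmt p k red) {B : MonoidAlgebra k G} (hB : IsBlock B)
    {D : Subgroup G} (hD : IsDefectGroup B D) (hab : ∀ a ∈ D, ∀ b ∈ D, a * b = b * a)
    {β : MonoidAlgebra k (centralizer (D : Set G))} (hβ : IsBlock β) (hβB : InducesTo β B)
    (hfree : ∀ u ∈ D, u ≠ 1 → u ∈ regularElements D β) :
    numSimpleIn B ≡ numWeightsIn p red B [MOD Monoid.exponent D] := by
  have := Fintype.ofFinite G
  have hDp : IsPGroup p D := (P179Y.exists_BP_of_block (p := p) B hB D hD).1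
  by_cases hD1 : D = ⊥
  · subst hD1
    have h1 : Monoid.exponent (⊥ : Subgroup G) = 1 := by
      rw [Monoid.exp_eq_one_iff]
      exact inferInstance
    rw [h1]
    exact Nat.modEq_one
  · obtain ⟨a, ha, z, hz, hza⟩ := exists_exponent_of_comm hDp hab hD1
    rw [ha]
    exact P179H292.modEq_of_free red m4 hB hD hab hβ hβB hfree hz hza

/-- the equality -/
theorem free_eq (m4 : P179H292.M4FreeStmt p k red) (hp2 : p ≠ 2) {B : MonoidAlgebra k G}
    (hB : IsBlock B) {D : Subgroup G} (hD : IsDefectGroup B D)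
    (hab : ∀ a ∈ D, ∀ b ∈ D, a * b = b * a)
    {β : MonoidAlgebra k (centralizer (D : Set G))} (hβ : IsBlock β) (hβB : InducesTo β B)
    (hfree : ∀ u ∈ D, u ≠ 1 → u ∈ regularElements D β)
    (h : inertialIndex D β < Monoid.exponent D ∨
      (numWeightsIn p red B ≤ Monoid.exponent D ∧
        inertialIndex D β < Monoid.exponent D + numWeightsIn p red B) ∨
      Nat.card {x : G // x ∈ D ∧ x ^ p = 1} ≤ Monoid.exponent D) :
    numSimpleIn B = numWeightsIn p red B := by
  have := Fintype.ofFinite G
  have hDp : IsPGroup p D := (P179Y.exists_BP_of_block (p := p) B hB D hD).1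
  have hβB' := (P179B.inducesTo_iff β B).1 hβB
  by_cases hD1 : D = ⊥
  · subst hD1
    rw [P179B.numSimpleIn_eq, P179B.numWeightsIn_eq]
    refine P179I.equality_half red hB hD hab hβ hβB' ?_
    have h1 := inertialIndex_bot (p := p) β
    have h2 := hp.out.two_le
    omega
  · have hmod := free_modEq red m4 hB hD hab hβ hβB hfree
    obtain ⟨h1, h2⟩ := P179I.bounds_free (p := p) red hB hD hab hβ hβB' hp2 hfree
    rw [← P179B.numSimpleIn_eq] at h1
    rw [← P179B.numWeightsIn_eq] at h2
    have hlt : inertialIndex D β < Monoid.exponent D → numSimpleIn B = numWeightsIn p red B :=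
      fun he => hmod.eq_of_lt_of_lt (h1.trans_lt he) (h2.trans_lt he)
    rcases h with h | ⟨hw, he⟩ | h
    · exact hlt h
    · have h3 : 0 < numSimpleIn B := by
        rw [P179B.numSimpleIn_eq]
        exact P179C.numSimpleIn_pos B hB
      exact P179I.eq_of_modEq hmod h3 h1 hw he
    · exact hlt ((inertialIndex_lt hDp hD1 β hfree).trans_le h)

end

end P179H443
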