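import Vale.Agent.P179.R2.H443.LemA

/-!
# Fourier analysis on a subset
-/

namespace P179H443

open Finset

open scoped Classical

/-- a function on a subset whose nontrivial Fourier coefficients vanish is constant -/
theorem const_of_fourier' {A Y : Type*} [AddCommGroup A] [Fintype A] [Fintype Y] (i : Y → A)
    (hi : Function.Injective i) (f : Y → ℂ)
    (h : ∀ ν : AddChar A ℂ, (∀ y, ν (i y) = 1) ∨ ∑ y, ν (i y) * f y = 0) (x x' : Y) :
    f x = f x' := by
  have key : ∀ x, (Fintype.card A : ℂ) * f x =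
      ∑ ν : AddChar A ℂ, if (∀ y, ν (i y) = 1) then ∑ y, f y else 0 := by
    intro x
    have h1 : ∑ ν : AddChar A ℂ, ν (-(i x)) * ∑ y, ν (i y) * f y =
        (Fintype.card A : ℂ) * f x := by
      have h2 : ∀ ν : AddChar A ℂ, ν (-(i x)) * ∑ y, ν (i y) * f y =
          ∑ y, ν (i y - i x) * f y := by
        intro ν
        rw [mul_sum]
        refine sum_congr rfl fun y _ => ?_
        rw [← mul_assoc, ← AddChar.map_add_eq_mul]
        congr 2
        abel
      rw [sum_congr rfl fun ν _ => h2 ν, sum_comm]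
      have h3 : ∀ y, ∑ ν : AddChar A ℂ, ν (i y - i x) * f y =
          if y = x then (Fintype.card A : ℂ) * f y else 0 := by
        intro y
        rw [← sum_mul, AddChar.sum_apply_eq_ite]
        by_cases hyx : y = x
        · rw [if_pos (sub_eq_zero.2 (by rw [hyx])), if_pos hyx]
        · rw [if_neg (fun hh => hyx (hi (sub_eq_zero.1 hh))), if_neg hyx, zero_mul]
      rw [sum_congr rfl fun y _ => h3 y, sum_ite_eq']
      simp
    rw [← h1]
    refine sum_congr rfl fun ν _ => ?_
    by_cases hν : ∀ y, ν (i y) = 1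
    · rw [if_pos hν, AddChar.map_neg_eq_inv, hν, inv_one, one_mul]
      exact sum_congr rfl fun y _ => by rw [hν, one_mul]
    · rw [if_neg hν, (h ν).resolve_left hν, mul_zero]
  have hc : (Fintype.card A : ℂ) ≠ 0 := by
    exact_mod_cast Fintype.card_ne_zero
  exact mul_left_cancel₀ hc ((key x).trans (key x').symm)

/-- a function with the law `f (x y) = f x f y`, not constant, sums to zero -/
theorem sum_eq_zero_of_mul {Y : Type*} [Group Y] [Fintype Y] (f : Y → ℂ)
    (hf : ∀ x y, f (x * y) = f x * f y) {y₀ : Y} (h : f y₀ ≠ 1) : ∑ y, f y = 0 := by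
  have h1 : ∑ y, f y = f y₀ * ∑ y, f y := by
    rw [mul_sum]
    simp only [← hf]
    exact (Equiv.sum_comp (Equiv.mulLeft y₀) f).symm
  have h2 : (f y₀ - 1) * ∑ y, f y = 0 := by
    rw [sub_mul, ← h1, one_mul, sub_self]
  exact (mul_eq_zero.1 h2).resolve_left (sub_ne_zero.2 h)

end P179H443
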