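import Vale.Agent.P179.R2.H452.Norm

/-!
# Columns of the sections in a coset: the nontrivial Fourier coefficients vanish
-/

namespace P179H443

open Finset P179I P179P Polynomial

open scoped Classical

universe v

section Gram

variable {ι Y A : Type*} [Fintype ι] [Fintype Y] [Fintype A]

/-- the norm of a combination of columns whose Gram matrix counts coincidences -/
theorem norm_comb (c : Y → ι → ℂ) (q : ℂ) (act : A → Y → Y)
    (hG : ∀ y y', ∑ χ, c y χ * (starRingEnd ℂ) (c y' χ) =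
      q * ((univ.filter fun a => act a y = y').card : ℂ)) (m : Y → ℂ) :
    ∑ χ, (∑ y, m y * c y χ) * (starRingEnd ℂ) (∑ y, m y * c y χ) =
      q * ∑ a, ∑ y, m y * (starRingEnd ℂ) (m (act a y)) := by
  have h1 : ∀ χ, (∑ y, m y * c y χ) * (starRingEnd ℂ) (∑ y, m y * c y χ) =
      ∑ y, ∑ y', m y * (starRingEnd ℂ) (m y') * (c y χ * (starRingEnd ℂ) (c y' χ)) := by
    intro χ
    rw [map_sum, sum_mul_sum]
    refine sum_congr rfl fun y _ => sum_congr rfl fun y' _ => ?_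
    rw [map_mul]
    ring
  rw [sum_congr rfl fun χ _ => h1 χ, sum_comm]
  have h2 : ∀ y, ∑ χ, ∑ y', m y * (starRingEnd ℂ) (m y') *
      (c y χ * (starRingEnd ℂ) (c y' χ)) =
      ∑ a, q * (m y * (starRingEnd ℂ) (m (act a y))) := by
    intro y
    rw [sum_comm]
    have h3 : ∀ y', ∑ χ, m y * (starRingEnd ℂ) (m y') * (c y χ * (starRingEnd ℂ) (c y' χ)) =
        ∑ a, if act a y = y' then q * (m y * (starRingEnd ℂ) (m y')) else 0 := by
      intro y'
      rw [← mul_sum, hG, ← sum_filter, sum_const, nsmul_eq_mul]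
      ring
    rw [sum_congr rfl fun y' _ => h3 y', sum_comm]
    refine sum_congr rfl fun a _ => ?_
    rw [sum_ite_eq]
    simp
  rw [sum_congr rfl fun y _ => h2 y, sum_comm, mul_sum]
  exact sum_congr rfl fun a _ => by rw [mul_sum]

/-- the strict inequality of Bessel for a unit vector -/
theorem strict_bessel (z g : ι → ℂ) (χ₀ : ι) (hg : ∑ χ, z χ * (starRingEnd ℂ) (g χ) = 0)
    (hg0 : g χ₀ ≠ 0) {M : ℝ} (hM : 0 < M)
    (hz : ∑ χ, z χ * (starRingEnd ℂ) (z χ) = (M : ℂ)) : ‖z χ₀‖ ^ 2 < M := by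
  have h1 : ∑ χ, ‖z χ‖ ^ 2 = M := by
    have h2 : ((∑ χ, ‖z χ‖ ^ 2 : ℝ) : ℂ) = (M : ℂ) := by
      rw [← hz]
      push_cast
      refine sum_congr rfl fun χ _ => ?_
      rw [Complex.mul_conj, Complex.normSq_eq_norm_sq]
      push_cast
      rfl
    exact_mod_cast h2
  have h3 : ‖z χ₀‖ ^ 2 ≤ M := by
    rw [← h1]
    exact single_le_sum (f := fun χ => ‖z χ‖ ^ 2) (fun χ _ => sq_nonneg _) (mem_univ χ₀)
  refine lt_of_le_of_ne h3 fun h4 => ?_
  have h5 : ∀ χ, χ ≠ χ₀ → z χ = 0 := by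
    intro χ hχ
    have h6 : ‖z χ₀‖ ^ 2 + ‖z χ‖ ^ 2 ≤ M := by
      rw [← h1]
      have h7 : ∑ x ∈ ({χ₀, χ} : Finset ι), ‖z x‖ ^ 2 ≤ ∑ x, ‖z x‖ ^ 2 :=
        sum_le_sum_of_subset_of_nonneg (subset_univ _) fun _ _ _ => sq_nonneg _
      rwa [sum_pair hχ.symm] at h7
    have h7 : ‖z χ‖ ^ 2 ≤ 0 := by linarith
    have h8 : ‖z χ‖ = 0 := by nlinarith [norm_nonneg (z χ)]
    exact norm_eq_zero.1 h8
  have h6 : z χ₀ * (starRingEnd ℂ) (g χ₀) = 0 := by
    rw [← hg]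
    symm
    refine sum_eq_single χ₀ (fun χ _ hχ => ?_) (fun h => absurd (mem_univ _) h)
    rw [h5 χ hχ, zero_mul]
  have h7 : z χ₀ = 0 := by
    rcases mul_eq_zero.1 h6 with h | h
    · exact h
    · exact absurd ((map_eq_zero _).1 h) hg0
  rw [h7, norm_zero] at h4
  norm_num at h4
  linarith

end Gram

section Fourier

/-- a function whose nontrivial Fourier coefficients vanish is constant -/
theorem const_of_fourier {Y : Type*} [AddCommGroup Y] [Fintype Y] (f : Y → ℂ)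
    (h : ∀ ψ : AddChar Y ℂ, ψ ≠ 0 → ∑ y, ψ y * f y = 0) (y₀ : Y) : f y₀ = f 0 := by
  have key : ∀ x, (Fintype.card Y : ℂ) * f x = ∑ y, f y := by
    intro x
    have h1 : ∑ ψ : AddChar Y ℂ, ψ (-x) * ∑ y, ψ y * f y = (Fintype.card Y : ℂ) * f x := by
      have h2 : ∀ ψ : AddChar Y ℂ, ψ (-x) * ∑ y, ψ y * f y = ∑ y, ψ (y - x) * f y := by
        intro ψ
        rw [mul_sum]
        refine sum_congr rfl fun y _ => ?_
        rw [← mul_assoc, ← AddChar.map_add_eq_mul]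
        congr 2
        abel
      rw [sum_congr rfl fun ψ _ => h2 ψ, sum_comm]
      have h3 : ∀ y, ∑ ψ : AddChar Y ℂ, ψ (y - x) * f y =
          if y = x then (Fintype.card Y : ℂ) * f y else 0 := by
        intro y
        rw [← sum_mul, AddChar.sum_apply_eq_ite]
        by_cases hyx : y = x
        · rw [if_pos (sub_eq_zero.2 hyx), if_pos hyx]
        · rw [if_neg (fun hh => hyx (sub_eq_zero.1 hh)), if_neg hyx, zero_mul]
      rw [sum_congr rfl fun y _ => h3 y, sum_ite_eq']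
      simp
    rw [← h1, sum_eq_single (0 : AddChar Y ℂ)]
    · simp
    · intro ψ _ hψ
      rw [h ψ hψ, mul_zero]
    · intro hh
      exact absurd (mem_univ _) hh
  have hc : (Fintype.card Y : ℂ) ≠ 0 := by
    exact_mod_cast Fintype.card_ne_zero
  exact mul_left_cancel₀ hc ((key y₀).trans (key 0).symm)

end Fourier

section Main

variable {N : ℕ} {ζ : ℂ} {p : ℕ} [hp : Fact p.Prime] {k : Type*} [Field k] [CharP k p]
  {red : AA →+* k} {ι Y A : Type*} [Fintype ι] [Fintype Y] [Fintype A]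

/-- **Lemma A.** The columns `c δ y` (at `w ^ δ y`), `δ` a unit modulo `N`, have Gram matrix
`q #{a : a y = y'}`, and are orthogonal to `g`, `g χ₀ ≠ 0`; `m` is a character of `Y` with
`∑ m(y) conj m(a y) = 0` for `a ≠ 1`. If `∑ m(y) c δ y χ₀` are the conjugates of an element
divisible by `p ^ J` and `q |Y| ≤ p ^ (2 J)`, this sum vanishes. -/
theorem lemA [NeZero N] (hζ : IsPrimitiveRoot ζ N) {m₀ : ℕ} (hm₀ : m₀.Coprime N)
    (hgen : ∀ j : ℕ, j.Coprime N → ∃ i : ℕ, m₀ ^ i ≡ j [MOD N])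
    (c : (ZMod N)ˣ → Y → ι → ℂ) (q : ℕ) (hq : 0 < q) (act : A → Y → Y) (a₀ : A)
    (ha₀ : ∀ y, act a₀ y = y)
    (hG : ∀ δ y y', ∑ χ, c δ y χ * (starRingEnd ℂ) (c δ y' χ) =
      (q : ℂ) * ((univ.filter fun a => act a y = y').card : ℂ))
    (m : Y → ℂ) (hm1 : ∀ y, ‖m y‖ = 1)
    (hfree : ∀ a, a ≠ a₀ → ∑ y, m y * (starRingEnd ℂ) (m (act a y)) = 0)
    (g : ι → ℂ) (χ₀ : ι) (hg : ∀ δ y, ∑ χ, c δ y χ * (starRingEnd ℂ) (g χ) = 0)
    (hg0 : g χ₀ ≠ 0) (P : ℤ[X]) (x : (ZMod N)ˣ → AA)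
    (hx : ∀ δ, (x δ : ℂ) = ∑ y, m y * c δ y χ₀)
    (hP : ∀ δ, (x δ : ℂ) = aeval (ζ ^ (δ : ZMod N).val) P) {J : ℕ}
    (hQ : ∀ δ, x δ ∈ QN p red J) (hle : q * Fintype.card Y ≤ p ^ (2 * J)) :
    ∀ δ, (x δ : ℂ) = 0 := by
  by_cases hYe : IsEmpty Y
  · intro δ
    rw [hx]
    exact Finset.sum_eq_zero fun y _ => hYe.elim y
  rw [not_isEmpty_iff] at hYe
  have hY : 0 < Fintype.card Y := Fintype.card_pos
  -- the norm of the vector
  have hnorm : ∀ δ, ∑ χ, (∑ y, m y * c δ y χ) * (starRingEnd ℂ) (∑ y, m y * c δ y χ) =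
      (((q * Fintype.card Y : ℕ) : ℝ) : ℂ) := by
    intro δ
    rw [norm_comb (c δ) (q : ℂ) act (hG δ) m, Finset.sum_eq_single a₀]
    · have h1 : ∀ y, m y * (starRingEnd ℂ) (m (act a₀ y)) = 1 := by
        intro y
        rw [ha₀, Complex.mul_conj, Complex.normSq_eq_norm_sq, hm1]
        norm_num
      rw [Finset.sum_congr rfl fun y _ => h1 y, sum_const, card_univ, nsmul_eq_mul, mul_one]
      push_cast
      rfl
    · intro a _ ha
      exact hfree a ha
    · intro h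
      exact absurd (mem_univ _) h
  have hlt : ∀ δ, ‖(x δ : ℂ)‖ < (p : ℝ) ^ J := by
    intro δ
    have h1 : ∑ χ, (∑ y, m y * c δ y χ) * (starRingEnd ℂ) (g χ) = 0 := by
      have h2 : ∀ χ, (∑ y, m y * c δ y χ) * (starRingEnd ℂ) (g χ) =
          ∑ y, m y * (c δ y χ * (starRingEnd ℂ) (g χ)) := by
        intro χ
        rw [sum_mul]
        exact sum_congr rfl fun y _ => by ring
      rw [sum_congr rfl fun χ _ => h2 χ, sum_comm]
      refine sum_eq_zero fun y _ => ?_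
      rw [← mul_sum, hg, mul_zero]
    have h3 := strict_bessel _ g χ₀ h1 hg0 (M := ((q * Fintype.card Y : ℕ) : ℝ))
      (by exact_mod_cast Nat.mul_pos hq hY) (hnorm δ)
    rw [← hx δ] at h3
    have h4 : ((q * Fintype.card Y : ℕ) : ℝ) ≤ ((p : ℝ) ^ J) ^ 2 := by
      rw [← pow_mul, mul_comm J 2]
      exact_mod_cast hle
    exact lt_of_pow_lt_pow_left₀ 2 (by positivity) (h3.trans_le h4)
  -- the conjugates
  by_cases h1 : aeval ζ P = 0
  · intro δ
    by_contra hne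
    rw [hP] at hne
    obtain ⟨R, hR⟩ := (minpoly.isIntegrallyClosed_dvd (hζ.isIntegral (Nat.pos_of_ne_zero
      (NeZero.ne N))) h1)
    apply hne
    rw [hR, map_mul]
    have h2 := hζ.minpoly_eq_pow_coprime (ZMod.val_coe_unit_coprime δ)
    rw [h2, minpoly.aeval, zero_mul]
  · exfalso
    have h2 := P179H452.sum_norm_ge hζ P hm₀ hgen x hP hQ h1
    have h3 : ∑ δ, ‖(x δ : ℂ)‖ < ∑ _δ : (ZMod N)ˣ, (p : ℝ) ^ J :=
      sum_lt_sum_of_nonempty univ_nonempty fun δ _ => hlt δ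
    rw [sum_const, card_univ, nsmul_eq_mul] at h3
    linarith

end Main

end P179H443
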