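import Vale.Agent.P179.R2.H443.Gp3
import Vale.Agent.P179.R2.H443.Four
import Vale.Agent.P179.R2.H452.N1
import Vale.Agent.P179.R2.H452.N7
import Vale.Agent.P179.R2.H666.Col2
import Vale.Agent.P179.R2.H46.Low22
import Vale.Agent.P179.R2.H46.Bes22
import Vale.Agent.P179.R2.H46.Col22
import Vale.Agent.P179.R2.H854.Grm22

/-!
# The columns at the elements of a coset of `Ω_1(D)` and the bound for the rational characters
-/

namespace P179H443

open Finset P179P P179C P179Y Subgroup P179H524 P179I P179A P179H452 P179H666 Polynomial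

open scoped Classical IsMulCommutative

universe v

set_option linter.unusedSectionVars false

section Stub

variable {p : ℕ} [hp : Fact p.Prime] {k : Type v} [Field k] [CharP k p] {red : AA →+* k}
  {G : Type} [Group G] [Fintype G] {D : Subgroup G} {l : (G → k) → k}
  {Φ : ∀ H : Subgroup G, Irr H} {aH bH : Subgroup G → ℕ} {ε : Subgroup G → ℤ} {κ₀ : k}
  {H : Subgroup G} {s : ℕ} {ψ : Fin s → Irr H} {σ : Fin s → ℤ} {m a1 a2 : ℕ}

theorem A1 (h : NDat p red D l H ψ σ m a1 a2) {u : G} (hu : ∃ a : ℕ, u ^ p ^ a = 1)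
    (hH : ∀ x, x ∈ H ↔ x * u = u * x) (i j : Fin s) :
    ∑ χ : Irr G, (XA p ψ σ m a1 i u χ : ℂ) * (starRingEnd ℂ) (XA p ψ σ m a1 j u χ : ℂ) =
      (p : ℂ) ^ a1 * ((if i = j then 1 else 0) + m) := P179H854.xa_same h hu hH i j

theorem A2 [IsAlgClosed k] (h : NDat p red D l H ψ σ m a1 a2) (hl : BP p D l)
    (hD : IsPGroup p D) (hab : D ≤ centralizer (D : Set G))
    (hT : ¬ p ∣ (centralizer (D : Set G)).relIndex (stabT D l)) {u u' : G} (hu : u ∈ D)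
    (hu' : u' ∈ D) (hH : ∀ x, x ∈ H ↔ x * u = u * x) (hH' : ∀ x, x ∈ H ↔ x * u' = u' * x)
    (hne : ¬ ∃ t ∈ stabT D l, t * u * t⁻¹ = u') (i j : Fin s) :
    ∑ χ : Irr G, (XA p ψ σ m a1 i u χ : ℂ) * (starRingEnd ℂ) (XA p ψ σ m a1 j u' χ : ℂ) = 0 :=
  P179H854.xa_orth hl hD hab hT h hu hu' hH hH' hne i j

theorem A3 [IsAlgClosed k] (h : NDat p red D l H ψ σ m a1 a2) (hL : LocR p red D l Φ aH bH ε κ₀)
    (hl : BP p D l)
    (hD : IsPGroup p D) (hab : D ≤ centralizer (D : Set G))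
    (hT : ¬ p ∣ (centralizer (D : Set G)).relIndex (stabT D l)) {u u' : G} (hu : u ∈ D)
    (hH : ∀ x, x ∈ H ↔ x * u = u * x) (hu' : RegT D l u') (hu1' : u' ≠ 1)
    (hne : ¬ ∃ t ∈ stabT D l, t * u * t⁻¹ = u') (i : Fin s) :
    ∑ χ : Irr G, (XA p ψ σ m a1 i u χ : ℂ) * (starRingEnd ℂ) (Ad p D Φ ε u' χ : ℂ) = 0 := P179H854.xa_ad hL hl hD hab hT h hu hH hu' hu1' hne i

theorem A3' [IsAlgClosed k] (h : NDat p red D l H ψ σ m a1 a2) (hL : LocR p red D l Φ aH bH ε κ₀)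
    (hl : BP p D l)
    (hD : IsPGroup p D) (hab : D ≤ centralizer (D : Set G))
    (hT : ¬ p ∣ (centralizer (D : Set G)).relIndex (stabT D l)) {u u' : G} (hu : u ∈ D)
    (hH : ∀ x, x ∈ H ↔ x * u = u * x) (hu' : RegT D l u') (hu1' : u' ≠ 1)
    (hne : ¬ ∃ t ∈ stabT D l, t * u * t⁻¹ = u') (i : Fin s) :
    ∑ χ : Irr G, (Ad p D Φ ε u' χ : ℂ) * (starRingEnd ℂ) (XA p ψ σ m a1 i u χ : ℂ) = 0 := P179H854.ad_xa hL hl hD hab hT h hu hH hu' hu1' hne i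

theorem A4 [IsAlgClosed k] (hL : LocR p red D l Φ aH bH ε κ₀) (hl : BP p D l)
    (hD : IsPGroup p D) (hab : D ≤ centralizer (D : Set G)) {u b : G} (hu : RegT D l u)
    (hu1 : u ≠ 1) (hb : RegT D l b) (hb1 : b ≠ 1) :
    ∑ χ : Irr G, (Ad p D Φ ε u χ : ℂ) * (starRingEnd ℂ) (Ad p D Φ ε b χ : ℂ) =
      if ∃ t ∈ stabT D l, t * u * t⁻¹ = b then (Nat.card D : ℂ) else 0 := P179H854.ad_ad hL hl hD hab hu hu1 hb hb1

theorem A5 (h : NDat p red D l H ψ σ m a1 a2) (hD : IsPGroup p D) {u : G} (hu : u ∈ D)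
    (hu1 : u ≠ 1) (hH : ∀ x, x ∈ H ↔ x * u = u * x) (i : Fin s) :
    ∑ χ : Irr G, (XA p ψ σ m a1 i u χ : ℂ) * (starRingEnd ℂ) (χ.1 1) = 0 := P179H854.xa_one h (P179H854.exists_pow_of_mem hD hu) hu1 hH i

theorem A5' (hL : LocR p red D l Φ aH bH ε κ₀) (hD : IsPGroup p D) {u : G} (hu : RegT D l u)
    (hu1 : u ≠ 1) :
    ∑ χ : Irr G, (Ad p D Φ ε u χ : ℂ) * (starRingEnd ℂ) (χ.1 1) = 0 := P179H854.ad_one hL hD hu hu1

theorem P1 (h : NDat p red D l H ψ σ m a1 a2) {u : G} {N : ℕ} (hw : u ^ N = 1) (hN : N ≠ 0)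
    (hH : ∀ x, x ∈ H ↔ x * u = u * x) {ζ : ℂ} (hζ : IsPrimitiveRoot ζ N) (i : Fin s)
    (χ : Irr G) :
    ∃ Q : ℤ[X], ∀ j : ℕ, dn p H (p ^ a1) (Pk ψ σ m i) (u ^ j) χ.1 = aeval (ζ ^ j) Q := h.poly hw hN hH hζ i χ

theorem P2 (hL : LocR p red D l Φ aH bH ε κ₀) {u : G} (hu : RegT D l u)
    (hu1 : u ≠ 1) {N : ℕ} (hw : u ^ N = 1) (hN : N ≠ 0) {ζ : ℂ} (hζ : IsPrimitiveRoot ζ N)
    (χ : Irr G) :
    ∃ Q : ℤ[X], ∀ j : ℕ, (orderOf u).Coprime j → (Ad p D Φ ε (u ^ j) χ : ℂ) = aeval (ζ ^ j) Q :=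
  hL.poly hu hu1 hw hN hζ χ

theorem R1 (h : NDat p red D l H ψ σ m a1 a2) (hD : IsPGroup p D) {u : G} (hu : u ∈ D)
    (hH : ∀ x, x ∈ H ↔ x * u = u * x) {m₁ : ℕ} (hmc : m₁.Coprime (Nat.card G))
    (hm1 : m₁ ≡ 1 [MOD ordCompl[p] (Nat.card G)])
    (hgen : ∀ i : ℕ, i ≡ 1 [MOD p] → ∃ t : ℕ, m₁ ^ t ≡ i [MOD ordProj[p] (Nat.card G)])
    {χ : Irr G} (hχ : ∀ g, χ.1 (g ^ m₁) = χ.1 g) {e : ℕ} (he : e ≡ 1 [MOD p]) (i : Fin s) :
    XA p ψ σ m a1 i (u ^ e) χ = XA p ψ σ m a1 i u χ := P179H46.XA_rat' ψ σ m a1 hD hu (fun x hx => (hH x).1 hx) i hm1 hχ hgen he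

theorem R2 (hL : LocR p red D l Φ aH bH ε κ₀) (hD : IsPGroup p D) {u : G} (hu : RegT D l u)
    (hu1 : u ≠ 1) {m₁ : ℕ} (hmc : m₁.Coprime (Nat.card G))
    (hm1 : m₁ ≡ 1 [MOD ordCompl[p] (Nat.card G)])
    (hgen : ∀ i : ℕ, i ≡ 1 [MOD p] → ∃ t : ℕ, m₁ ^ t ≡ i [MOD ordProj[p] (Nat.card G)])
    {χ : Irr G} (hχ : ∀ g, χ.1 (g ^ m₁) = χ.1 g) {e : ℕ} (he : e ≡ 1 [MOD p]) :
    Ad p D Φ ε (u ^ e) χ = Ad p D Φ ε u χ := P179H46.Ad_rat' hD hu.1 hm1 hχ hgen he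

end Stub

section Cols

variable {p : ℕ} [hp : Fact p.Prime] {k : Type v} [Field k] [CharP k p] {red : AA →+* k}
  {G : Type} [Group G] [Fintype G] {D : Subgroup G} {l : (G → k) → k}
  {Φ : ∀ H : Subgroup G, Irr H} {aH bH : Subgroup G → ℕ} {ε : Subgroup G → ℤ} {κ₀ : k}
  {s : ℕ} {w t : G} {ψ : Fin s → Irr (centralizer {w} : Subgroup G)} {σ : Fin s → ℤ} {m : ℕ}
  {τ : ℤ}

/-- the columns -/
noncomputable def cA (p : ℕ) [Fact p.Prime] {G : Type} [Group G] [Fintype G] (D : Subgroup G)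
    (Φ : ∀ H : Subgroup G, Irr H) (ε : Subgroup G → ℤ) {s : ℕ} {w : G}
    (ψ : Fin s → Irr (centralizer {w} : Subgroup G)) (σ : Fin s → ℤ) (m : ℕ) (τ : ℤ)
    (d : ℕ) (y : G) (χ : Irr G) : AA :=
  if y ∈ zpowers w then (τ : AA) * ∑ i, XA p ψ σ m 2 i (w ^ d * y) χ
  else Ad p D Φ ε (w ^ d * y) χ

/-- the elements of the coset which are powers of `w` -/
theorem SqData.exists_pow {T : Subgroup G} (hs : SqData p D T w t s) {d : ℕ} (hd : p.Coprime d)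
    {y : G} (hyp : y ^ p = 1) (hyw : y ∈ zpowers w) :
    ∃ j : ℕ, p.Coprime j ∧ w ^ d * y = w ^ j := by
  rw [hs.mem_zpowers_iff hyp] at hyw
  obtain ⟨e, he⟩ := (mem_powers_iff_mem_zpowers).2 hyw
  simp only at he
  refine ⟨d + p * e, ?_, ?_⟩
  · rwa [Nat.coprime_add_mul_left_right]
  · rw [← he, pow_add, pow_mul]

theorem SqData.cz {T : Subgroup G} (hs : SqData p D T w t s) {j : ℕ} (hj : p.Coprime j) (x : G) :
    x ∈ (centralizer {w} : Subgroup G) ↔ x * w ^ j = w ^ j * x := by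
  rw [← cz_pow (hs.coprime_order hj)]
  exact mem_cz _ x

variable (hs : SqData p D (stabT D l) w t s) (hN : NDat p red D l (centralizer {w}) ψ σ m 2 2)
  (hL : LocR p red D l Φ aH bH ε κ₀) (hl : BP p D l) (hD : IsPGroup p D)
  (hab : D ≤ centralizer (D : Set G))
  (hT : ¬ p ∣ (centralizer (D : Set G)).relIndex (stabT D l))

include hs hab in
theorem SqData.regT {d : ℕ} (hd : p.Coprime d) {y : G} (hy : y ∈ D) (hyp : y ^ p = 1)
    (hyw : y ∉ zpowers w) : RegT D l (w ^ d * y) ∧ w ^ d * y ≠ 1 := by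
  have hab' : ∀ a ∈ D, ∀ b ∈ D, a * b = b * a := fun a ha b hb =>
    (mem_centralizer_iff.1 (hab hb) a ha)
  exact ⟨⟨mul_mem (pow_mem hs.w_mem _) hy, fun n hn h => hs.reg_coset hab' hd hy hyp hyw hn h⟩,
    hs.coset_ne_one hyw⟩

theorem cA_in {d : ℕ} {y : G} (hy : y ∈ zpowers w) (χ : Irr G) :
    (cA p D Φ ε ψ σ m τ d y χ : ℂ) = (τ : ℂ) * ∑ i, (XA p ψ σ m 2 i (w ^ d * y) χ : ℂ) := by
  unfold cA
  rw [if_pos hy]
  push_cast
  rfl

theorem cA_out {d : ℕ} {y : G} (hy : y ∉ zpowers w) (χ : Irr G) :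
    (cA p D Φ ε ψ σ m τ d y χ : ℂ) = (Ad p D Φ ε (w ^ d * y) χ : ℂ) := by
  unfold cA
  rw [if_neg hy]

include hs in
theorem t_fix_w {y : G} (hy : y ∈ zpowers w) (a : ℕ) : t ^ a * y * (t ^ a)⁻¹ = y := by
  obtain ⟨i, rfl⟩ := hy
  simp only
  rw [← conj_zpow, hs.t_pow_w]

include hs hab in
/-- conjugacy in the coset -/
theorem conj_iff {d : ℕ} (hd : p.Coprime d) {y y' : G} (hy : y ∈ D) (hyp : y ^ p = 1)
    (hy' : y' ∈ D) (hyp' : y' ^ p = 1) (h : ∃ n ∈ stabT D l, n * (w ^ d * y) * n⁻¹ = w ^ d * y') :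
    ∃ a < s, t ^ a * y * (t ^ a)⁻¹ = y' := by
  have hab' : ∀ a ∈ D, ∀ b ∈ D, a * b = b * a := fun a ha b hb =>
    (mem_centralizer_iff.1 (hab hb) a ha)
  obtain ⟨n, hn, e⟩ := h
  obtain ⟨h1, h2⟩ := hs.fuse hab' hd hy hyp hy' hyp' hn e
  obtain ⟨a, ha, hc⟩ := hs.gen n hn h1
  refine ⟨a, ha, ?_⟩
  rw [← h2]
  have h3 := mem_centralizer_iff.1 hc y hy
  have h4 : n = t ^ a * ((t ^ a)⁻¹ * n) := by group
  calc t ^ a * y * (t ^ a)⁻¹ = t ^ a * (y * ((t ^ a)⁻¹ * n)) * n⁻¹ := by group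
    _ = t ^ a * ((t ^ a)⁻¹ * n * y) * n⁻¹ := by rw [h3]
    _ = n * y * n⁻¹ := by group

include hs in
theorem conj_of {d a : ℕ} {y y' : G} (h : t ^ a * y * (t ^ a)⁻¹ = y') :
    t ^ a * (w ^ d * y) * (t ^ a)⁻¹ = w ^ d * y' := by
  have h1 : t ^ a * w ^ d * (t ^ a)⁻¹ = w ^ d := by rw [← conj_pow, hs.t_pow_w]
  calc t ^ a * (w ^ d * y) * (t ^ a)⁻¹ = t ^ a * w ^ d * (t ^ a)⁻¹ * (t ^ a * y * (t ^ a)⁻¹) := by
        group
    _ = w ^ d * y' := by rw [h1, h]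

include hs in
theorem conj_unique {y y' : G} (hy : y ∈ D) (hyw : y ∉ zpowers w) {a b : ℕ} (ha : a < s)
    (hb : b < s) (h1 : t ^ a * y * (t ^ a)⁻¹ = y') (h2 : t ^ b * y * (t ^ b)⁻¹ = y') : a = b := by
  have key : ∀ a b : ℕ, a ≤ b → b < s → t ^ a * y * (t ^ a)⁻¹ = y' →
      t ^ b * y * (t ^ b)⁻¹ = y' → a = b := by
    intro a b hab hb h1 h2
    have h3 : t ^ (b - a) * y * (t ^ (b - a))⁻¹ = y := by
      have h4 : t ^ b = t ^ a * t ^ (b - a) := by rw [← pow_add]; congr 1; omega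
      rw [h4] at h2
      have h5 : t ^ a * (t ^ (b - a) * y * (t ^ (b - a))⁻¹) * (t ^ a)⁻¹ = y' := by
        rw [← h2]; group
      rw [← h1] at h5
      exact mul_left_cancel (mul_right_cancel h5)
    have h4 := hs.reg y hy hyw _ (hs.t_pow_mem (b - a)) (hs.t_pow_w (b - a)) h3
    have h5 := (hs.tpow _).1 h4
    have h6 := Nat.eq_zero_of_dvd_of_lt h5 (by omega)
    omega
  rcases le_total a b with h | h
  · exact key a b h hb h1 h2
  · exact (key b a h ha h2 h1).symm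

include hs hN hL hl hD hab hT in
/-- **the Gram matrix of the columns** -/
theorem gram_cA [IsAlgClosed k] (hτ : τ = 1 ∨ τ = -1) {d : ℕ} (hd : p.Coprime d) {y y' : G}
    (hy : y ∈ D) (hyp : y ^ p = 1) (hy' : y' ∈ D) (hyp' : y' ^ p = 1) :
    ∑ χ : Irr G, (cA p D Φ ε ψ σ m τ d y χ : ℂ) *
      (starRingEnd ℂ) (cA p D Φ ε ψ σ m τ d y' χ : ℂ) =
      ((p ^ 4 : ℕ) : ℂ) * ((univ.filter fun a : Fin s =>
        t ^ (a : ℕ) * y * (t ^ (a : ℕ))⁻¹ = y').card : ℂ) := by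
  have hcard : Nat.card D = p ^ 4 := by rw [hN.card]; ring
  have hwD : ∀ z ∈ D, w ^ d * z ∈ D := fun z hz => mul_mem (pow_mem hs.w_mem _) hz
  have hpel : ∀ x ∈ D, ∃ a : ℕ, x ^ p ^ a = 1 := by
    intro x hx
    obtain ⟨n, hn⟩ := hD ⟨x, hx⟩
    exact ⟨n, by simpa using congrArg Subtype.val hn⟩
  have hH : ∀ z : G, z ^ p = 1 → z ∈ zpowers w → ∀ x, x ∈ (centralizer {w} : Subgroup G) ↔
      x * (w ^ d * z) = (w ^ d * z) * x := by
    intro z hzp hz x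
    obtain ⟨j, hj, e⟩ := hs.exists_pow hd hzp hz
    rw [e]
    exact hs.cz hj x
  -- no conjugacy
  have hzero : (∀ a < s, t ^ a * y * (t ^ a)⁻¹ ≠ y') →
      (univ.filter fun a : Fin s => t ^ (a : ℕ) * y * (t ^ (a : ℕ))⁻¹ = y').card = 0 := by
    intro h
    rw [Finset.card_eq_zero, Finset.filter_eq_empty_iff]
    exact fun a _ => h a a.2
  have hττ : (τ : ℂ) * (τ : ℂ) = 1 := by
    rcases hτ with h | h <;> rw [h] <;> norm_num
  by_cases hyw : y ∈ zpowers w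
  · have hfix := t_fix_w hs hyw
    by_cases hyw' : y' ∈ zpowers w
    · by_cases hyy : y = y'
      · subst hyy
        have h1 : (univ.filter fun a : Fin s => t ^ (a : ℕ) * y * (t ^ (a : ℕ))⁻¹ = y).card =
            s := by
          rw [Finset.filter_true_of_mem (fun (a : Fin s) _ => hfix (a : ℕ)), card_univ,
            Fintype.card_fin]
        rw [h1]
        have h2 : ∀ χ : Irr G, (cA p D Φ ε ψ σ m τ d y χ : ℂ) *
            (starRingEnd ℂ) (cA p D Φ ε ψ σ m τ d y χ : ℂ) = ∑ i, ∑ j,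
            ((XA p ψ σ m 2 i (w ^ d * y) χ : ℂ) *
              (starRingEnd ℂ) (XA p ψ σ m 2 j (w ^ d * y) χ : ℂ)) := by
          intro χ
          rw [cA_in hyw, map_mul, map_sum, map_intCast]
          calc (τ : ℂ) * (∑ i, (XA p ψ σ m 2 i (w ^ d * y) χ : ℂ)) *
              ((τ : ℂ) * ∑ i, (starRingEnd ℂ) (XA p ψ σ m 2 i (w ^ d * y) χ : ℂ)) =
              ((τ : ℂ) * τ) * ((∑ i, (XA p ψ σ m 2 i (w ^ d * y) χ : ℂ)) *
              ∑ i, (starRingEnd ℂ) (XA p ψ σ m 2 i (w ^ d * y) χ : ℂ)) := by ring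
            _ = _ := by rw [hττ, one_mul, Finset.sum_mul_sum]
        rw [Finset.sum_congr rfl fun χ _ => h2 χ, Finset.sum_comm]
        have h3 : ∀ i, ∑ χ : Irr G, ∑ j, ((XA p ψ σ m 2 i (w ^ d * y) χ : ℂ) *
              (starRingEnd ℂ) (XA p ψ σ m 2 j (w ^ d * y) χ : ℂ)) =
            ∑ j, (p : ℂ) ^ 2 * ((if i = j then 1 else 0) + m) := by
          intro i
          rw [Finset.sum_comm]
          exact Finset.sum_congr rfl fun j _ => A1 hN (hpel _ (hwD y hy)) (hH y hyp hyw) i j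
        rw [Finset.sum_congr rfl fun i _ => h3 i]
        have h4 : ∀ i : Fin s, ∑ j : Fin s, (p : ℂ) ^ 2 * ((if i = j then 1 else 0) + (m : ℂ)) =
            (p : ℂ) ^ 4 := by
          intro i
          rw [← Finset.mul_sum, Finset.sum_add_distrib, Finset.sum_ite_eq, if_pos (mem_univ _),
            Finset.sum_const, card_univ, Fintype.card_fin, nsmul_eq_mul]
          have h5 : (s : ℂ) * m + 1 = (p : ℂ) ^ 2 := by exact_mod_cast hN.smq
          rw [add_comm (1 : ℂ), h5]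
          ring
        rw [Finset.sum_congr rfl fun i _ => h4 i, Finset.sum_const, card_univ, Fintype.card_fin,
          nsmul_eq_mul]
        push_cast
        ring
      · have hne : ¬ ∃ n ∈ stabT D l, n * (w ^ d * y) * n⁻¹ = w ^ d * y' := by
          intro h
          obtain ⟨a, -, e⟩ := conj_iff hs hab hd hy hyp hy' hyp' h
          exact hyy ((hfix a).symm.trans e)
        rw [hzero fun a _ e => hyy ((hfix a).symm.trans e), Nat.cast_zero, mul_zero]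
        have h2 : ∀ χ : Irr G, (cA p D Φ ε ψ σ m τ d y χ : ℂ) *
            (starRingEnd ℂ) (cA p D Φ ε ψ σ m τ d y' χ : ℂ) = ∑ i, ∑ j,
            ((XA p ψ σ m 2 i (w ^ d * y) χ : ℂ) *
              (starRingEnd ℂ) (XA p ψ σ m 2 j (w ^ d * y') χ : ℂ)) := by
          intro χ
          rw [cA_in hyw, cA_in hyw', map_mul, map_sum, map_intCast]
          calc (τ : ℂ) * (∑ i, (XA p ψ σ m 2 i (w ^ d * y) χ : ℂ)) *
              ((τ : ℂ) * ∑ i, (starRingEnd ℂ) (XA p ψ σ m 2 i (w ^ d * y') χ : ℂ)) =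
              ((τ : ℂ) * τ) * ((∑ i, (XA p ψ σ m 2 i (w ^ d * y) χ : ℂ)) *
              ∑ i, (starRingEnd ℂ) (XA p ψ σ m 2 i (w ^ d * y') χ : ℂ)) := by ring
            _ = _ := by rw [hττ, one_mul, Finset.sum_mul_sum]
        rw [Finset.sum_congr rfl fun χ _ => h2 χ, Finset.sum_comm]
        refine Finset.sum_eq_zero fun i _ => ?_
        rw [Finset.sum_comm]
        exact Finset.sum_eq_zero fun j _ => A2 hN hl hD hab hT (hwD y hy) (hwD y' hy')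
          (hH y hyp hyw) (hH y' hyp' hyw') hne i j
    · have hyy : y ≠ y' := fun h => hyw' (h ▸ hyw)
      have hne : ¬ ∃ n ∈ stabT D l, n * (w ^ d * y) * n⁻¹ = w ^ d * y' := by
        intro h
        obtain ⟨a, -, e⟩ := conj_iff hs hab hd hy hyp hy' hyp' h
        exact hyy ((hfix a).symm.trans e)
      rw [hzero fun a _ e => hyy ((hfix a).symm.trans e), Nat.cast_zero, mul_zero]
      obtain ⟨hr, hr1⟩ := hs.regT hab hd hy' hyp' hyw'
      have h2 : ∀ χ : Irr G, (cA p D Φ ε ψ σ m τ d y χ : ℂ) *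
          (starRingEnd ℂ) (cA p D Φ ε ψ σ m τ d y' χ : ℂ) = (τ : ℂ) * ∑ i,
          ((XA p ψ σ m 2 i (w ^ d * y) χ : ℂ) *
            (starRingEnd ℂ) (Ad p D Φ ε (w ^ d * y') χ : ℂ)) := by
        intro χ
        rw [cA_in hyw, cA_out hyw', mul_assoc, Finset.sum_mul]
      rw [Finset.sum_congr rfl fun χ _ => h2 χ, ← Finset.mul_sum, Finset.sum_comm,
        Finset.sum_eq_zero fun i _ => A3 hN hL hl hD hab hT (hwD y hy) (hH y hyp hyw) hr hr1
          hne i, mul_zero]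
  · obtain ⟨hr, hr1⟩ := hs.regT hab hd hy hyp hyw
    by_cases hyw' : y' ∈ zpowers w
    · have hfix := t_fix_w hs hyw'
      have hyy : y ≠ y' := fun h => hyw (h ▸ hyw')
      have hne0 : ∀ a : ℕ, t ^ a * y * (t ^ a)⁻¹ ≠ y' := by
        intro a e
        have h1 := hfix a
        rw [← h1] at e
        exact hyy (mul_left_cancel (mul_right_cancel e))
      have hne : ¬ ∃ n ∈ stabT D l, n * (w ^ d * y') * n⁻¹ = w ^ d * y := by
        intro h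
        obtain ⟨a, -, e⟩ := conj_iff hs hab hd hy' hyp' hy hyp h
        exact hyy ((hfix a).symm.trans e).symm
      rw [hzero fun a _ => hne0 a, Nat.cast_zero, mul_zero]
      have h2 : ∀ χ : Irr G, (cA p D Φ ε ψ σ m τ d y χ : ℂ) *
          (starRingEnd ℂ) (cA p D Φ ε ψ σ m τ d y' χ : ℂ) = (τ : ℂ) * ∑ i,
          ((Ad p D Φ ε (w ^ d * y) χ : ℂ) *
            (starRingEnd ℂ) (XA p ψ σ m 2 i (w ^ d * y') χ : ℂ)) := by
        intro χ
        rw [cA_out hyw, cA_in hyw', map_mul, map_sum, map_intCast, ← Finset.mul_sum]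
        ring
      rw [Finset.sum_congr rfl fun χ _ => h2 χ, ← Finset.mul_sum, Finset.sum_comm,
        Finset.sum_eq_zero fun i _ => A3' hN hL hl hD hab hT (hwD y' hy') (hH y' hyp' hyw') hr hr1
          hne i, mul_zero]
    · obtain ⟨hr', hr1'⟩ := hs.regT hab hd hy' hyp' hyw'
      have h2 : ∀ χ : Irr G, (cA p D Φ ε ψ σ m τ d y χ : ℂ) *
          (starRingEnd ℂ) (cA p D Φ ε ψ σ m τ d y' χ : ℂ) =
          ((Ad p D Φ ε (w ^ d * y) χ : ℂ) *
            (starRingEnd ℂ) (Ad p D Φ ε (w ^ d * y') χ : ℂ)) := by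
        intro χ
        rw [cA_out hyw, cA_out hyw']
      rw [Finset.sum_congr rfl fun χ _ => h2 χ, A4 hL hl hD hab hr hr1 hr' hr1']
      by_cases hex : ∃ n ∈ stabT D l, n * (w ^ d * y) * n⁻¹ = w ^ d * y'
      · rw [if_pos hex, hcard]
        obtain ⟨a, ha, e⟩ := conj_iff hs hab hd hy hyp hy' hyp' hex
        have h3 : (univ.filter fun a : Fin s => t ^ (a : ℕ) * y * (t ^ (a : ℕ))⁻¹ = y') =
            {⟨a, ha⟩} := by
          ext b
          rw [mem_filter, mem_singleton]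
          constructor
          · rintro ⟨-, hb⟩
            exact Fin.ext (conj_unique hs hy hyw b.2 ha hb e)
          · rintro rfl
            exact ⟨mem_univ _, e⟩
        rw [h3, card_singleton, Nat.cast_one, mul_one]
      · rw [if_neg hex, hzero fun a ha e => hex ⟨t ^ a, hs.t_pow_mem a, conj_of hs e⟩,
          Nat.cast_zero, mul_zero]

include hs hN hL hD hab in
/-- orthogonality with the degrees -/
theorem reg_cA {d : ℕ} (hd : p.Coprime d) {y : G} (hy : y ∈ D) (hyp : y ^ p = 1) :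
    ∑ χ : Irr G, (cA p D Φ ε ψ σ m τ d y χ : ℂ) * (starRingEnd ℂ) (χ.1 1) = 0 := by
  by_cases hyw : y ∈ zpowers w
  · obtain ⟨j, hj, e⟩ := hs.exists_pow hd hyp hyw
    have h1 : w ^ d * y ≠ 1 := by
      rw [e]
      intro h
      have h2 := orderOf_dvd_of_pow_eq_one h
      have h3 := (hs.coprime_order hj).eq_one_of_dvd h2
      rw [hs.order_w] at h3
      exact absurd h3 (Nat.one_lt_pow (by norm_num) hp.out.one_lt).ne'
    have h2 : ∀ χ : Irr G, (cA p D Φ ε ψ σ m τ d y χ : ℂ) * (starRingEnd ℂ) (χ.1 1) =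
        (τ : ℂ) * ∑ i, ((XA p ψ σ m 2 i (w ^ d * y) χ : ℂ) * (starRingEnd ℂ) (χ.1 1)) := by
      intro χ
      rw [cA_in hyw, mul_assoc, Finset.sum_mul]
    rw [Finset.sum_congr rfl fun χ _ => h2 χ, ← Finset.mul_sum, Finset.sum_comm,
      Finset.sum_eq_zero fun i _ => ?_, mul_zero]
    refine A5 hN hD (mul_mem (pow_mem hs.w_mem _) hy) h1 ?_ i
    intro x
    rw [e]
    exact hs.cz hj x
  · obtain ⟨hr, hr1⟩ := hs.regT hab hd hy hyp hyw
    rw [← A5' hL hD hr hr1]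
    exact Finset.sum_congr rfl fun χ _ => by rw [cA_out hyw]

include hs hN hL hD hab in
/-- the columns of the rational characters do not change under `y ↦ w ^ p y` -/
theorem trans_cA {m₁ : ℕ} (hmc : m₁.Coprime (Nat.card G))
    (hm1 : m₁ ≡ 1 [MOD ordCompl[p] (Nat.card G)])
    (hgen : ∀ i : ℕ, i ≡ 1 [MOD p] → ∃ t : ℕ, m₁ ^ t ≡ i [MOD ordProj[p] (Nat.card G)])
    {χ : Irr G} (hχ : ∀ g, χ.1 (g ^ m₁) = χ.1 g) {d : ℕ} (hd : p.Coprime d) {y : G} (hy : y ∈ D)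
    (hyp : y ^ p = 1) : cA p D Φ ε ψ σ m τ d (w ^ p * y) χ = cA p D Φ ε ψ σ m τ d y χ ∧
      ∀ i, y ∈ zpowers w → XA p ψ σ m 2 i (w ^ d * (w ^ p * y)) χ =
        XA p ψ σ m 2 i (w ^ d * y) χ := by
  obtain ⟨d', hd'⟩ : ∃ d' : ℕ, d * d' ≡ 1 [MOD p] := by
    obtain ⟨d', hd'⟩ := Nat.exists_mul_mod_eq_one_of_coprime hd.symm hp.out.one_lt
    exact ⟨d', by rw [Nat.ModEq, hd'.2, Nat.mod_eq_of_lt hp.out.one_lt]⟩
  have hab' : ∀ a ∈ D, ∀ b ∈ D, a * b = b * a := fun a ha b hb =>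
    (mem_centralizer_iff.1 (hab hb) a ha)
  have hwp : (w ^ p) ^ (d * d') = w ^ p := by
    have h1 : (w ^ p) ^ (d * d') = (w ^ p) ^ 1 := by
      rw [pow_eq_pow_iff_modEq, hs.order_wp]
      exact hd'
    rw [h1, pow_one]
  have hpow : (w ^ d * y) ^ (1 + p * d') = w ^ d * (w ^ p * y) := by
    have h2 : Commute (w ^ d) y := hab' _ (pow_mem hs.w_mem _) _ hy
    have h3 : y ^ (1 + p * d') = y := by
      rw [pow_add, pow_mul, hyp, one_pow, mul_one, pow_one]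
    have h4 : (w ^ d) ^ (1 + p * d') = w ^ d * w ^ p := by
      rw [pow_add, pow_one, ← pow_mul]
      congr 1
      rw [← hwp, ← pow_mul]
      congr 1
      ring
    rw [h2.mul_pow, h3, h4, mul_assoc]
  have he : 1 + p * d' ≡ 1 [MOD p] := by
    have : 1 + p * d' ≡ 1 + 0 [MOD p] :=
      Nat.ModEq.add_left 1 ((Nat.modEq_zero_iff_dvd).2 (dvd_mul_right p d'))
    exact this
  have hwD : w ^ d * y ∈ D := mul_mem (pow_mem hs.w_mem _) hy
  have hX : ∀ i, y ∈ zpowers w → XA p ψ σ m 2 i (w ^ d * (w ^ p * y)) χ =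
      XA p ψ σ m 2 i (w ^ d * y) χ := by
    intro i hyw
    rw [← hpow]
    refine R1 hN hD hwD ?_ hmc hm1 hgen hχ he i
    obtain ⟨j, hj, e⟩ := hs.exists_pow hd hyp hyw
    intro x
    rw [e]
    exact hs.cz hj x
  refine ⟨?_, hX⟩
  have hiff : w ^ p * y ∈ zpowers w ↔ y ∈ zpowers w :=
    Subgroup.mul_mem_cancel_left _ (pow_mem (mem_zpowers w) p)
  unfold cA
  by_cases hyw : y ∈ zpowers w
  · rw [if_pos hyw, if_pos (hiff.2 hyw)]
    congr 1
    exact Finset.sum_congr rfl fun i _ => hX i hyw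
  · rw [if_neg hyw, if_neg (fun h => hyw (hiff.1 h)), ← hpow]
    obtain ⟨hr, hr1⟩ := hs.regT hab hd hy hyp hyw
    exact R2 hL hD hr hr1 hmc hm1 hgen hχ he

end Cols

end P179H443
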