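import Vale.Agent.P179.R2.H443.Asm2

/-!
# The coset of an element which is not regular modulo `D ^ p`: the columns are constant
-/

namespace P179H443

open Finset P179P P179C P179Y Subgroup P179H524 P179I P179A P179H452 P179H666 Polynomial

open scoped Classical IsMulCommutative

universe v

set_option linter.unusedSectionVars false

/-- `Ω_1(D)`, as a subgroup of `D` -/
def Om (p : ℕ) {G : Type*} [Group G] (D : Subgroup G) [IsMulCommutative D] : Subgroup D where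
  carrier := {y | y ^ p = 1}
  one_mem' := one_pow _
  mul_mem' := by
    intro a b ha hb
    have h : Commute a b := mul_comm a b
    change (a * b) ^ p = 1
    rw [h.mul_pow, show a ^ p = 1 from ha, show b ^ p = 1 from hb, one_mul]
  inv_mem' := by
    intro a ha
    change a⁻¹ ^ p = 1
    rw [inv_pow, show a ^ p = 1 from ha, inv_one]

theorem mem_Om {p : ℕ} {G : Type*} [Group G] {D : Subgroup G} [IsMulCommutative D] {y : D} :
    y ∈ Om p D ↔ y ^ p = 1 := Iff.rfl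

theorem Om_coe {p : ℕ} {G : Type*} [Group G] {D : Subgroup G} [IsMulCommutative D]
    (y : Om p D) : (((y : D) : G)) ^ p = 1 := by
  have h : (y : D) ^ p = 1 := y.2
  exact congrArg Subtype.val h

theorem card_Om {p : ℕ} {G : Type*} [Group G] {D : Subgroup G} [IsMulCommutative D]
    (h : HomSq p D) : Nat.card (Om p D) = p ^ 2 := by
  rw [← h.1]
  refine Nat.card_congr ⟨fun y => ⟨y, y.1.2, Om_coe y⟩, fun y => ⟨⟨y.1, y.2.1⟩,
    Subtype.ext y.2.2⟩, fun y => rfl, fun y => rfl⟩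

section Cols

variable {p : ℕ} [hp : Fact p.Prime] {k : Type v} [Field k] [CharP k p] {red : AA →+* k}
  {G : Type} [Group G] [Fintype G] {D : Subgroup G} {l : (G → k) → k}
  {Φ : ∀ H : Subgroup G, Irr H} {aH bH : Subgroup G → ℕ} {ε : Subgroup G → ℤ} {κ₀ : k}
  {s : ℕ} {w t : G} {ψ : Fin s → Irr (centralizer {w} : Subgroup G)} {σ : Fin s → ℤ} {m : ℕ}
  {τ : ℤ}

variable (hs : SqData p D (stabT D l) w t s) (hN : NDat p red D l (centralizer {w}) ψ σ m 2 2)
  (hL : LocR p red D l Φ aH bH ε κ₀) (hl : BP p D l) (hD : IsPGroup p D)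
  (hab : D ≤ centralizer (D : Set G))
  (hT : ¬ p ∣ (centralizer (D : Set G)).relIndex (stabT D l)) (hsq : HomSq p D)

include hs in
/-- a complement of `⟨w ^ p⟩` in `Ω_1(D)` -/
theorem exists_compl [IsMulCommutative D] {y₀ : D} (hy₀ : y₀ ^ p = 1)
    (hy₀w : (y₀ : G) ∉ zpowers w) :
    ∃ Y : Subgroup D, Nat.card Y = p ∧ y₀ ∈ Y ∧ (∀ y ∈ Y, y ^ p = 1) ∧
      ∀ y ∈ Y, y ≠ 1 → (y : G) ∉ zpowers w := by
  have h1 : y₀ ≠ 1 := by
    rintro rfl
    exact hy₀w (one_mem _)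
  have hord : orderOf y₀ = p := orderOf_eq_prime hy₀ h1
  have hle : zpowers y₀ ≤ Om p D := by rwa [zpowers_le]
  refine ⟨zpowers y₀, by rw [Nat.card_zpowers, hord], mem_zpowers _, fun y hy => hle hy, ?_⟩
  intro y hy hy1 hyw
  have hyp : y ^ p = 1 := hle hy
  have hordy : orderOf y = p := orderOf_eq_prime hyp hy1
  have h2 : zpowers y = zpowers y₀ := by
    have h3 : zpowers y ≤ zpowers y₀ := by rwa [zpowers_le]
    refine Subgroup.eq_of_le_of_card_ge h3 ?_
    rw [Nat.card_zpowers, Nat.card_zpowers, hord, hordy]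
  have h3 : y₀ ∈ zpowers y := by rw [h2]; exact mem_zpowers _
  obtain ⟨i, hi⟩ := h3
  apply hy₀w
  have h4 : (y : G) ^ i = (y₀ : G) := by
    have := congrArg Subtype.val hi
    simpa using this
  rw [← h4]
  exact zpow_mem hyw i

include hs hN hL hD hab hsq in
/-- **divisibility of the Fourier coefficients by `p ^ 3`** -/
theorem qn3 [IsMulCommutative D] {m₁ : ℕ} (hmc : m₁.Coprime (Nat.card G))
    (hm1 : m₁ ≡ 1 [MOD ordCompl[p] (Nat.card G)])
    (hgen : ∀ i : ℕ, i ≡ 1 [MOD p] → ∃ t : ℕ, m₁ ^ t ≡ i [MOD ordProj[p] (Nat.card G)])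
    {χ : Irr G} (hχ : ∀ g, χ.1 (g ^ m₁) = χ.1 g) {d : ℕ} (hd : p.Coprime d)
    (hK : ∀ (Y : Subgroup D), Nat.card Y = p → (∀ y ∈ Y, y ^ p = 1) →
      (∀ y ∈ Y, y ≠ 1 → (y : G) ∉ zpowers w) → ∀ ν : AddChar (Additive D) ℂ,
      (∃ y ∈ Y, lamA ν (Additive.ofMul y) ≠ 1) →
      ∑ y : Y, lamA ν (-Additive.ofMul (y : D)) *
        Cv p D Φ ε ψ σ m 2 τ (⟨w, hs.w_mem⟩ ^ d) y χ ∈ QN p red 2)
    (ν : AddChar (Additive D) ℂ) (hν : ν (Additive.ofMul (⟨w, hs.w_mem⟩ ^ p)) = 1)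
    {y₀ : D} (hy₀ : y₀ ^ p = 1) (hνy : ν (Additive.ofMul y₀) ≠ 1) :
    ∑ y : Om p D, lamA ν (-Additive.ofMul (y : D)) *
      cA p D Φ ε ψ σ m τ d ((y : D) : G) χ ∈ QN p red 3 := by
  set wD : D := ⟨w, hs.w_mem⟩ with hwD
  have hwDp : ((wD ^ p : D) : G) = w ^ p := rfl
  -- powers of `w ^ p`
  have hνz : ∀ e : ℕ, ν (Additive.ofMul ((wD ^ p) ^ e)) = 1 := by
    intro e
    rw [ofMul_pow, AddChar.map_nsmul_eq_pow, hν, one_pow]
  have hy₀w : (y₀ : G) ∉ zpowers w := by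
    intro h
    apply hνy
    rw [hs.mem_zpowers_iff (congrArg Subtype.val hy₀), ← mem_powers_iff_mem_zpowers] at h
    obtain ⟨e, he⟩ := h
    simp only at he
    have h1 : y₀ = (wD ^ p) ^ e := Subtype.ext he.symm
    rw [h1, hνz]
  obtain ⟨Y, hYc, hyY, hYp, hYw⟩ := exists_compl hs hy₀ hy₀w
  have hKY := hK Y hYc hYp hYw ν ⟨y₀, hyY, fun h => hνy (congrArg Subtype.val h)⟩
  -- the sum over `Y`
  have h1 : ∀ y : Y, Cv p D Φ ε ψ σ m 2 τ (wD ^ d) y χ =
      cA p D Φ ε ψ σ m τ d ((y : D) : G) χ := by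
    intro y
    unfold Cv cA
    by_cases hy1 : (y : D) = 1
    · rw [if_pos hy1, if_pos (by rw [hy1]; exact one_mem _), hy1, OneMemClass.coe_one, mul_one]
      rfl
    · rw [if_neg hy1, if_neg (hYw y y.2 hy1)]
      rfl
  simp only [h1] at hKY
  -- the bijection
  obtain ⟨Z, hZ⟩ : ∃ Z : Subgroup D, Z = zpowers (wD ^ p) := ⟨_, rfl⟩
  have hZe : ∀ z ∈ Z, ∃ e : ℕ, z = (wD ^ p) ^ e := by
    intro z hz
    rw [hZ, ← mem_powers_iff_mem_zpowers] at hz
    obtain ⟨e, he⟩ := hz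
    exact ⟨e, he.symm⟩
  have hZc : Nat.card Z = p := by
    rw [hZ, Nat.card_zpowers, ← Subgroup.orderOf_coe, hwDp, hs.order_wp]
  have hZO : ∀ z ∈ Z, z ^ p = 1 := by
    intro z hz
    obtain ⟨e, rfl⟩ := hZe z hz
    rw [← pow_mul, mul_comm, pow_mul]
    have h2 : (wD ^ p) ^ p = 1 := Subtype.ext hs.wpp
    rw [h2, one_pow]
  have hZw : ∀ z ∈ Z, (z : G) ∈ zpowers w := by
    intro z hz
    obtain ⟨e, rfl⟩ := hZe z hz
    exact pow_mem (pow_mem (mem_zpowers w) p) e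
  let φ : Z × Y → Om p D := fun x => ⟨(x.1 : D) * x.2, by
    have h : Commute (x.1 : D) (x.2 : D) := mul_comm _ _
    change ((x.1 : D) * x.2) ^ p = 1
    rw [h.mul_pow, hZO _ x.1.2, hYp _ x.2.2, one_mul]⟩
  have hφ : Function.Bijective φ := by
    rw [Fintype.bijective_iff_injective_and_card]
    constructor
    · rintro ⟨z, y⟩ ⟨z', y'⟩ e
      have e1 : (z : D) * y = z' * y' := congrArg Subtype.val e
      have e2 : (y : D) * (y' : D)⁻¹ = (z : D)⁻¹ * z' := by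
        calc (y : D) * (y' : D)⁻¹ = (z : D)⁻¹ * ((z : D) * y) * (y' : D)⁻¹ := by group
          _ = (z : D)⁻¹ * z' := by rw [e1]; group
      have e3 : (y : D) * (y' : D)⁻¹ = 1 := by
        by_contra hne
        refine hYw _ (mul_mem y.2 (inv_mem y'.2)) hne ?_
        rw [e2]
        exact hZw _ (mul_mem (inv_mem z.2) z'.2)
      have e4 : (y : D) = y' := mul_inv_eq_one.1 e3
      have e5 : (z : D) = z' := by rw [e4] at e1; exact mul_right_cancel e1
      exact Prod.ext (Subtype.ext e5) (Subtype.ext e4)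
    · rw [Fintype.card_prod, ← Nat.card_eq_fintype_card, ← Nat.card_eq_fintype_card,
        ← Nat.card_eq_fintype_card, hZc, hYc, card_Om hsq, pow_two]
  have h2 := Fintype.sum_bijective φ hφ
    (fun x => lamA ν (-Additive.ofMul ((φ x : D))) * cA p D Φ ε ψ σ m τ d ((φ x : D) : G) χ)
    (fun y => lamA ν (-Additive.ofMul (y : D)) * cA p D Φ ε ψ σ m τ d ((y : D) : G) χ)
    (fun _ => rfl)
  rw [← h2, Fintype.sum_prod_type]
  -- translation
  have htr : ∀ (e : ℕ) (y : D), y ^ p = 1 → cA p D Φ ε ψ σ m τ d ((((wD ^ p) ^ e * y : D)) : G) χ =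
      cA p D Φ ε ψ σ m τ d (y : G) χ := by
    intro e
    induction e with
    | zero =>
      intro y _
      rw [pow_zero, one_mul]
    | succ e ih =>
      intro y hy
      have hyO : ((wD ^ p) ^ e * y) ^ p = 1 := by
        have h : Commute ((wD ^ p) ^ e) y := mul_comm _ _
        rw [h.mul_pow, hy, mul_one, ← pow_mul, mul_comm e p, pow_mul]
        have h2 : (wD ^ p) ^ p = 1 := Subtype.ext hs.wpp
        rw [h2, one_pow]
      have h3 : (((wD ^ p) ^ (e + 1) * y : D) : G) = w ^ p * (((wD ^ p) ^ e * y : D) : G) := by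
        rw [pow_succ', mul_assoc]
        rfl
      rw [h3, (trans_cA (τ := τ) hs hN hL hD hab hmc hm1 hgen hχ hd ((wD ^ p) ^ e * y : D).2
        (congrArg Subtype.val hyO)).1, ih y hy]
  have h3 : ∀ (z : Z) (y : Y), lamA ν (-Additive.ofMul ((φ (z, y) : D))) *
      cA p D Φ ε ψ σ m τ d ((φ (z, y) : D) : G) χ = lamA ν (-Additive.ofMul (y : D)) *
      cA p D Φ ε ψ σ m τ d ((y : D) : G) χ := by
    intro z y
    obtain ⟨e, he⟩ := hZe z z.2
    have h4 : ((φ (z, y) : Om p D) : D) = (wD ^ p) ^ e * y := by rw [← he]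
    rw [h4, htr e y (hYp y y.2)]
    congr 1
    apply Subtype.ext
    change ν (-Additive.ofMul ((wD ^ p) ^ e * (y : D))) = ν (-Additive.ofMul (y : D))
    rw [ofMul_mul, neg_add, AddChar.map_add_eq_mul, AddChar.map_neg_eq_inv, hνz, inv_one, one_mul]
  simp only [h3]
  rw [Finset.sum_const, card_univ, ← Nat.card_eq_fintype_card, hZc, nsmul_eq_mul]
  have h5 : (p : AA) ∈ QN p red 1 := mem_QN_of_dvd (by rw [pow_one])
  exact mul_mem_QN h5 hKY

end Cols

end P179H443
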