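import Vale.Agent.P179.R2.H443.Asm3

/-!
# The columns of the rational characters are constant on the coset
-/

namespace P179H443

open Finset P179P P179C P179Y Subgroup P179H524 P179I P179A P179H452 P179H666 Polynomial

open scoped Classical IsMulCommutative

universe v

set_option linter.unusedSectionVars false

section Cols

variable {p : ℕ} [hp : Fact p.Prime] {k : Type v} [Field k] [CharP k p] {red : AA →+* k}
  {G : Type} [Group G] [Fintype G] {D : Subgroup G} {l : (G → k) → k}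
  {Φ : ∀ H : Subgroup G, Irr H} {aH bH : Subgroup G → ℕ} {ε : Subgroup G → ℤ} {κ₀ : k}
  {s : ℕ} {w t : G} {ψ : Fin s → Irr (centralizer {w} : Subgroup G)} {σ : Fin s → ℤ} {m : ℕ}
  {τ : ℤ}

variable (hs : SqData p D (stabT D l) w t s) (hN : NDat p red D l (centralizer {w}) ψ σ m 2 2)
  (hL : LocR p red D l Φ aH bH ε κ₀) (hl : BP p D l) (hD : IsPGroup p D)
  (hab : D ≤ centralizer (D : Set G))
  (hT : ¬ p ∣ (centralizer (D : Set G)).relIndex (stabT D l)) (hsq : HomSq p D)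

include hs hN hL hD hab hsq in
/-- the Galois conjugates of the columns -/
theorem cA_poly {N : ℕ} (hN0 : N ≠ 0) (huN : ∀ u ∈ D, u ^ N = 1) {ζ : ℂ}
    (hζ : IsPrimitiveRoot ζ N) {y : G} (hy : y ∈ D) (hyp : y ^ p = 1) (χ : Irr G) :
    ∃ Q : ℤ[X], ∀ j : ℕ, p.Coprime j →
      (cA p D Φ ε ψ σ m τ j (y ^ j) χ : ℂ) = aeval (ζ ^ j) Q := by
  have hab' : ∀ a ∈ D, ∀ b ∈ D, a * b = b * a := fun a ha b hb =>
    (mem_centralizer_iff.1 (hab hb) a ha)
  have hwy : w * y ∈ D := mul_mem hs.w_mem hy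
  have hpow : ∀ j : ℕ, (w * y) ^ j = w ^ j * y ^ j := by
    intro j
    have h : Commute w y := hab' _ hs.w_mem _ hy
    exact h.mul_pow j
  have hyj : ∀ j : ℕ, (y ^ j) ^ p = 1 := by
    intro j
    rw [← pow_mul, mul_comm, pow_mul, hyp, one_pow]
  by_cases hyw : y ∈ zpowers w
  · obtain ⟨e, he, e1⟩ := hs.exists_pow (d := 1) (Nat.coprime_one_right p) hyp hyw
    rw [pow_one] at e1
    have hH : ∀ x, x ∈ (centralizer {w} : Subgroup G) ↔ x * (w * y) = (w * y) * x := by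
      intro x
      rw [e1]
      exact hs.cz he x
    have h1 := fun i => hN.poly (huN _ hwy) hN0 hH hζ i χ
    choose Q hQ using h1
    refine ⟨Polynomial.C τ * ∑ i, Q i, fun j hj => ?_⟩
    rw [cA_in (pow_mem hyw j), map_mul, map_sum, Polynomial.aeval_C]
    congr 1
    · refine Finset.sum_congr rfl fun i _ => ?_
      rw [← hQ i j, ← hpow]
      refine hN.XA_coe ?_ i χ
      intro x
      rw [e1, ← pow_mul]
      exact hs.cz (Nat.Coprime.mul_right he hj) x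
  · obtain ⟨hr, hr1⟩ := hs.regT hab (d := 1) (Nat.coprime_one_right p) hy hyp hyw
    rw [pow_one] at hr hr1
    obtain ⟨Q, hQ⟩ := hL.poly hr hr1 (huN _ hwy) hN0 hζ χ
    refine ⟨Q, fun j hj => ?_⟩
    have hcop : (orderOf (w * y)).Coprime j := by
      have h2 : orderOf (w * y) ∣ p ^ 2 := orderOf_dvd_of_pow_eq_one (hsq.2.2 _ hwy)
      exact Nat.Coprime.coprime_dvd_left h2 (Nat.Coprime.pow_left 2 hj)
    have hyjw : y ^ j ∉ zpowers w := by
      intro h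
      apply hyw
      have hcy : (orderOf y).Coprime j := by
        have h2 : orderOf y ∣ p := orderOf_dvd_of_pow_eq_one hyp
        exact Nat.Coprime.coprime_dvd_left h2 hj
      obtain ⟨e, he⟩ := exists_pow_eq_self_of_coprime hcy.symm
      rw [← he]
      exact pow_mem h e
    rw [cA_out hyjw, ← hpow, hQ j hcop]

/-- the action of the powers of `t` on `Ω_1(D)` -/
def actO (p : ℕ) {G : Type} [Group G] {D : Subgroup G} [IsMulCommutative D] {t : G} (s : ℕ)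
    (hmem : ∀ (a : ℕ) (y : D), t ^ a * (y : G) * (t ^ a)⁻¹ ∈ D) (a : Fin s) (y : Om p D) :
    Om p D :=
  ⟨⟨t ^ (a : ℕ) * ((y : D) : G) * (t ^ (a : ℕ))⁻¹, hmem a y⟩, by
    apply Subtype.ext
    change (t ^ (a : ℕ) * ((y : D) : G) * (t ^ (a : ℕ))⁻¹) ^ p = 1
    rw [conj_pow, Om_coe]
    group⟩

theorem actO_coe [IsMulCommutative D]
    (hmem : ∀ (a : ℕ) (y : D), t ^ a * (y : G) * (t ^ a)⁻¹ ∈ D) (a : Fin s) (y : Om p D) :
    (((actO p s hmem a y : Om p D) : D) : G) = t ^ (a : ℕ) * ((y : D) : G) * (t ^ (a : ℕ))⁻¹ :=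
  rfl

/-- the character `ν` on `Ω_1(D)` -/
def muO (p : ℕ) {G : Type} [Group G] {D : Subgroup G} [IsMulCommutative D]
    (ν : AddChar (Additive D) ℂ) (y : Om p D) : ℂ := ν (-Additive.ofMul (y : D))

theorem muO_mul [IsMulCommutative D] (ν : AddChar (Additive D) ℂ) (x y : Om p D) :
    muO p ν (x * y) = muO p ν x * muO p ν y := by
  change ν (-Additive.ofMul ((x : D) * y)) = ν (-Additive.ofMul (x : D)) * _
  rw [ofMul_mul, neg_add, AddChar.map_add_eq_mul]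
  rfl

theorem muO_norm [IsMulCommutative D] (ν : AddChar (Additive D) ℂ) (y : Om p D) :
    ‖muO p ν y‖ = 1 := AddChar.norm_apply ν _

/-- the kernel of `ν` on `Ω_1(D)` -/
def kerO (p : ℕ) {G : Type} [Group G] {D : Subgroup G} [IsMulCommutative D]
    (hab' : ∀ a ∈ D, ∀ b ∈ D, a * b = b * a) (ν : AddChar (Additive D) ℂ) : Subgroup G where
  carrier := {x | ∃ h : x ∈ D, x ^ p = 1 ∧ ν (-Additive.ofMul (⟨x, h⟩ : D)) = 1}
  one_mem' := ⟨one_mem _, one_pow _, by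
    have : (⟨1, one_mem _⟩ : D) = 1 := rfl
    rw [this, ofMul_one, neg_zero, AddChar.map_zero_eq_one]⟩
  mul_mem' := by
    rintro x y ⟨hx, hxp, hx1⟩ ⟨hy, hyp, hy1⟩
    have h : Commute x y := hab' x hx y hy
    refine ⟨mul_mem hx hy, by rw [h.mul_pow, hxp, hyp, one_mul], ?_⟩
    have h2 : (⟨x * y, mul_mem hx hy⟩ : D) = ⟨x, hx⟩ * ⟨y, hy⟩ := rfl
    rw [h2, ofMul_mul, neg_add, AddChar.map_add_eq_mul, hx1, hy1, one_mul]
  inv_mem' := by
    rintro x ⟨hx, hxp, hx1⟩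
    refine ⟨inv_mem hx, by rw [inv_pow, hxp, inv_one], ?_⟩
    have h2 : (⟨x⁻¹, inv_mem hx⟩ : D) = (⟨x, hx⟩ : D)⁻¹ := rfl
    rw [h2, ofMul_inv, AddChar.map_neg_eq_inv, hx1, inv_one]

include hs hD hsq hT in
/-- **freeness** -/
theorem free_aux [IsMulCommutative D] (hab' : ∀ a ∈ D, ∀ b ∈ D, a * b = b * a)
    (hmem : ∀ (a : ℕ) (y : D), t ^ a * (y : G) * (t ^ a)⁻¹ ∈ D)
    (ν : AddChar (Additive D) ℂ) (hν : ν (Additive.ofMul (⟨w, hs.w_mem⟩ ^ p)) = 1)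
    {y₀ : D} (hy₀ : y₀ ^ p = 1) (hνy : ν (Additive.ofMul y₀) ≠ 1) {a : Fin s}
    (hall : ∀ y : Om p D, muO p ν y * (starRingEnd ℂ) (muO p ν (actO p s hmem a y)) = 1) :
    (a : ℕ) = 0 := by
  have hTN : stabT D l ≤ normalizer (D : Set G) := stabT_le_norm D l
  have hKle : kerO p hab' ν ≤ P179H292.omS hab' p := fun x hx => ⟨hx.1, hx.2.1⟩
  have hKne : kerO p hab' ν ≠ P179H292.omS hab' p := by
    intro h
    have h1 : (y₀ : G) ∈ kerO p hab' ν := by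
      rw [h]
      exact ⟨y₀.2, congrArg Subtype.val hy₀⟩
    obtain ⟨h2, -, h3⟩ := h1
    apply hνy
    have h4 : (⟨(y₀ : G), h2⟩ : D) = y₀ := rfl
    rw [h4, AddChar.map_neg_eq_inv, inv_eq_one] at h3
    exact h3
  have hwK : w ^ p ∈ kerO p hab' ν := by
    refine ⟨pow_mem hs.w_mem p, hs.wpp, ?_⟩
    have h4 : (⟨w ^ p, pow_mem hs.w_mem p⟩ : D) = ⟨w, hs.w_mem⟩ ^ p := rfl
    rw [h4, AddChar.map_neg_eq_inv, hν, inv_one]
  have hdvd := hs.dvd_of_unip hD hab' hsq hTN hT hKle hKne hwK (a := (a : ℕ)) (by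
    intro y hy
    let y' : Om p D := ⟨⟨y, hy.1⟩, Subtype.ext hy.2⟩
    have h1 := hall y'
    have h2 : muO p ν (actO p s hmem a y') = muO p ν y' := by
      have h3 : muO p ν (actO p s hmem a y') *
          (starRingEnd ℂ) (muO p ν (actO p s hmem a y')) = 1 := by
        rw [Complex.mul_conj, Complex.normSq_eq_norm_sq, muO_norm]
        norm_num
      have h4 : (starRingEnd ℂ) (muO p ν (actO p s hmem a y')) ≠ 0 := by
        intro h0
        rw [h0, mul_zero] at h3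
        exact zero_ne_one h3
      exact mul_right_cancel₀ h4 (h3.trans h1.symm)
    have hm1' : t ^ (a : ℕ) * y * (t ^ (a : ℕ))⁻¹ ∈ D := hmem a ⟨y, hy.1⟩
    refine ⟨mul_mem hm1' (inv_mem hy.1), ?_, ?_⟩
    · have h : Commute (t ^ (a : ℕ) * y * (t ^ (a : ℕ))⁻¹) y⁻¹ :=
        hab' _ hm1' _ (inv_mem hy.1)
      rw [h.mul_pow, conj_pow, inv_pow, hy.2]
      group
    · have h5 : (⟨t ^ (a : ℕ) * y * (t ^ (a : ℕ))⁻¹ * y⁻¹,
          mul_mem hm1' (inv_mem hy.1)⟩ : D) = ((actO p s hmem a y' : Om p D) : D) *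
            (y' : D)⁻¹ := rfl
      rw [h5, ofMul_mul, neg_add, AddChar.map_add_eq_mul]
      change muO p ν (actO p s hmem a y') * ν (-Additive.ofMul ((y' : D)⁻¹)) = 1
      rw [h2, ofMul_inv, AddChar.map_neg_eq_inv]
      have h6 : muO p ν y' ≠ 0 := by
        intro h0
        have := muO_norm ν y'
        rw [h0, norm_zero] at this
        exact zero_ne_one this
      exact mul_inv_cancel₀ h6)
  exact Nat.eq_zero_of_dvd_of_lt hdvd a.2

include hs hD hsq hT in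
/-- **freeness** -/
theorem free_sum [IsMulCommutative D] (hab' : ∀ a ∈ D, ∀ b ∈ D, a * b = b * a)
    (hmem : ∀ (a : ℕ) (y : D), t ^ a * (y : G) * (t ^ a)⁻¹ ∈ D)
    (ν : AddChar (Additive D) ℂ) (hν : ν (Additive.ofMul (⟨w, hs.w_mem⟩ ^ p)) = 1)
    {y₀ : D} (hy₀ : y₀ ^ p = 1) (hνy : ν (Additive.ofMul y₀) ≠ 1) {a : Fin s}
    (ha : (a : ℕ) ≠ 0) :
    ∑ y : Om p D, muO p ν y * (starRingEnd ℂ) (muO p ν (actO p s hmem a y)) = 0 := by
  have hf : ∀ x y : Om p D, muO p ν (x * y) * (starRingEnd ℂ)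
      (muO p ν (actO p s hmem a (x * y))) =
      (muO p ν x * (starRingEnd ℂ) (muO p ν (actO p s hmem a x))) *
        (muO p ν y * (starRingEnd ℂ) (muO p ν (actO p s hmem a y))) := by
    intro x y
    have h1 : actO p s hmem a (x * y) = actO p s hmem a x * actO p s hmem a y := by
      apply Subtype.ext
      apply Subtype.ext
      change t ^ (a : ℕ) * (((x : D) : G) * ((y : D) : G)) * (t ^ (a : ℕ))⁻¹ =
        t ^ (a : ℕ) * ((x : D) : G) * (t ^ (a : ℕ))⁻¹ *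
          (t ^ (a : ℕ) * ((y : D) : G) * (t ^ (a : ℕ))⁻¹)
      group
    rw [h1, muO_mul, muO_mul, map_mul]
    ring
  by_cases hall : ∀ y : Om p D,
      muO p ν y * (starRingEnd ℂ) (muO p ν (actO p s hmem a y)) = 1
  · exact absurd (free_aux hs hD hT hsq hab' hmem ν hν hy₀ hνy hall) ha
  · rw [not_forall] at hall
    obtain ⟨y₁, hy₁⟩ := hall
    exact sum_eq_zero_of_mul
      (fun y => muO p ν y * (starRingEnd ℂ) (muO p ν (actO p s hmem a y))) hf hy₁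

include hs hN hL hl hD hab hT in
theorem gram_act [IsAlgClosed k] [IsMulCommutative D] (hτ : τ = 1 ∨ τ = -1)
    (hmem : ∀ (a : ℕ) (y : D), t ^ a * (y : G) * (t ^ a)⁻¹ ∈ D) {d : ℕ} (hd : p.Coprime d)
    (y y' : Om p D) :
    ∑ χ : Irr G, (cA p D Φ ε ψ σ m τ d ((y : D) : G) χ : ℂ) *
      (starRingEnd ℂ) (cA p D Φ ε ψ σ m τ d ((y' : D) : G) χ : ℂ) =
      ((p ^ 4 : ℕ) : ℂ) * ((univ.filter fun a => actO p s hmem a y = y').card : ℂ) := by
  have h1 := gram_cA (τ := τ) hs hN hL hl hD hab hT hτ hd (y : D).2 (Om_coe y) (y' : D).2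
    (Om_coe y')
  have h2 : (univ.filter fun a : Fin s => actO p s hmem a y = y') = univ.filter fun a : Fin s =>
      t ^ (a : ℕ) * ((y : D) : G) * (t ^ (a : ℕ))⁻¹ = ((y' : D) : G) := by
    refine Finset.filter_congr fun a _ => ?_
    constructor
    · intro h
      rw [← actO_coe hmem, h]
    · intro h
      exact Subtype.ext (Subtype.ext h)
  rw [h2]
  exact h1

include hs hN hL hD hab hsq in
theorem poly_sum [IsMulCommutative D] {N : ℕ} [NeZero N] (huN : ∀ u ∈ D, u ^ N = 1) {ζ : ℂ}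
    (hζ : IsPrimitiveRoot ζ N) (ν : AddChar (Additive D) ℂ) (χ₀ : Irr G) :
    ∃ P : ℤ[X], ∀ d : ℕ, p.Coprime d →
      ∑ y : Om p D, muO p ν y * (cA p D Φ ε ψ σ m τ d ((y : D) : G) χ₀ : ℂ) =
        aeval (ζ ^ d) P := by
  choose Q hQ using fun y : Om p D => cA_poly (τ := τ) hs hN hL hD hab hsq (NeZero.ne N) huN hζ
    (y : D).2 (Om_coe y) χ₀
  have hroot : ∀ y : Om p D, ∃ i : ℕ, ζ ^ i = muO p ν y := by
    intro y
    have h1 : (muO p ν y) ^ N = 1 := by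
      change (ν (-Additive.ofMul (y : D))) ^ N = 1
      rw [← AddChar.map_nsmul_eq_pow]
      have h2 : (y : D) ^ N = 1 := Subtype.ext (huN _ (y : D).2)
      have h3 : N • (-Additive.ofMul (y : D)) = 0 := by
        rw [smul_neg, ← ofMul_pow, h2, ofMul_one, neg_zero]
      rw [h3, AddChar.map_zero_eq_one]
    obtain ⟨i, -, h⟩ := hζ.eq_pow_of_pow_eq_one h1
    exact ⟨i, h⟩
  choose E hE using hroot
  refine ⟨∑ y : Om p D, Polynomial.X ^ (E y) * Q y, fun d hd => ?_⟩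
  have hco : (Nat.card (Om p D)).Coprime d := by
    rw [card_Om hsq]
    exact Nat.Coprime.pow_left 2 hd
  rw [← Equiv.sum_comp (powCoprime hco), map_sum]
  refine Finset.sum_congr rfl fun y _ => ?_
  rw [map_mul, map_pow, aeval_X, ← hQ y _ hd, powCoprime_apply]
  congr 1
  rw [← pow_mul, mul_comm, pow_mul, hE]
  change ν (-Additive.ofMul ((y : D) ^ d)) = (ν (-Additive.ofMul (y : D))) ^ d
  rw [ofMul_pow, ← smul_neg, AddChar.map_nsmul_eq_pow]

include hs hN hL hl hD hab hT hsq in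
/-- **the nontrivial Fourier coefficients vanish** -/
theorem four_zero [IsAlgClosed k] [IsMulCommutative D] (hτ : τ = 1 ∨ τ = -1) {m₁ : ℕ}
    (hmc : m₁.Coprime (Nat.card G))
    (hm1 : m₁ ≡ 1 [MOD ordCompl[p] (Nat.card G)])
    (hgen : ∀ i : ℕ, i ≡ 1 [MOD p] → ∃ t : ℕ, m₁ ^ t ≡ i [MOD ordProj[p] (Nat.card G)])
    {χ₀ : Irr G} (hχ : ∀ g, χ₀.1 (g ^ m₁) = χ₀.1 g)
    {N : ℕ} [NeZero N] (huN : ∀ u ∈ D, u ^ N = 1) {ζ : ℂ}
    (hζ : IsPrimitiveRoot ζ N) {m₀ : ℕ} (hm₀ : m₀.Coprime N)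
    (hgen₀ : ∀ j : ℕ, j.Coprime N → ∃ i : ℕ, m₀ ^ i ≡ j [MOD N])
    (hcop : ∀ δ : (ZMod N)ˣ, p.Coprime (δ : ZMod N).val)
    (hK : ∀ d : ℕ, p.Coprime d → ∀ (Y : Subgroup D), Nat.card Y = p → (∀ y ∈ Y, y ^ p = 1) →
      (∀ y ∈ Y, y ≠ 1 → (y : G) ∉ zpowers w) → ∀ ν : AddChar (Additive D) ℂ,
      (∃ y ∈ Y, lamA ν (Additive.ofMul y) ≠ 1) →
      ∑ y : Y, lamA ν (-Additive.ofMul (y : D)) *
        Cv p D Φ ε ψ σ m 2 τ (⟨w, hs.w_mem⟩ ^ d) y χ₀ ∈ QN p red 2)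
    (ν : AddChar (Additive D) ℂ) (hν : ν (Additive.ofMul (⟨w, hs.w_mem⟩ ^ p)) = 1)
    {y₀ : D} (hy₀ : y₀ ^ p = 1) (hνy : ν (Additive.ofMul y₀) ≠ 1) (δ : (ZMod N)ˣ) :
    ∑ y : Om p D, muO p ν y * (cA p D Φ ε ψ σ m τ (δ : ZMod N).val ((y : D) : G) χ₀ : ℂ) =
      0 := by
  have hab' : ∀ a ∈ D, ∀ b ∈ D, a * b = b * a := fun a ha b hb =>
    (mem_centralizer_iff.1 (hab hb) a ha)
  have hTN : stabT D l ≤ normalizer (D : Set G) := stabT_le_norm D l
  have hmem : ∀ (a : ℕ) (y : D), t ^ a * (y : G) * (t ^ a)⁻¹ ∈ D := fun a y =>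
    (mem_normalizer_iff.1 (hTN (hs.t_pow_mem a)) y).1 y.2
  let c : (ZMod N)ˣ → Om p D → Irr G → ℂ := fun δ y χ =>
    (cA p D Φ ε ψ σ m τ (δ : ZMod N).val ((y : D) : G) χ : ℂ)
  let a₀ : Fin s := ⟨0, by have := hs.two_le; omega⟩
  have ha₀ : ∀ y, actO p s hmem a₀ y = y := by
    intro y
    apply Subtype.ext
    apply Subtype.ext
    change t ^ 0 * ((y : D) : G) * (t ^ 0)⁻¹ = _
    rw [pow_zero]
    group
  let x : (ZMod N)ˣ → AA := fun δ => ∑ y : Om p D, lamA ν (-Additive.ofMul (y : D)) *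
      cA p D Φ ε ψ σ m τ (δ : ZMod N).val ((y : D) : G) χ₀
  have hx : ∀ δ, (x δ : ℂ) = ∑ y, muO p ν y * c δ y χ₀ := by
    intro δ
    change ((∑ y : Om p D, lamA ν (-Additive.ofMul (y : D)) *
      cA p D Φ ε ψ σ m τ (δ : ZMod N).val ((y : D) : G) χ₀ : AA) : ℂ) = _
    push_cast
    rfl
  obtain ⟨P, hP⟩ := poly_sum (τ := τ) hs hN hL hD hab hsq huN hζ ν χ₀
  have hle : p ^ 4 * Fintype.card (Om p D) ≤ p ^ (2 * 3) := by
    rw [← Nat.card_eq_fintype_card, card_Om hsq, ← pow_add]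
  have key := lemA (k := k) (red := red) (Y := Om p D) (A := Fin s) (ι := Irr G) hζ hm₀ hgen₀ c
    (p ^ 4) (pow_pos hp.out.pos 4) (actO p s hmem) a₀ ha₀
    (fun δ y y' => (gram_act (τ := τ) hs hN hL hl hD hab hT hτ hmem (hcop δ) y y').trans
      (by congr!))
    (muO p ν) (muO_norm ν)
    (fun a ha => free_sum hs hD hT hsq hab' hmem ν hν hy₀ hνy fun h => ha (Fin.ext h))
    (fun χ : Irr G => χ.1 1) χ₀
    (fun δ y => reg_cA (τ := τ) hs hN hL hD hab (hcop δ) (y : D).2 (Om_coe y))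
    χ₀.one_ne_zero P x hx (fun δ => (hx δ).trans (hP _ (hcop δ))) (J := 3)
    (fun δ => qn3 (τ := τ) hs hN hL hD hab hsq hmc hm1 hgen hχ (hcop δ) (hK _ (hcop δ)) ν hν hy₀
      hνy) hle δ
  rw [hx] at key
  exact key

end Cols

end P179H443
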