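import Vale.Agent.P179.R2.H443.Asm4
import Vale.Agent.P179.R2.H452.X1

/-!
# The bound for the number of rational characters
-/

namespace P179H443

open Finset P179P P179C P179Y Subgroup P179H524 P179I P179A P179H452 P179H666 Polynomial

open scoped Classical IsMulCommutative

universe v

set_option linter.unusedSectionVars false

section Cols

variable {p : ℕ} [hp : Fact p.Prime] {k : Type v} [Field k] [CharP k p] {red : AA →+* k}
  {G : Type} [Group G] [Fintype G] {D : Subgroup G} {l : (G → k) → k}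
  {Φ : ∀ H : Subgroup G, Irr H} {aH bH : Subgroup G → ℕ} {ε : Subgroup G → ℤ} {κ₀ : k}
  {s : ℕ} {w t : G} {ψ : Fin s → Irr (centralizer {w} : Subgroup G)} {σ : Fin s → ℤ} {m : ℕ}
  {τ : ℤ}

variable (hs : SqData p D (stabT D l) w t s) (hN : NDat p red D l (centralizer {w}) ψ σ m 2 2)
  (hL : LocR p red D l Φ aH bH ε κ₀) (hl : BP p D l) (hD : IsPGroup p D)
  (hab : D ≤ centralizer (D : Set G))
  (hT : ¬ p ∣ (centralizer (D : Set G)).relIndex (stabT D l)) (hsq : HomSq p D)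

include hs hN hL hl hD hab hT hsq in
/-- **the columns are constant on the coset** -/
theorem cA_const [IsAlgClosed k] [IsMulCommutative D] (hτ : τ = 1 ∨ τ = -1) {m₁ : ℕ}
    (hmc : m₁.Coprime (Nat.card G))
    (hm1 : m₁ ≡ 1 [MOD ordCompl[p] (Nat.card G)])
    (hgen : ∀ i : ℕ, i ≡ 1 [MOD p] → ∃ t : ℕ, m₁ ^ t ≡ i [MOD ordProj[p] (Nat.card G)])
    {χ₀ : Irr G} (hχ : ∀ g, χ₀.1 (g ^ m₁) = χ₀.1 g)
    {N : ℕ} [NeZero N] (huN : ∀ u ∈ D, u ^ N = 1) {ζ : ℂ}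
    (hζ : IsPrimitiveRoot ζ N) {m₀ : ℕ} (hm₀ : m₀.Coprime N)
    (hgen₀ : ∀ j : ℕ, j.Coprime N → ∃ i : ℕ, m₀ ^ i ≡ j [MOD N])
    (hcop : ∀ δ : (ZMod N)ˣ, p.Coprime (δ : ZMod N).val)
    (hK : ∀ d : ℕ, p.Coprime d → ∀ (Y : Subgroup D), Nat.card Y = p → (∀ y ∈ Y, y ^ p = 1) →
      (∀ y ∈ Y, y ≠ 1 → (y : G) ∉ zpowers w) → ∀ ν : AddChar (Additive D) ℂ,
      (∃ y ∈ Y, lamA ν (Additive.ofMul y) ≠ 1) →
      ∑ y : Y, lamA ν (-Additive.ofMul (y : D)) *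
        Cv p D Φ ε ψ σ m 2 τ (⟨w, hs.w_mem⟩ ^ d) y χ₀ ∈ QN p red 2)
    (δ : (ZMod N)ˣ) (y y' : Om p D) :
    (cA p D Φ ε ψ σ m τ (δ : ZMod N).val ((y : D) : G) χ₀ : ℂ) =
      (cA p D Φ ε ψ σ m τ (δ : ZMod N).val ((y' : D) : G) χ₀ : ℂ) := by
  refine const_of_fourier' (A := Additive D) (fun y : Om p D => -Additive.ofMul (y : D)) ?_
    (fun y : Om p D => (cA p D Φ ε ψ σ m τ (δ : ZMod N).val ((y : D) : G) χ₀ : ℂ)) ?_ y y'
  · intro y y' h
    exact Subtype.ext (Additive.ofMul.injective (neg_injective h))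
  · intro ν
    by_cases hall : ∀ y : Om p D, ν (-Additive.ofMul (y : D)) = 1
    · exact Or.inl hall
    right
    rw [not_forall] at hall
    obtain ⟨y₀, hy₀⟩ := hall
    have hy₀' : ν (Additive.ofMul (y₀ : D)) ≠ 1 := by
      intro h
      apply hy₀
      rw [AddChar.map_neg_eq_inv, h, inv_one]
    by_cases hν : ν (Additive.ofMul (⟨w, hs.w_mem⟩ ^ p)) = 1
    · exact four_zero (τ := τ) hs hN hL hl hD hab hT hsq hτ hmc hm1 hgen hχ huN hζ hm₀ hgen₀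
        hcop hK ν hν y₀.2 hy₀' δ
    · let z : Om p D := ⟨⟨w, hs.w_mem⟩ ^ p, Subtype.ext hs.wpp⟩
      have h1 : ∑ y : Om p D, muO p ν y *
          (cA p D Φ ε ψ σ m τ (δ : ZMod N).val ((y : D) : G) χ₀ : ℂ) =
          muO p ν z * ∑ y : Om p D, muO p ν y *
          (cA p D Φ ε ψ σ m τ (δ : ZMod N).val ((y : D) : G) χ₀ : ℂ) := by
        rw [mul_sum]
        conv_lhs => rw [← Equiv.sum_comp (Equiv.mulLeft z)]
        refine Finset.sum_congr rfl fun y _ => ?_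
        have h2 : (((Equiv.mulLeft z y : Om p D) : D) : G) = w ^ p * ((y : D) : G) := rfl
        rw [h2, (trans_cA (τ := τ) hs hN hL hD hab hmc hm1 hgen hχ (hcop δ) (y : D).2
          (Om_coe y)).1, ← mul_assoc]
        congr 1
        exact muO_mul ν z y
      have h2 : (muO p ν z - 1) * ∑ y : Om p D, muO p ν y *
          (cA p D Φ ε ψ σ m τ (δ : ZMod N).val ((y : D) : G) χ₀ : ℂ) = 0 := by
        rw [sub_mul, ← h1, one_mul, sub_self]
      refine (mul_eq_zero.1 h2).resolve_left (sub_ne_zero.2 ?_)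
      intro h
      apply hν
      change ν (-Additive.ofMul (⟨w, hs.w_mem⟩ ^ p : D)) = 1 at h
      rw [AddChar.map_neg_eq_inv, inv_eq_one] at h
      exact h

include hs hN hL hD hab in
/-- the numbers at the powers `w ^ (d + p i)` for the rational characters -/
theorem XA_shift {m₁ : ℕ} (hmc : m₁.Coprime (Nat.card G))
    (hm1 : m₁ ≡ 1 [MOD ordCompl[p] (Nat.card G)])
    (hgen : ∀ i : ℕ, i ≡ 1 [MOD p] → ∃ t : ℕ, m₁ ^ t ≡ i [MOD ordProj[p] (Nat.card G)])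
    {χ : Irr G} (hχ : ∀ g, χ.1 (g ^ m₁) = χ.1 g) {d : ℕ} (hd : p.Coprime d) (r : Fin s) (i : ℕ) :
    XA p ψ σ m 2 r (w ^ (d + p * i)) χ = XA p ψ σ m 2 r (w ^ d) χ := by
  induction i with
  | zero => rw [mul_zero, add_zero]
  | succ i ih =>
    have hy : (w ^ (p * i)) ^ p = 1 := by
      rw [← pow_mul, mul_comm (p * i) p, ← mul_assoc, ← pow_two, pow_mul, ← hs.order_w,
        pow_orderOf_eq_one, one_pow]
    have h1 := (trans_cA (τ := 1) hs hN hL hD hab hmc hm1 hgen hχ hd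
      (pow_mem hs.w_mem (p * i)) hy).2 r (pow_mem (mem_zpowers w) _)
    rw [← pow_add, ← pow_add, ← pow_add] at h1
    have e : d + p * (i + 1) = d + (p + p * i) := by ring
    rw [e, h1, ih]

include hs hN hl hD hab hT in
/-- the Gram matrix of the numbers at the powers `w ^ (d + p i)` -/
theorem XA_gram [IsAlgClosed k] {d : ℕ} (hd : p.Coprime d) (i j : Fin p) (r r' : Fin s) :
    ∑ χ : Irr G, (XA p ψ σ m 2 r (w ^ (d + p * (i : ℕ))) χ : ℂ) *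
      (starRingEnd ℂ) (XA p ψ σ m 2 r' (w ^ (d + p * (j : ℕ))) χ : ℂ) =
      if i = j then (p : ℂ) ^ 2 * ((if r = r' then 1 else 0) + m) else 0 := by
  have hab' : ∀ a ∈ D, ∀ b ∈ D, a * b = b * a := fun a ha b hb =>
    (mem_centralizer_iff.1 (hab hb) a ha)
  have hcz : ∀ i : ℕ, ∀ x, x ∈ (centralizer {w} : Subgroup G) ↔
      x * w ^ (d + p * i) = w ^ (d + p * i) * x := fun i =>
    hs.cz (by rwa [Nat.coprime_add_mul_left_right])
  by_cases hij : i = j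
  · subst hij
    rw [if_pos rfl]
    exact A1 hN (P179H854.exists_pow_of_mem hD (pow_mem hs.w_mem _)) (hcz i) r r'
  · rw [if_neg hij]
    refine A2 hN hl hD hab hT (pow_mem hs.w_mem _) (pow_mem hs.w_mem _) (hcz i) (hcz j) ?_ r r'
    rintro ⟨n, hn, e⟩
    apply hij
    have hy : ∀ i : ℕ, (w ^ (p * i)) ^ p = 1 := by
      intro i
      rw [← pow_mul, mul_comm (p * i) p, ← mul_assoc, ← pow_two, pow_mul, ← hs.order_w,
        pow_orderOf_eq_one, one_pow]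
    rw [pow_add, pow_add] at e
    obtain ⟨h1, h2⟩ := hs.fuse hab' hd (pow_mem hs.w_mem (p * (i : ℕ))) (hy i)
      (pow_mem hs.w_mem (p * (j : ℕ))) (hy j) hn e
    rw [← conj_pow, h1, pow_mul, pow_mul, pow_inj_mod, hs.order_wp,
      Nat.mod_eq_of_lt i.2, Nat.mod_eq_of_lt j.2] at h2
    exact Fin.ext h2

end Cols

section Main

variable {p : ℕ} [hp : Fact p.Prime] {k : Type v} [Field k] [CharP k p] {red : AA →+* k}
  {G : Type} [Group G] [Fintype G] {D : Subgroup G} {l : (G → k) → k}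
  {Φ : ∀ H : Subgroup G, Irr H} {aH bH : Subgroup G → ℕ} {ε : Subgroup G → ℤ} {κ₀ : k}
  {s : ℕ} {w t : G} {ψ : Fin s → Irr (centralizer {w} : Subgroup G)} {σ : Fin s → ℤ} {m : ℕ}

/-- **the bound for the number of rational characters** -/
theorem card_X1_le [IsAlgClosed k] (hs : SqData p D (stabT D l) w t s)
    (hN : NDat p red D l (centralizer {w}) ψ σ m 2 2)
    (hL : LocR p red D l Φ aH bH ε κ₀) (hl : BP p D l) (hD : IsPGroup p D)
    (hab : D ≤ centralizer (D : Set G)) (hp2 : p ≠ 2)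
    (hT : ¬ p ∣ (centralizer (D : Set G)).relIndex (stabT D l)) (hsq : HomSq p D) {m₁ : ℕ}
    (hmc : m₁.Coprime (Nat.card G))
    (hm1 : m₁ ≡ 1 [MOD ordCompl[p] (Nat.card G)])
    (hgen : ∀ i : ℕ, i ≡ 1 [MOD p] → ∃ t : ℕ, m₁ ^ t ≡ i [MOD ordProj[p] (Nat.card G)]) :
    (X1 red l m₁).card ≤ p ^ 2 := by
  have hcomm : IsMulCommutative D := ⟨⟨fun a b => Subtype.ext
    (mem_centralizer_iff.1 (hab b.2) a a.2)⟩⟩
  have hab' : ∀ a ∈ D, ∀ b ∈ D, a * b = b * a := fun a ha b hb =>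
    (mem_centralizer_iff.1 (hab hb) a ha)
  have hTN : stabT D l ≤ normalizer (D : Set G) := stabT_le_norm D l
  have hmem : ∀ (a : ℕ) (y : D), t ^ a * (y : G) * (t ^ a)⁻¹ ∈ D := fun a y =>
    (mem_normalizer_iff.1 (hTN (hs.t_pow_mem a)) y).1 y.2
  have he : ((centralizer (D : Set G)).relIndex (stabT D l) : k) ≠ 0 := by
    rwa [Ne, CharP.cast_eq_zero_iff k p]
  obtain ⟨τ, hτ, hK2⟩ := k2_aux hL hl hD hab hp2 hT hmc hm1 hgen hN hs.idx (by norm_num) 1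
  have hK : ∀ χ₀ : Irr G, (∀ g, χ₀.1 (g ^ m₁) = χ₀.1 g) → ∀ d : ℕ, p.Coprime d →
      ∀ (Y : Subgroup D), Nat.card Y = p → (∀ y ∈ Y, y ^ p = 1) →
      (∀ y ∈ Y, y ≠ 1 → (y : G) ∉ zpowers w) → ∀ ν : AddChar (Additive D) ℂ,
      (∃ y ∈ Y, lamA ν (Additive.ofMul y) ≠ 1) →
      ∑ y : Y, lamA ν (-Additive.ofMul (y : D)) *
        Cv p D Φ ε ψ σ m 2 τ (⟨w, hs.w_mem⟩ ^ d) y χ₀ ∈ QN p red 2 := by
    intro χ₀ hχ d hd Y hY hYp hYw ν hν
    have a1 : ∀ y ∈ Y, ∃ d : D, d ^ p ^ 1 = y := by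
      intro y hy
      obtain ⟨x, hx, e⟩ := hsq.2.1 y y.2 (congrArg Subtype.val (hYp y hy))
      exact ⟨⟨x, hx⟩, Subtype.ext (by rw [pow_one]; exact e)⟩
    have a2 : ∀ y ∈ Y, y ≠ 1 → RegT D l (((⟨w, hs.w_mem⟩ : D) ^ d * y : D) : G) ∧
        (((⟨w, hs.w_mem⟩ : D) ^ d * y : D) : G) ≠ 1 := fun y hy hy1 =>
      hs.regT hab hd y.2 (congrArg Subtype.val (hYp y hy)) (hYw y hy hy1)
    have a3 := hK2 χ₀ hχ ((⟨w, hs.w_mem⟩ : D) ^ d) (hs.cz hd) Y 1 (by rw [pow_one, hY]) a1 hYp a2 ν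
    exact a3.2 le_rfl hν
  -- roots of unity
  obtain ⟨N, hN'⟩ : ∃ N, N = ordProj[p] (Nat.card G) := ⟨_, rfl⟩
  have hN0 : N ≠ 0 := by rw [hN']; exact pow_ne_zero _ hp.out.ne_zero
  have hNe : NeZero N := ⟨hN0⟩
  have huN : ∀ u ∈ D, u ^ N = 1 := fun u hu => by rw [hN']; exact pow_ordProj_eq_one hD hu
  obtain ⟨ζ, hζ⟩ : ∃ ζ : ℂ, IsPrimitiveRoot ζ N := ⟨_, Complex.isPrimitiveRoot_exp N hN0⟩
  obtain ⟨m₀, hm₀, -, hgen₀⟩ := P179P.exists_exponent (p := p) hp2 (Nat.card G) Nat.card_pos.ne'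
  have hm₀N : m₀.Coprime N := by
    rw [hN']
    exact Nat.Coprime.coprime_dvd_right (Nat.ordProj_dvd _ _) hm₀
  have hpN : p ∣ N := by
    have h1 : orderOf w ∣ N := orderOf_dvd_of_pow_eq_one (huN w hs.w_mem)
    rw [hs.order_w] at h1
    exact (dvd_pow_self p (by norm_num)).trans h1
  have hgen₀' : ∀ j : ℕ, j.Coprime N → ∃ i : ℕ, m₀ ^ i ≡ j [MOD N] := by
    intro j hj
    rw [hN']
    apply hgen₀
    intro hpj
    have h1 : p ∣ Nat.gcd j N := Nat.dvd_gcd hpj hpN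
    rw [hj] at h1
    exact hp.out.one_lt.ne' (Nat.dvd_one.1 h1)
  have hcop : ∀ δ : (ZMod N)ˣ, p.Coprime (δ : ZMod N).val := fun δ =>
    (Nat.Coprime.coprime_dvd_right hpN (ZMod.val_coe_unit_coprime δ)).symm
  -- constant columns
  have hconst : ∀ χ ∈ X1 red l m₁, ∀ (δ : (ZMod N)ˣ) (y : Om p D),
      (cA p D Φ ε ψ σ m τ (δ : ZMod N).val ((y : D) : G) χ : ℂ) =
        (τ : ℂ) * ∑ r, (XA p ψ σ m 2 r (w ^ (δ : ZMod N).val) χ : ℂ) := by
    intro χ hχ δ y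
    have h1 := cA_const (τ := τ) hs hN hL hl hD hab hT hsq hτ hmc hm1 hgen ((mem_X1 red).1 hχ).2
      huN hζ hm₀N hgen₀' hcop (hK χ ((mem_X1 red).1 hχ).2) δ y 1
    have h3 : (((1 : Om p D) : D) : G) ∈ zpowers w := one_mem _
    rw [h1, cA_in h3]
    congr 1
    refine Finset.sum_congr rfl fun r _ => ?_
    have h2 : w ^ (δ : ZMod N).val * (((1 : Om p D) : D) : G) = w ^ (δ : ZMod N).val := mul_one _
    rw [h2]
  have hne : ∀ χ ∈ X1 red l m₁, ∀ (δ : (ZMod N)ˣ),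
      ∑ r, (XA p ψ σ m 2 r (w ^ (δ : ZMod N).val) χ : ℂ) ≠ 0 := by
    intro χ hχ δ h0
    obtain ⟨y, hy, hyp, hyw⟩ := hs.exists_y hab' hsq
    have h1 := hconst χ hχ δ ⟨⟨y, hy⟩, Subtype.ext hyp⟩
    rw [h0, mul_zero] at h1
    have h2 : (cA p D Φ ε ψ σ m τ (δ : ZMod N).val y χ : ℂ) = 0 := h1
    rw [cA_out hyw] at h2
    obtain ⟨hr, hr1⟩ := hs.regT hab (hcop δ) hy hyp hyw
    exact hL.Ad_ne_zero hl hD hab he hr hr1 χ ((mem_X1 red).1 hχ).1 (Subtype.ext h2)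
  have hs1 : s + 1 ≤ p := by
    have h1 := Nat.le_of_dvd (Nat.sub_pos_of_lt hp.out.one_lt) hs.dvd
    have := hp.out.one_lt
    omega
  refine P179H46.card_le22 hζ hm₀N hgen₀' (by have := hs.two_le; omega) hs1 (X1 red l m₁)
    (fun δ r χ => (XA p ψ σ m 2 r (w ^ (δ : ZMod N).val) χ : ℂ)) ?_ ?_ ?_
  · intro χ _ r
    obtain ⟨Q, hQ⟩ := hN.poly (huN w hs.w_mem) hN0 (fun x => mem_cz w x) hζ r χ
    refine ⟨Q, fun δ => ?_⟩
    rw [← hQ]
    exact hN.XA_coe (hs.cz (hcop δ)) r χ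
  · intro χ hχ
    exact ⟨1, hne χ hχ 1⟩
  · intro δ
    have h1 := P179H46.bes22 (ι := Irr G) (Y := Om p D) (A := Fin s) (I := Fin p) (m := m)
      (X1 red l m₁) hp.out.pos
      (fun y χ => (cA p D Φ ε ψ σ m τ (δ : ZMod N).val ((y : D) : G) χ : ℂ))
      (actO p s hmem) (by rw [← Nat.card_eq_fintype_card, card_Om hsq]) (Fintype.card_fin s)
      (Fintype.card_fin p)
      (fun y y' => (gram_act (τ := τ) hs hN hL hl hD hab hT hτ hmem (hcop δ) y y').trans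
        (by push_cast; congr!))
      (fun i r χ => (XA p ψ σ m 2 r (w ^ ((δ : ZMod N).val + p * (i : ℕ))) χ : ℂ))
      (fun i j r r' => (XA_gram hs hN hl hD hab hT (hcop δ) i j r r').trans (by congr!))
      ⟨0, hp.out.pos⟩
      (τ := (τ : ℂ)) (by rcases hτ with h | h <;> rw [h] <;> norm_num)
      (fun χ hχ i r => by
        rw [XA_shift hs hN hL hD hab hmc hm1 hgen ((mem_X1 red).1 hχ).2 (hcop δ) r i]
        rfl)
      (fun χ hχ y => hconst χ hχ δ y)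
    exact h1

end Main

end P179H443
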