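import Vale.Agent.P179.R2.H443.Defs

/-!
# Eigenfunctions of a central element
-/

namespace P179H443

open Subgroup P179A P179C P179H524 P179R RegularWreathProduct MonoidAlgebra Finset

open P179C.C2 (Om cls phi)

universe u

section Eig

variable (p : ℕ) [hp : Fact p.Prime] {k : Type u} [Field k] [IsAlgClosed k] [CharP k p]
  {G : Type} [Group G] [Fintype G]

open scoped Classical in
/-- a basis of eigenfunctions of a central element -/
theorem exists_eig (z : MonoidAlgebra k G) (hz : z ∈ Subalgebra.center k (MonoidAlgebra k G)) :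
    ∃ (r : ℕ) (v : Module.Basis (Fin r) k (Om p G → k)) (l : Fin r → k),
      (univ.filter (fun i => l i = 1)).card = numSimpleIn z ∧
      (ZO z → ∀ i, l i = 0 ∨ l i = 1) ∧
      ∀ (i : Fin r) (y : G),
        ∑ g : G, z.coeff g * v i (cls p (g * y)) = l i * v i (cls p y) := by
  obtain ⟨r, d, hd, f, hf, hker⟩ := exists_wedderburn k G
  obtain ⟨l, hl⟩ := C2.exists_scalar f hf z hz
  let e := LinearEquiv.ofBijective (phi p f) (C2.phi_bijective p f hf hker)
  refine ⟨r, (Pi.basisFun k (Fin r)).map e, l, ?_, ?_, ?_⟩
  · rw [C2.numSimpleIn_eq_card f hf hker z l hl, Nat.card_eq_fintype_card, Fintype.card_subtype]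
  · intro h i
    rcases h (compIrr f hf i) with h1 | h1
    · left
      change (compRep f i).asAlgebraHom z = 0 at h1
      rw [compRep_asAlgebraHom, hl] at h1
      have h2 : (0 : Module.End k (Fin (d i) → k)) =
          Matrix.toLin' (Matrix.scalar (Fin (d i)) 0) := by
        rw [map_zero, map_zero]
      rw [h2] at h1
      exact C2.scalar_inj _ _ (Matrix.toLin'.injective h1)
    · right
      exact (C2.inBlock_iff f hf z l hl i).1 h1
  · intro i y
    rw [Module.Basis.map_apply, Pi.basisFun_apply]
    have he : e (Pi.single i 1) = phi p f (Pi.single i 1) := rfl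
    have h1 : ∀ g : G, (phi p f (Pi.single i (1 : k))) (cls p g) = trFun f (Pi.single i 1) g := by
      intro g
      rw [cls, C2.phi_mk]
      exact C2.trFun_pr p f _ _
    rw [he, h1]
    simp only [h1]
    rw [C2.sum_coeff_mul_trFun]
    have h2 : ∀ j, (Pi.single i (1 : k) : Fin r → k) j * (f z j * f (single y 1) j).trace =
        l i * ((Pi.single i (1 : k) : Fin r → k) j * (f (single y 1) j).trace) := by
      intro j
      rw [hl, Matrix.scalar_apply, ← Matrix.smul_eq_diagonal_mul, Matrix.trace_smul, smul_eq_mul]
      by_cases hj : j = i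
      · subst hj; ring
      · rw [Pi.single_eq_of_ne hj]; ring
    rw [Finset.sum_congr rfl fun j _ => h2 j, ← Finset.mul_sum]
    rfl

/-- the number of simple modules on which `z` acts as the identity, as a dimension -/
theorem finrank_VB' (z : MonoidAlgebra k G)
    (hz : z ∈ Subalgebra.center k (MonoidAlgebra k G)) :
    Module.finrank k (VB p z) = numSimpleIn z := by
  classical
  obtain ⟨r, v, l, hI, -, hv⟩ := exists_eig p z hz
  rw [← hI]
  set I := univ.filter (fun i => l i = 1) with hIdef
  have hmI : ∀ i, i ∈ I ↔ l i = 1 := fun i => by rw [hIdef, mem_filter]; simp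
  -- the basis of `VB`
  have hmem : ∀ i : I, v i ∈ VB p z := by
    intro i y _
    rw [hv, (hmI _).1 i.2, one_mul]
  have hli : LinearIndependent k (fun i : I => (⟨v i, hmem i⟩ : VB p z)) := by
    have h1 : LinearIndependent k (fun i : I => v i) := v.linearIndependent.comp _
      Subtype.val_injective
    exact LinearIndependent.of_comp (VB p z).subtype h1
  have hsp : ⊤ ≤ Submodule.span k (Set.range (fun i : I => (⟨v i, hmem i⟩ : VB p z))) := by
    rintro ⟨ψ, hψ⟩ -
    have h1 : ψ = ∑ i, v.repr ψ i • v i := (v.sum_repr ψ).symm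
    have h2 : ∑ i, (v.repr ψ i * l i) • v i = ∑ i, v.repr ψ i • v i := by
      rw [← h1]
      funext ω
      obtain ⟨y, hy, rfl⟩ := cls_surj p ω
      have h3 := hψ y hy
      rw [← h3]
      conv_rhs => rw [h1]
      simp only [Finset.sum_apply, Pi.smul_apply, smul_eq_mul, Finset.mul_sum]
      rw [Finset.sum_comm]
      refine Finset.sum_congr rfl fun i _ => ?_
      have h4 := hv i y
      have h5 : ∑ g : G, z.coeff g * (v.repr ψ i * v i (cls p (g * y))) =
          v.repr ψ i * ∑ g : G, z.coeff g * v i (cls p (g * y)) := by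
        rw [Finset.mul_sum]
        exact Finset.sum_congr rfl fun g _ => by ring
      rw [h5, h4]
      ring
    have h3 : ∀ i, i ∉ I → v.repr ψ i = 0 := by
      intro i hi
      have h4 := congrArg (fun x => v.repr x i) h2
      simp only [map_sum, map_smul, Module.Basis.repr_self, Finsupp.coe_finsetSum,
        Finset.sum_apply, Finsupp.coe_smul, Pi.smul_apply, smul_eq_mul] at h4
      simp only [Finsupp.single_apply, mul_ite, mul_one, mul_zero, Finset.sum_ite_eq',
        Finset.mem_univ, if_true] at h4
      by_contra hne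
      exact hi ((hmI i).2 (mul_left_cancel₀ hne (by rw [h4, mul_one])))
    have h4 : (⟨ψ, hψ⟩ : VB p z) = ∑ i : I, v.repr ψ i • (⟨v i, hmem i⟩ : VB p z) := by
      apply Subtype.ext
      push_cast
      conv_lhs => rw [h1]
      rw [← Finset.sum_subset (Finset.subset_univ I) (fun i _ hi => by rw [h3 i hi, zero_smul])]
      exact (Finset.sum_coe_sort I (fun i => v.repr ψ i • v i)).symm
    rw [h4]
    exact Submodule.sum_mem _ fun i _ => Submodule.smul_mem _ _ (Submodule.subset_span ⟨i, rfl⟩)
  rw [Module.finrank_eq_card_basis (Module.Basis.mk hli hsp), Fintype.card_coe]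

end Eig

end P179H443
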