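import Vale.Agent.P179.H905.K4
import Vale.Agent.P179.H526.Z18

/-!
# Blocks with abelian defect group and trivial inertial quotient have one simple module
-/

namespace P179H443

open P179H524 P179C P179A Finset P179P Subgroup P179Y P179I

open P179X (pp SameSec IrrB Srat autOrd)

open P179B (inertialGroup inertialIndex regularElements)

open scoped Classical

universe u

section

variable {p : ℕ} [hp : Fact p.Prime] {k : Type u} [Field k] [IsAlgClosed k] [CharP k p]
  {G : Type} [Group G] [Fintype G]

omit [Fintype G] in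
theorem le_cent {D : Subgroup G} (hab : ∀ a ∈ D, ∀ b ∈ D, a * b = b * a) :
    D ≤ centralizer (D : Set G) := by
  intro x hx
  rw [mem_centralizer_iff]
  intro y hy
  exact hab y hy x hx

/-- the version with Brauer pairs -/
theorem numSimpleIn_eq_one_of_BP {D : Subgroup G} {l : (G → k) → k} (hl : BP p D l)
    (hDp : IsPGroup p D) (hab : D ≤ centralizer (D : Set G))
    (hT : stabT D l ≤ centralizer (D : Set G)) {B : MonoidAlgebra k G} (hB : IsBlock B)
    (hlz : ∀ z : G → k, IsCF z → l z = centralChar B (mkF z)) : numSimpleIn B = 1 := by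
  obtain ⟨red⟩ := P179C.exists_red p k
  obtain ⟨φ, hφ⟩ := thmNT p red G D l hl hDp hab hT
  have h1 := numSimple_le_one hφ hB (inL_iff red hB hlz)
  have h2 := P179C.numSimpleIn_pos B hB
  omega

include p hp in
/-- **F4**: a block with abelian defect group and trivial inertial quotient has one simple
module -/
theorem numSimpleIn_eq_one {B : MonoidAlgebra k G} (hB : IsBlock B) {D : Subgroup G}
    (hD : IsDefectGroup B D) (hab : ∀ a ∈ D, ∀ b ∈ D, a * b = b * a)
    {β : MonoidAlgebra k (centralizer (D : Set G))} (hβ : IsBlock β) (hβB : InducesTo β B)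
    (hT : inertialGroup D β ≤ centralizer (D : Set G)) : numSimpleIn B = 1 := by
  obtain ⟨hDp, -⟩ := exists_BP_of_block (p := p) B hB D hD
  obtain ⟨l, hl, hlz, hlb⟩ := exists_BP_of_subblock (p := p) hB hD hab hβ hβB
  exact numSimpleIn_eq_one_of_BP hl hDp (le_cent hab)
    ((stabT_eq_inertialGroup hβ hlb).le.trans hT) hB hlz

/-- the root block, in terms of Brauer pairs -/
theorem numSimpleIn_root_of_BP {D : Subgroup G} {l : (G → k) → k} (hl : BP p D l)
    (hDp : IsPGroup p D) (hab : D ≤ centralizer (D : Set G))
    {β : MonoidAlgebra k (centralizer (D : Set G))} (hβ : IsBlock β)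
    (hlb : ∀ z : G → k, InvOn (centralizer (D : Set G)) z →
      l z = centralChar β (mkF (fun h : centralizer (D : Set G) => z h))) :
    numSimpleIn β = 1 := by
  set H : Subgroup G := centralizer (D : Set G) with hH
  have hl' : BP p (D.subgroupOf H) (lres H l) := hl.restrict hab le_rfl
  have htop : ∀ x : H, x ∈ centralizer ((D.subgroupOf H : Subgroup H) : Set H) := by
    intro x
    rw [mem_centralizer_iff]
    intro y hy
    exact Subtype.ext (mem_centralizer_iff.1 x.2 y hy)
  have hext : ∀ a : H → k, IsCF a → InvOn H (ext H a) := by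
    intro a ha
    constructor
    · intro c hc x
      by_cases hx : x ∈ H
      · rw [ext_of_mem _ _ hx, ext_of_mem _ _ (mul_mem (mul_mem hc hx) (inv_mem hc))]
        exact ha ⟨c, hc⟩ ⟨x, hx⟩
      · rw [ext_of_not_mem _ _ hx, ext_of_not_mem]
        intro h
        apply hx
        have := mul_mem (mul_mem (inv_mem hc) h) hc
        have e1 : c⁻¹ * (c * x * c⁻¹) * c = x := by group
        rwa [e1] at this
    · intro x hx
      exact ext_of_not_mem _ _ hx
  refine numSimpleIn_eq_one_of_BP hl' hDp.comap_subtype (fun x _ => htop x)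
    (fun x _ => htop x) hβ fun z hz => ?_
  change l (ext H z) = _
  rw [hlb _ (hext z hz)]
  congr 2
  funext h
  exact ext_coe _ _ _

include p hp in
/-- **F4**, the root block -/
theorem numSimpleIn_root {B : MonoidAlgebra k G} (hB : IsBlock B) {D : Subgroup G}
    (hD : IsDefectGroup B D) (hab : ∀ a ∈ D, ∀ b ∈ D, a * b = b * a)
    {β : MonoidAlgebra k (centralizer (D : Set G))} (hβ : IsBlock β) (hβB : InducesTo β B) :
    numSimpleIn β = 1 := by
  obtain ⟨hDp, -⟩ := exists_BP_of_block (p := p) B hB D hD
  obtain ⟨l, hl, hlz, hlb⟩ := exists_BP_of_subblock (p := p) hB hD hab hβ hβB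
  exact numSimpleIn_root_of_BP hl hDp (le_cent hab) hβ hlb

end

end P179H443
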