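import Vale.Agent.P179.R2.H12.Half
import Vale.Agent.P179.R2.H450.W1
import Vale.Agent.P179.R2.H443.Surj

/-!
# The number of weights of a block with abelian defect group, in terms of the inertial group
-/

namespace P179H443

open Subgroup Finset P179H524 P179C P179A P179P P179Y P179H872 P179H12

open P179B (inertialGroup)

open scoped Classical

universe u

section FR

variable {p : ℕ} [hp : Fact p.Prime] {k : Type u} [Field k] [IsAlgClosed k] [CharP k p]
  {G : Type} [Group G] [Fintype G] {H : Subgroup G} {l : (G → k) → k}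

include hp in
/-- the Fong-Reynolds correspondence for the block covering the block `b` of the normal
subgroup `H` -/
theorem numSimple_fr [hHn : H.Normal] {B : MonoidAlgebra k G} (hB : IsBlock B)
    (hBH : ∀ x, x ∉ H → B.coeff x = 0) (hml : MulH H l)
    (hlB : ∀ z, IsCF z → l z = centralChar B (mkF z))
    {b : MonoidAlgebra k H} (hb : IsBlock b) (hlb : Low H l b) :
    numSimpleIn B = numSimpleIn (mkF fun t : stH H l => bF H b t) := by
  have hcov := cover H hB hBH hml hlB hb hlb
  have hN : ∀ g : G, g ∈ normalizer (H : Set G) := by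
    intro g
    rw [normalizer_eq_top]
    exact mem_top g
  have hHT : H ≤ stH H l := le_stH
  have heT : ∀ t ∈ stH H l, ∀ x, bF H b (t * x * t⁻¹) = bF H b x := by
    intro t ht x
    have h1 := (mem_stH_iff hml hb hlb (hN t⁻¹)).1 (inv_mem ht)
    have h2 := congrFun h1 x
    unfold cj at h2
    rwa [inv_inv] at h2
  have horth : ∀ g, g ∉ stH H l → conv (bF H b) (cj g (bF H b)) = 0 := fun g hg =>
    conv_cj_eq_zero hml hb hlb (hN g) hg
  have heH : ∀ x, x ∉ H → bF H b x = 0 := (invOn_bF hb.1).2
  have hee : conv (bF H b) (bF H b) = bF H b := conv_bF_self hb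
  generalize hTdef : stH H l = T at *
  generalize hedef : bF H b = e at *
  have heTs : ∀ x, x ∉ T → e x = 0 := fun x hx => heH x fun h => hx (hHT h)
  -- the element of `kT`
  set cT : MonoidAlgebra k T := mkF fun t : T => e t with hcT
  have hcTc : cT ∈ Subalgebra.center k (MonoidAlgebra k T) := mkF_mem fun t x => heT t t.2 x
  have hincT : inc T cT = mkF e := inc_mkF T e heTs
  have hcT2 : cT * cT = cT := by
    apply inc_injective T
    rw [map_mul, hincT, ← mkF_conv, hee]
  refine fong_reynolds p hcTc hcT2 hB.1 hB.2.1 (fun g hg => ?_) ?_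
  · rw [hincT]
    have h1 : mkF e * MonoidAlgebra.single g 1 * mkF e =
        mkF e * conjBy g (mkF e) * MonoidAlgebra.single g 1 := by
      unfold conjBy
      simp only [mul_assoc]
      rw [MonoidAlgebra.single_mul_single, inv_mul_cancel, one_mul, ← MonoidAlgebra.one_def,
        mul_one]
    have h2 : conjBy g (mkF e) = mkF (cj g e) := by
      ext x
      rw [coeff_mkF]
      unfold conjBy cj
      rw [MonoidAlgebra.coeff_mul_single_apply, MonoidAlgebra.coeff_single_mul_apply, coeff_mkF]
      simp [mul_assoc]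
    rw [h1, h2, ← mkF_conv, horth g hg]
    have h3 : mkF (0 : G → k) = 0 := by
      ext x
      rw [coeff_mkF]
      rfl
    rw [h3, zero_mul]
  · rw [finsum_eq_sum_of_fintype, hincT]
    ext x
    rw [MonoidAlgebra.coeff_sum, Finsupp.finsetSum_apply]
    refine (congrFun hcov x).trans ?_
    unfold trG
    refine Finset.sum_congr rfl fun c _ => ?_
    unfold conjBy
    rw [MonoidAlgebra.coeff_mul_single_apply, MonoidAlgebra.coeff_single_mul_apply, coeff_mkF]
    simp [mul_assoc]

end FR

section Transport

variable {k : Type u} [Field k] {H H' : Type} [Group H] [Group H']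

theorem center_map' (f : MonoidAlgebra k H ≃ₐ[k] MonoidAlgebra k H') {z : MonoidAlgebra k H}
    (hz : z ∈ Subalgebra.center k (MonoidAlgebra k H)) :
    f z ∈ Subalgebra.center k (MonoidAlgebra k H') := by
  rw [Subalgebra.mem_center_iff] at hz ⊢
  intro x
  have h1 := congrArg f (hz (f.symm x))
  rw [map_mul, map_mul, f.apply_symm_apply] at h1
  exact h1

theorem isBlock_map' (f : MonoidAlgebra k H ≃ₐ[k] MonoidAlgebra k H') {b : MonoidAlgebra k H}
    (hb : IsBlock b) : IsBlock (f b) := by
  obtain ⟨h1, h2, h3, h4⟩ := hb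
  refine ⟨center_map' f h1, by rw [← map_mul, h2], ?_, fun e he hee heb => ?_⟩
  · intro h
    apply h3
    exact (map_eq_zero_iff f f.injective).1 h
  · have h5 := h4 (f.symm e) (center_map' f.symm he) (by rw [← map_mul, hee]) (by
      have h6 := congrArg f.symm heb
      rwa [map_mul, f.symm_apply_apply] at h6)
    rcases h5 with h | h
    · left
      exact (map_eq_zero_iff f.symm f.symm.injective).1 h
    · right
      rw [← h, f.apply_symm_apply]

end Transport

section Main

variable {p : ℕ} [hp : Fact p.Prime] {k : Type u} [Field k] [IsAlgClosed k] [CharP k p]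
  (red : integralClosure ℤ ℂ →+* k) {G : Type} [Group G] [Fintype G] {D : Subgroup G}
  {l : (G → k) → k}

/-- **F5**, the version with Brauer pairs: the weights of a block `B` with abelian defect group
`D` are counted by the block `β` of `C_G(D)` below `B`, in the stabiliser of `β` -/
theorem numWeightsIn_eq_stabT {B : MonoidAlgebra k G} (hB : IsBlock B) (hDB : IsDefectGroup B D)
    (hab : ∀ a ∈ D, ∀ b ∈ D, a * b = b * a) (hl : BP p D l) (hD : IsPGroup p D)
    (hT : ¬ p ∣ (centralizer (D : Set G)).relIndex (stabT D l))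
    (hlB : ∀ z, IsCF z → l z = centralChar B (mkF z))
    {β : MonoidAlgebra k (centralizer (D : Set G))} (hβ : IsBlock β)
    (hlβ : Low (centralizer (D : Set G)) l β) :
    numWeightsIn p red B =
      numSimpleIn (mkF fun t : stabT D l => bF (centralizer (D : Set G)) β t) := by
  obtain ⟨b, hb, hbz, hbB, huniq⟩ := P179H450.exists_corr hl hD hab hT hlB
  obtain ⟨b', hb', hb'B, -, hn, -⟩ := P179H450.W1_corr p red hB hDB hab
  have hbb' := huniq b' hb' hb'B
  subst hbb'
  rw [← hn]
  have hab' : D ≤ centralizer (D : Set G) := le_cent_of_comm hab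
  have hDN : D ≤ (normalizer (D : Set G)) := le_normalizer
  have hCN : centralizer (D : Set G) ≤ (normalizer (D : Set G)) := cent_le_norm D
  have hl' := hl.restrict hDN hCN
  have hD' : IsPGroup p (D.subgroupOf (normalizer (D : Set G))) := hD.comap_subtype
  have habN : D.subgroupOf (normalizer (D : Set G)) ≤ centralizer ((D.subgroupOf (normalizer (D : Set G)) : Subgroup (normalizer (D : Set G))) : Set (normalizer (D : Set G))) := by
    intro x hx
    rw [mem_cent_subgroupOf hDN]
    exact hab' (by simpa [Subgroup.mem_subgroupOf] using hx)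
  have hDn : (D.subgroupOf (normalizer (D : Set G))).Normal := normal_in_normalizer
  -- the centraliser
  set H' : Subgroup (normalizer (D : Set G)) := centralizer ((D.subgroupOf (normalizer (D : Set G)) : Subgroup (normalizer (D : Set G))) : Set (normalizer (D : Set G))) with hH'
  have hmemH' : ∀ x : (normalizer (D : Set G)), x ∈ H' ↔ (x : G) ∈ centralizer (D : Set G) :=
    mem_cent_subgroupOf hDN
  have hH'n : H'.Normal := by
    refine ⟨fun x hx g => ?_⟩
    rw [hmemH'] at hx ⊢
    exact P179B.conj_mem_centralizer_of_mem_normalizer g.2 hx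
  have hml' : MulH H' (lres (normalizer (D : Set G)) l) := BP.mulH hl' hD' habN le_rfl
  -- the block of the centraliser
  let e : centralizer (D : Set G) ≃* H' :=
    { toFun := fun x => ⟨⟨x, hCN x.2⟩, (hmemH' _).2 x.2⟩
      invFun := fun x => ⟨(x : (normalizer (D : Set G))), (hmemH' _).1 x.2⟩
      left_inv := fun x => rfl
      right_inv := fun x => rfl
      map_mul' := fun x y => rfl }
  set β' : MonoidAlgebra k H' := MonoidAlgebra.domCongr k k e β with hβ'def
  have hβ' : IsBlock β' := isBlock_map' _ hβ
  have hbF : bF H' β' = fun n : (normalizer (D : Set G)) => bF (centralizer (D : Set G)) β n := by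
    funext n
    unfold bF
    by_cases h : n ∈ H'
    · rw [ext_of_mem H' _ h, ext_of_mem _ _ ((hmemH' n).1 h)]
      exact MonoidAlgebra.coeff_domCongr _ _ _
    · rw [ext_of_not_mem H' _ h, ext_of_not_mem _ _ fun h' => h ((hmemH' n).2 h')]
  have hlβ' : Low H' (lres (normalizer (D : Set G)) l) β' := by
    obtain ⟨b2, hb2, hlb2⟩ := exists_blk hml'
    have h1 : β' = b2 := by
      refine hlb2.unique hb2 hβ' ?_
      rw [hbF]
      unfold lres
      have h2 : ext (normalizer (D : Set G)) (fun n : (normalizer (D : Set G)) => bF (centralizer (D : Set G)) β n) =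
          bF (centralizer (D : Set G)) β :=
        ext_of_supp fun x hx => (invOn_bF hβ.1).2 x fun h => hx (hCN h)
      rw [h2, hlβ.one hβ]
      exact one_ne_zero
    rw [h1]
    exact hlb2
  have hsupp : ∀ x : (normalizer (D : Set G)), x ∉ H' → b'.coeff x = 0 := by
    intro x hx
    have hbb : conv (fun g => b'.coeff g) (fun g => b'.coeff g) = fun g => b'.coeff g := by
      funext g
      rw [← coeff_mul_eq_conv, hb.2.1]
    exact idem_supp (p := p) (D.subgroupOf (normalizer (D : Set G))) hD' ((P179C.mem_center_iff _).1 hb.1) hbb hx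
  rw [numSimple_fr (p := p) hb hsupp hml' (fun z hz => (hbz z hz).symm) hβ' hlβ']
  -- the stabiliser
  have hstab : ∀ n : (normalizer (D : Set G)), n ∈ stH H' (lres (normalizer (D : Set G)) l) ↔ (n : G) ∈ stabT D l := by
    intro n
    rw [← mem_stabT_lres hDN hCN, mem_stH, mem_stabT]
    have h1 : n ∈ normalizer (H' : Set (normalizer (D : Set G))) := by
      rw [normalizer_eq_top (H := H')]; exact mem_top n
    have h2 : n ∈ normalizer ((D.subgroupOf (normalizer (D : Set G)) : Subgroup (normalizer (D : Set G))) : Set (normalizer (D : Set G))) := by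
      rw [normalizer_eq_top (H := D.subgroupOf (normalizer (D : Set G)))]; exact mem_top n
    exact ⟨fun h => ⟨h2, h.2⟩, fun h => ⟨h1, h.2⟩⟩
  let φ : stH H' (lres (normalizer (D : Set G)) l) ≃* stabT D l :=
    { toFun := fun x => ⟨(x : (normalizer (D : Set G))), (hstab _).1 x.2⟩
      invFun := fun x => ⟨⟨x, (mem_stabT.1 x.2).1⟩, (hstab _).2 x.2⟩
      left_inv := fun x => rfl
      right_inv := fun x => rfl
      map_mul' := fun x y => rfl }
  refine numSimpleIn_equiv (p := p) φ _ _ fun x => ?_
  rw [coeff_mkF, coeff_mkF, hbF]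
  rfl

/-- **F5**, in terms of the block of the normal subgroup `C_G(D)` of the stabiliser -/
theorem numWeightsIn_eq_inc {B : MonoidAlgebra k G} (hB : IsBlock B) (hDB : IsDefectGroup B D)
    (hab : ∀ a ∈ D, ∀ b ∈ D, a * b = b * a) (hl : BP p D l) (hD : IsPGroup p D)
    (hT : ¬ p ∣ (centralizer (D : Set G)).relIndex (stabT D l))
    (hlB : ∀ z, IsCF z → l z = centralChar B (mkF z))
    {β : MonoidAlgebra k (centralizer (D : Set G))} (hβ : IsBlock β)
    (hlβ : Low (centralizer (D : Set G)) l β) :
    numWeightsIn p red B =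
      numSimpleIn (inc ((centralizer (D : Set G)).subgroupOf (stabT D l))
        (mkF fun x : (centralizer (D : Set G)).subgroupOf (stabT D l) =>
          bF (centralizer (D : Set G)) β ((x : stabT D l) : G))) := by
  rw [numWeightsIn_eq_stabT red hB hDB hab hl hD hT hlB hβ hlβ]
  congr 1
  symm
  refine inc_mkF _ (fun t : stabT D l => bF (centralizer (D : Set G)) β t) fun x hx => ?_
  exact (invOn_bF hβ.1).2 _ fun h => hx (mem_subgroupOf.2 h)

include hp in
/-- **F5** -/
theorem numWeightsIn_eq_inertial {B : MonoidAlgebra k G} (hB : IsBlock B)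
    (hDB : IsDefectGroup B D) (hab : ∀ a ∈ D, ∀ b ∈ D, a * b = b * a)
    {β : MonoidAlgebra k (centralizer (D : Set G))} (hβ : IsBlock β) (hβB : InducesTo β B) :
    numWeightsIn p red B =
      numSimpleIn (mkF fun t : inertialGroup D β => bF (centralizer (D : Set G)) β t) := by
  obtain ⟨hDp, -⟩ := exists_BP_of_block (p := p) B hB D hDB
  obtain ⟨l, hl, hlz, hlb⟩ := exists_BP_of_subblock (p := p) hB hDB hab hβ hβB
  have h1 := stabT_eq_inertialGroup hβ hlb
  have h2 := numWeightsIn_eq_stabT red hB hDB hab hl hDp (hT_of_block hB hDB hDp hab hl hlz) hlz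
    hβ hlb
  rw [h2]
  refine numSimpleIn_equiv (p := p) (MulEquiv.subgroupCongr h1) _ _ fun x => ?_
  rw [coeff_mkF, coeff_mkF]
  rfl

end Main

end P179H443
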