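import Vale.Agent.P179.R2.H443.Fin9
import Vale.Agent.P179.R2.H450.Mx
import Vale.Agent.P179.R2.H450.R2a
import Vale.Agent.P179.R2.H92.RegElt

/-!
# The groups `C_(p^2) × C_(p^2)`: the elements regular modulo `D ^ p`
-/

namespace P179H443

open Subgroup P179H292 P179H450

section Basic

variable {p : ℕ} [hp : Fact p.Prime] {G : Type*} [Group G] [Finite G] {D : Subgroup G}
  (hab : ∀ a ∈ D, ∀ b ∈ D, a * b = b * a) (h : HomSq p D)

include h

omit hp [Finite G] in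
theorem HomSq.mem_pw_iff {x : G} (hx : x ∈ D) : x ∈ pw hab p ↔ x ^ p = 1 := by
  constructor
  · rintro ⟨d, hd, rfl⟩
    rw [← pow_mul, ← pow_two]
    exact h.2.2 d hd
  · intro hxp
    exact h.2.1 x hx hxp

omit hp [Finite G] in
theorem HomSq.pw_eq : pw hab p = omS hab p := by
  ext x
  constructor
  · intro hx
    have hxD := pw_le hab p hx
    exact ⟨hxD, (h.mem_pw_iff hab hxD).1 hx⟩
  · rintro ⟨hx, hxp⟩
    exact (h.mem_pw_iff hab hx).2 hxp

omit hp in
theorem HomSq.card_omS : Nat.card (omS hab p) = p ^ 2 := h.1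

omit hp in
include hab in
theorem HomSq.card_D : Nat.card D = p ^ 4 := by
  rw [← card_pw hab p, h.pw_eq hab, h.card_omS hab]
  ring

omit hp in
theorem HomSq.card_pow : Nat.card {y : G // ∃ d ∈ D, d ^ p = y} = p ^ 2 := by
  have h1 : ∀ y : G, (∃ d ∈ D, d ^ p = y) ↔ y ∈ D ∧ y ^ p = 1 := by
    intro y
    constructor
    · rintro ⟨d, hd, rfl⟩
      refine ⟨pow_mem hd _, ?_⟩
      rw [← pow_mul, ← pow_two]
      exact h.2.2 d hd
    · rintro ⟨hy, hyp⟩
      exact h.2.1 y hy hyp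
  rw [Nat.card_congr (Equiv.subtypeEquivRight h1)]
  exact h.1

include hab in
theorem HomSq.exists_not_mem : ∃ w ∈ D, w ^ p ≠ 1 := by
  by_contra hcon
  have h1 : D ≤ omS hab p := by
    intro x hx
    refine ⟨hx, ?_⟩
    by_contra hx1
    exact hcon ⟨x, hx, hx1⟩
  have h2 := Subgroup.card_le_of_le h1
  rw [h.card_omS hab, h.card_D hab] at h2
  exact absurd h2 (not_le_of_gt (Nat.pow_lt_pow_right hp.out.one_lt (by norm_num)))

theorem HomSq.orderOf_eq {w : G} (hw : w ∈ D) (hwp : w ^ p ≠ 1) : orderOf w = p ^ 2 :=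
  orderOf_eq_prime_pow (n := 1) (by rwa [pow_one]) (h.2.2 w hw)

end Basic

section Reg

variable {p : ℕ} [hp : Fact p.Prime] {G : Type*} [Group G] [Finite G] {D T : Subgroup G}
  (hab : ∀ a ∈ D, ∀ b ∈ D, a * b = b * a) (h : HomSq p D)

include h

omit [Finite G] in
/-- the powers of `w` in `D ^ p` -/
theorem HomSq.dvd_of_pow_mem {w : G} (hw : w ∈ D) (hwp : w ^ p ≠ 1) {i : ℕ}
    (hi : ∃ d ∈ D, w ^ i = d ^ p) : p ∣ i := by
  obtain ⟨d, hd, e⟩ := hi
  have h1 : w ^ (i * p) = 1 := by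
    rw [pow_mul, e, ← pow_mul, ← pow_two]
    exact h.2.2 d hd
  have h2 : orderOf w ∣ i * p := orderOf_dvd_of_pow_eq_one h1
  have h3 : orderOf w = p ^ 2 :=
    orderOf_eq_prime_pow (n := 1) (by rwa [pow_one]) (h.2.2 w hw)
  rw [h3, pow_two] at h2
  exact Nat.dvd_of_mul_dvd_mul_right hp.out.pos h2

include hab in
omit [Finite G] hp h in
theorem conj_div_pow (hTN : T ≤ normalizer (D : Set G)) {n w : G} (hn : n ∈ T) (hw : w ∈ D)
    (q : ℕ) : (n * w * n⁻¹ * w⁻¹) ^ q = n * w ^ q * n⁻¹ * (w ^ q)⁻¹ := by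
  have h1 : n * w * n⁻¹ ∈ D := (mem_normalizer_iff.1 (hTN hn) w).1 hw
  have h2 : Commute (n * w * n⁻¹) w⁻¹ := hab _ h1 _ (inv_mem hw)
  rw [h2.mul_pow, conj_pow, inv_pow]

include hab in
omit [Finite G] hp in
theorem HomSq.stab_iff (hTN : T ≤ normalizer (D : Set G)) {n w : G} (hn : n ∈ T) (hw : w ∈ D) :
    (∃ d ∈ D, n * w * n⁻¹ * w⁻¹ = d ^ p) ↔ n * w ^ p * n⁻¹ = w ^ p := by
  have h0 : n * w * n⁻¹ ∈ D := (mem_normalizer_iff.1 (hTN hn) w).1 hw
  have h1 := h.mem_pw_iff hab (x := n * w * n⁻¹ * w⁻¹) (mul_mem h0 (inv_mem hw))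
  rw [conj_div_pow hab hTN hn hw, mul_inv_eq_one] at h1
  rw [← h1, mem_pw]
  exact ⟨fun ⟨d, hd, e⟩ => ⟨d, hd, e.symm⟩, fun ⟨d, hd, e⟩ => ⟨d, hd, e.symm⟩⟩

include hab in
/-- **the case of an element regular modulo `D ^ p`**: the number of regular elements -/
theorem HomSq.card_reg (hTN : T ≤ normalizer (D : Set G)) {w : G}
    (hw : w ∈ D) (hwp : w ^ p ≠ 1)
    (hreg : ∀ n ∈ T, n * w ^ p * n⁻¹ = w ^ p → n ∈ centralizer (D : Set G)) :
    (centralizer (D : Set G)).relIndex T * Nat.card D <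
      p ^ (2 * 1) * Nat.card {u : G // u ∈ D ∧ ∀ n ∈ T, n * u * n⁻¹ = u →
        n ∈ centralizer (D : Set G)} := by
  classical
  have hconj : ∀ n ∈ T, ∀ x ∈ D, n * x * n⁻¹ ∈ D := fun n hn x hx =>
    (mem_normalizer_iff.1 (hTN hn) x).1 hx
  have hpow : ∀ n ∈ T, ∀ y ∈ omS hab p, (n * w * n⁻¹ * y) ^ p = n * w ^ p * n⁻¹ := by
    intro n hn y hy
    have h2 : Commute (n * w * n⁻¹) y := hab _ (hconj n hn w hw) _ hy.1
    rw [h2.mul_pow, conj_pow, hy.2, mul_one]
  have hreg2 : ∀ n ∈ T, ∀ m ∈ T, m * (n * w ^ p * n⁻¹) * m⁻¹ = n * w ^ p * n⁻¹ →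
      m ∈ centralizer (D : Set G) := by
    intro n hn m hm e
    have h1 : n⁻¹ * m * n ∈ centralizer (D : Set G) := by
      refine hreg _ (mul_mem (mul_mem (inv_mem hn) hm) hn) ?_
      calc n⁻¹ * m * n * w ^ p * (n⁻¹ * m * n)⁻¹ =
          n⁻¹ * (m * (n * w ^ p * n⁻¹) * m⁻¹) * n := by group
        _ = w ^ p := by rw [e]; group
    have h2 := P179B.conj_mem_centralizer_of_mem_normalizer (hTN hn) h1
    have h3 : n * (n⁻¹ * m * n) * n⁻¹ = m := by group
    rwa [h3] at h2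
  let S : Type _ := {u : G // (u ∈ D ∧ ∀ n ∈ T, n * u * n⁻¹ = u →
        n ∈ centralizer (D : Set G)) ∧ u ^ p ≠ 1}
  have h1 : (centralizer (D : Set G)).relIndex T * Nat.card (omS hab p) ≤ Nat.card S := by
    refine relIndex_mul_le_of_inj _ _ _ (fun (n : T) (y : omS hab p) =>
      (⟨(n : G) * w * (n : G)⁻¹ * y, ⟨mul_mem (hconj n n.2 w hw) y.2.1, ?_⟩, ?_⟩ : S)) ?_ ?_
    · intro m hm e
      refine hreg2 n n.2 m hm ?_
      rw [← hpow n n.2 y y.2]
      rw [← conj_pow, e]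
    · rw [hpow n n.2 y y.2]
      intro e
      apply hwp
      calc w ^ p = (n : G)⁻¹ * (n * w ^ p * (n : G)⁻¹) * n := by group
        _ = 1 := by rw [e]; group
    · intro n n' y y' e
      have e1 : (n : G) * w * (n : G)⁻¹ * y = n' * w * (n' : G)⁻¹ * y' := congrArg Subtype.val e
      have e2 : ((n : G) * w * (n : G)⁻¹ * y) ^ p = (n' * w * (n' : G)⁻¹ * y') ^ p := by rw [e1]
      rw [hpow n n.2 y y.2, hpow n' n'.2 y' y'.2] at e2
      refine hreg _ (mul_mem (inv_mem n.2) n'.2) ?_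
      calc (n : G)⁻¹ * n' * w ^ p * ((n : G)⁻¹ * n')⁻¹ =
          (n : G)⁻¹ * (n' * w ^ p * (n' : G)⁻¹) * n := by group
        _ = w ^ p := by rw [← e2]; group
    · intro n y y' e
      have e1 : (n : G) * w * (n : G)⁻¹ * y = n * w * (n : G)⁻¹ * y' := congrArg Subtype.val e
      exact Subtype.ext (mul_left_cancel e1)
  have h2 : Nat.card S < Nat.card {u : G // u ∈ D ∧ ∀ n ∈ T, n * u * n⁻¹ = u →
        n ∈ centralizer (D : Set G)} := by
    have hwpp : (w ^ p) ^ p = 1 := by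
      rw [← pow_mul, ← pow_two]
      exact h.2.2 w hw
    let f : S → {u : G // u ∈ D ∧ ∀ n ∈ T, n * u * n⁻¹ = u → n ∈ centralizer (D : Set G)} :=
      fun u => ⟨u.1, u.2.1⟩
    have hf : Function.Injective f := fun a b e => by
      have e1 : (f a).1 = (f b).1 := congrArg Subtype.val e
      exact Subtype.ext e1
    refine (Nat.card_le_card_of_injective f hf).lt_of_ne fun e => ?_
    have h3 : Function.Bijective f := (Nat.bijective_iff_injective_and_card f).2 ⟨hf, e⟩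
    obtain ⟨u, hu⟩ := h3.2 ⟨w ^ p, pow_mem hw _, hreg⟩
    have h4 : u.1 = w ^ p := congrArg Subtype.val hu
    exact u.2.2 (by rw [h4, hwpp])
  rw [h.card_omS hab] at h1
  rw [h.card_D hab]
  calc (centralizer (D : Set G)).relIndex T * p ^ 4 =
      p ^ (2 * 1) * ((centralizer (D : Set G)).relIndex T * p ^ 2) := by ring
    _ ≤ p ^ (2 * 1) * Nat.card S := Nat.mul_le_mul_left _ h1
    _ < _ := Nat.mul_lt_mul_of_pos_left h2 (pow_pos hp.out.pos _)

end Reg

/-- the data at an element `w` whose `p`-th power is not regular, `D ≅ C_(p^2) × C_(p^2)` -/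
structure SqData (p : ℕ) {G : Type*} [Group G] (D T : Subgroup G) (w t : G) (s : ℕ) : Prop where
  w_mem : w ∈ D
  w_ne : w ^ p ≠ 1
  order_w : orderOf w = p ^ 2
  t_mem : t ∈ T
  tw : t * w * t⁻¹ = w
  two_le : 2 ≤ s
  dvd : s ∣ p - 1
  idx : (centralizer (D : Set G)).relIndex (T ⊓ centralizer {w}) = s
  gen : ∀ n ∈ T, n * w * n⁻¹ = w → ∃ a < s, (t ^ a)⁻¹ * n ∈ centralizer (D : Set G)
  tpow : ∀ a : ℕ, t ^ a ∈ centralizer (D : Set G) ↔ s ∣ a
  stab : ∀ n ∈ T, n * w ^ p * n⁻¹ = w ^ p → n * w * n⁻¹ = w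
  reg : ∀ u ∈ D, u ∉ zpowers w → ∀ n ∈ T, n * w * n⁻¹ = w → n * u * n⁻¹ = u →
    n ∈ centralizer (D : Set G)

section Ex

variable {p : ℕ} [hp : Fact p.Prime] {G : Type*} [Group G] [Finite G] {D T : Subgroup G}

omit hp in
theorem pow_relIndex_mem (hTN : T ≤ normalizer (D : Set G)) {t : G} (ht : t ∈ T) :
    t ^ (centralizer (D : Set G)).relIndex T ∈ centralizer (D : Set G) := by
  have hn : ((centralizer (D : Set G)).subgroupOf T).Normal := by
    refine ⟨fun c hc n => ?_⟩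
    rw [mem_subgroupOf] at hc ⊢
    exact P179B.conj_mem_centralizer_of_mem_normalizer (hTN n.2) hc
  have h1 := Subgroup.pow_index_mem ((centralizer (D : Set G)).subgroupOf T) ⟨t, ht⟩
  rw [mem_subgroupOf] at h1
  exact h1

theorem cent_of_omega (hD : IsPGroup p D) (hab : ∀ a ∈ D, ∀ b ∈ D, a * b = b * a)
    (hTN : T ≤ normalizer (D : Set G)) (hT : ¬ p ∣ (centralizer (D : Set G)).relIndex T)
    {n : G} (hn : n ∈ T) (hfix : ∀ x ∈ omS hab p, n * x * n⁻¹ = x) :
    n ∈ centralizer (D : Set G) :=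
  centralises_of_omega hab hD (hTN hn) hT (pow_relIndex_mem hTN hn) hfix

/-- **the data at an element whose `p`-th power is not regular** -/
theorem HomSq.exists_sqData (hD : IsPGroup p D) (hab : ∀ a ∈ D, ∀ b ∈ D, a * b = b * a)
    (h : HomSq p D) (hTN : T ≤ normalizer (D : Set G)) (hCT : centralizer (D : Set G) ≤ T)
    (hT : ¬ p ∣ (centralizer (D : Set G)).relIndex T) {w' n₁ : G} (hw' : w' ∈ D)
    (hwp' : w' ^ p ≠ 1) (hn₁ : n₁ ∈ T) (hn₁w : n₁ * w' ^ p * n₁⁻¹ = w' ^ p)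
    (hn₁C : n₁ ∉ centralizer (D : Set G)) :
    ∃ w t : G, ∃ s : ℕ, SqData p D T w t s ∧ w ^ p = w' ^ p := by
  classical
  set u := w' ^ p with hu
  let S : Subgroup G := LineData.K1 T u
  have hST : S ≤ T := fun n hn => hn.1
  obtain ⟨w, hw, hwu, hSw⟩ := P179H92.exists_fixed_root hD hab hTN hT hST (u := u) (y := w')
    (fun s hs => hs.2) hw' hu.symm
  have hwp : w ^ p ≠ 1 := by rw [hwu]; exact hwp'
  have hord : orderOf w = p ^ 2 := h.orderOf_eq hw hwp
  have hSeq : S = T ⊓ centralizer {w} := by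
    ext n
    rw [mem_inf, mem_centralizer_iff]
    constructor
    · intro hn
      refine ⟨hn.1, ?_⟩
      rintro x rfl
      have h1 := hSw n hn
      exact (mul_inv_eq_iff_eq_mul.1 h1).symm
    · rintro ⟨hn, hnw⟩
      refine ⟨hn, ?_⟩
      have h1 : n * w * n⁻¹ = w := by rw [← hnw w rfl]; group
      rw [← hwu, ← conj_pow, h1]
  have hSN : S ≤ normalizer (D : Set G) := hST.trans hTN
  have hCS : centralizer (D : Set G) ≤ S := by
    intro c hc
    refine ⟨hCT hc, ?_⟩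
    have h1 := mem_centralizer_iff.1 hc u (pow_mem hw' _)
    rw [← h1]
    group
  have hidx : ¬ p ∣ (centralizer (D : Set G)).relIndex S := fun h =>
    hT (h.trans (P179H92.relIndex_dvd hTN hST))
  have hMD : zpowers w ≤ D := by
    rw [zpowers_le]
    exact hw
  have hfixM : ∀ t ∈ S, ∀ x ∈ zpowers w, t * x * t⁻¹ = x := by
    rintro t ht x ⟨i, rfl⟩
    simp only
    rw [← conj_zpow, hSw t ht]
  have hSM : S ≤ centralizer (zpowers w : Set G) := by
    intro t ht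
    rw [mem_centralizer_iff]
    intro x hx
    have h1 := hfixM t ht x hx
    exact (mul_inv_eq_iff_eq_mul.1 h1).symm
  have hn₁S : n₁ ∈ S := ⟨hn₁, hn₁w⟩
  obtain ⟨-, -, -, ⟨hnorm, hcyc, hdvd⟩, hreg, -⟩ := rank2_M (T := S) (M := zpowers w) hD hab hSN
    hCS hidx h.1 hMD (by
      intro h0
      rw [zpowers_eq_bot] at h0
      exact hwp (by rw [h0, one_pow])) (fun t ht x hx => by rw [hfixM t ht x hx]; exact hx)
    ⟨n₁, hn₁S, hSM hn₁S, hn₁C⟩
  have hSS : S ⊓ centralizer (zpowers w : Set G) = S := inf_eq_left.2 hSM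
  rw [hSS] at hnorm hcyc hdvd hreg
  -- the elements fixed by `S`
  let F : Subgroup G := LineData.fixG D S
  have hFD : F ≤ D := fun x hx => hx.1
  have habF : ∀ a ∈ F, ∀ b ∈ F, a * b = b * a := fun a ha b hb => hab a (hFD ha) b (hFD hb)
  have hMF : zpowers w ≤ F := fun x hx => ⟨hMD hx, fun t ht => hfixM t ht x hx⟩
  have hFM : F = zpowers w := by
    symm
    refine Subgroup.eq_of_le_of_card_ge hMF ?_
    have h1 : Nat.card (zpowers w) = p ^ 2 := by rw [Nat.card_zpowers, hord]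
    rw [h1]
    refine card_le_exp habF ?_ fun x hx => h.2.2 x (hFD hx)
    have h2 : omS habF p ≤ omS hab p := fun x hx => ⟨hFD hx.1, hx.2⟩
    have h3 : Nat.card (omS habF p) ∣ p ^ 2 := by
      rw [← h.card_omS hab]
      exact Subgroup.card_dvd_of_le h2
    obtain ⟨i, hi, hi'⟩ := (Nat.dvd_prime_pow hp.out).1 h3
    rw [hi']
    have h4 : i ≠ 2 := by
      rintro rfl
      have h5 : omS habF p = omS hab p := by
        refine Subgroup.eq_of_le_of_card_ge h2 ?_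
        rw [hi', h.card_omS hab]
      apply hn₁C
      refine cent_of_omega hD hab hTN hT hn₁ fun x hx => ?_
      rw [← h5] at hx
      exact hx.1.2 n₁ hn₁S
    calc p ^ i ≤ p ^ 1 := Nat.pow_le_pow_right hp.out.pos (by omega)
      _ = p := pow_one p
  -- a generator
  have hcyc' := hcyc
  obtain ⟨g, hg⟩ := hcyc'.exists_generator
  obtain ⟨t, rfl⟩ := QuotientGroup.mk_surjective g
  have hordg : orderOf (QuotientGroup.mk t : S ⧸ (centralizer (D : Set G)).subgroupOf S) =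
      (centralizer (D : Set G)).relIndex S :=
    orderOf_eq_card_of_forall_mem_zpowers hg
  have htpow : ∀ a : ℕ, (t : G) ^ a ∈ centralizer (D : Set G) ↔
      (centralizer (D : Set G)).relIndex S ∣ a := by
    intro a
    rw [← hordg, orderOf_dvd_iff_pow_eq_one, ← QuotientGroup.mk_pow,
      QuotientGroup.eq_one_iff, mem_subgroupOf]
    rfl
  have hs0 : 0 < (centralizer (D : Set G)).relIndex S :=
    Nat.pos_of_ne_zero fun h0 => hidx (by rw [h0]; exact dvd_zero p)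
  refine ⟨w, t, (centralizer (D : Set G)).relIndex S, ⟨hw, hwp, hord, hST t.2, hSw t t.2, ?_,
    hdvd, by rw [hSeq], ?_, htpow, ?_, ?_⟩, hwu⟩
  · -- at least two
    by_contra hlt
    have h1 : (centralizer (D : Set G)).relIndex S = 1 := by omega
    exact hn₁C (relIndex_eq_one.1 h1 hn₁S)
  · intro n hn hnw
    have hnS : n ∈ S := ⟨hn, by rw [← hwu, ← conj_pow, hnw]⟩
    have h1 := hg (QuotientGroup.mk' _ ⟨n, hnS⟩)
    rw [mem_zpowers_iff_mem_range_orderOf] at h1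
    obtain ⟨a, ha, e⟩ := Finset.mem_image.1 h1
    rw [Finset.mem_range] at ha
    refine ⟨a, by rw [← hordg]; exact ha, ?_⟩
    have e' : (QuotientGroup.mk (t ^ a) : S ⧸ (centralizer (D : Set G)).subgroupOf S) =
        QuotientGroup.mk ⟨n, hnS⟩ := e
    rw [QuotientGroup.eq, mem_subgroupOf] at e'
    exact e'
  · intro n hn hnw
    exact hSw n ⟨hn, by rw [← hwu]; exact hnw⟩
  · intro x hx hxw n hn hnw hnx
    by_contra hnC
    apply hxw
    rw [← hFM]
    refine ⟨hx, ?_⟩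
    have hnS : n ∈ S := ⟨hn, by rw [← hwu, ← conj_pow, hnw]⟩
    refine hreg x hx ?_ n hnS hnC hnx
    rintro rfl
    exact hxw (one_mem _)

end Ex

end P179H443
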