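import Vale.Agent.P179.R2.H443.Gp2

/-!
# The groups `C_(p^2) × C_(p^2)`: the coset of an element which is not regular modulo `D ^ p`
-/

namespace P179H443

open Subgroup P179H292 P179H450

namespace SqData

variable {p : ℕ} [hp : Fact p.Prime] {G : Type*} [Group G] [Finite G] {D T : Subgroup G}
  {w t : G} {s : ℕ} (hs : SqData p D T w t s)

include hs

omit [Finite G] in
theorem wpp : (w ^ p) ^ p = 1 := by
  rw [← pow_mul, ← pow_two, ← hs.order_w, pow_orderOf_eq_one]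

omit [Finite G] in
theorem order_wp : orderOf (w ^ p) = p :=
  orderOf_eq_prime hs.wpp hs.w_ne

omit [Finite G] in
theorem coprime_order {i : ℕ} (hi : p.Coprime i) : (orderOf w).Coprime i := by
  rw [hs.order_w]
  exact Nat.Coprime.pow_left 2 hi

omit [Finite G] in
theorem mem_zpowers_iff {y : G} (hyp : y ^ p = 1) : y ∈ zpowers w ↔ y ∈ zpowers (w ^ p) := by
  constructor
  · rintro ⟨i, rfl⟩
    simp only at hyp
    have h1 : w ^ (i * p) = 1 := by rw [zpow_mul, zpow_natCast]; exact hyp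
    have h2 := orderOf_dvd_iff_zpow_eq_one.2 h1
    rw [hs.order_w] at h2
    have h3 : (p : ℤ) * p ∣ i * p := by
      have e : ((p ^ 2 : ℕ) : ℤ) = p * p := by push_cast; ring
      rwa [e] at h2
    have hp0 : (p : ℤ) ≠ 0 := by exact_mod_cast hp.out.ne_zero
    obtain ⟨j, rfl⟩ := Int.dvd_of_mul_dvd_mul_right hp0 h3
    refine ⟨j, ?_⟩
    simp only
    rw [zpow_mul, zpow_natCast]
  · rintro ⟨i, rfl⟩
    exact zpow_mem (pow_mem (mem_zpowers w) p) i

omit [Finite G] in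
/-- an element of `T` which moves `w ^ i y` to `w ^ i y'` -/
theorem fuse (hab : ∀ a ∈ D, ∀ b ∈ D, a * b = b * a) {i : ℕ} (hi : p.Coprime i) {y y' : G}
    (hy : y ∈ D) (hyp : y ^ p = 1) (hy' : y' ∈ D) (hyp' : y' ^ p = 1) {n : G} (hn : n ∈ T)
    (h : n * (w ^ i * y) * n⁻¹ = w ^ i * y') : n * w * n⁻¹ = w ∧ n * y * n⁻¹ = y' := by
  have h1 : ∀ z ∈ D, z ^ p = 1 → (w ^ i * z) ^ p = (w ^ p) ^ i := by
    intro z hz hzp
    have h2 : Commute (w ^ i) z := hab _ (pow_mem hs.w_mem _) _ hz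
    rw [h2.mul_pow, hzp, mul_one, ← pow_mul, mul_comm i p, pow_mul]
  have h2 : n * (w ^ p) ^ i * n⁻¹ = (w ^ p) ^ i := by
    rw [← h1 y hy hyp, ← conj_pow, h, h1 y' hy' hyp', h1 y hy hyp]
  have hco : (orderOf (w ^ p)).Coprime i := by rw [hs.order_wp]; exact hi
  obtain ⟨e, he⟩ := exists_pow_eq_self_of_coprime hco.symm
  have h3 : n * w ^ p * n⁻¹ = w ^ p := by
    conv_lhs => rw [← he]
    rw [← conj_pow, h2, he]
  have h4 := hs.stab n hn h3
  refine ⟨h4, ?_⟩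
  have h5 : n * (w ^ i * y) * n⁻¹ = w ^ i * (n * y * n⁻¹) := by
    have h6 : n * w ^ i * n⁻¹ = w ^ i := by rw [← conj_pow, h4]
    calc n * (w ^ i * y) * n⁻¹ = n * w ^ i * n⁻¹ * (n * y * n⁻¹) := by group
      _ = w ^ i * (n * y * n⁻¹) := by rw [h6]
  rw [h5] at h
  exact mul_left_cancel h

omit [Finite G] in
/-- the elements `w ^ i y` with `y ∉ ⟨w⟩` are regular -/
theorem reg_coset (hab : ∀ a ∈ D, ∀ b ∈ D, a * b = b * a) {i : ℕ} (hi : p.Coprime i) {y : G}
    (hy : y ∈ D) (hyp : y ^ p = 1) (hyw : y ∉ zpowers w) {n : G} (hn : n ∈ T)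
    (h : n * (w ^ i * y) * n⁻¹ = w ^ i * y) : n ∈ centralizer (D : Set G) := by
  obtain ⟨h1, h2⟩ := hs.fuse hab hi hy hyp hy hyp hn h
  exact hs.reg y hy hyw n hn h1 h2

omit [Finite G] in
theorem coset_ne_one {i : ℕ} {y : G} (hyw : y ∉ zpowers w) : w ^ i * y ≠ 1 := by
  intro h
  apply hyw
  have h1 : y = (w ^ i)⁻¹ := eq_inv_of_mul_eq_one_right h
  rw [h1]
  exact inv_mem (pow_mem (mem_zpowers w) i)

omit [Finite G] in
theorem t_pow_mem (a : ℕ) : t ^ a ∈ T := pow_mem hs.t_mem a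

omit [Finite G] hp in
theorem t_pow_w (a : ℕ) : t ^ a * w * (t ^ a)⁻¹ = w := by
  induction a with
  | zero => rw [pow_zero]; group
  | succ a ih =>
    calc t ^ (a + 1) * w * (t ^ (a + 1))⁻¹ = t ^ a * (t * w * t⁻¹) * (t ^ a)⁻¹ := by
          rw [pow_succ]; group
      _ = w := by rw [hs.tw, ih]

/-- a proper subgroup of `Ω_1(D)` which contains `w ^ p` -/
theorem eq_of_lt (hab : ∀ a ∈ D, ∀ b ∈ D, a * b = b * a) (h : HomSq p D) {K : Subgroup G}
    (hK : K ≤ omS hab p) (hne : K ≠ omS hab p) (hwK : w ^ p ∈ K) : K = zpowers (w ^ p) := by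
  symm
  have h1 : zpowers (w ^ p) ≤ K := by rwa [zpowers_le]
  refine Subgroup.eq_of_le_of_card_ge h1 ?_
  rw [Nat.card_zpowers, hs.order_wp]
  have h2 : Nat.card K ∣ p ^ 2 := by
    rw [← h.card_omS hab]
    exact Subgroup.card_dvd_of_le hK
  obtain ⟨i, hi, hi'⟩ := (Nat.dvd_prime_pow hp.out).1 h2
  rw [hi']
  have h3 : i ≠ 2 := by
    rintro rfl
    exact hne (Subgroup.eq_of_le_of_card_ge hK (by rw [hi', h.card_omS hab]))
  calc p ^ i ≤ p ^ 1 := Nat.pow_le_pow_right hp.out.pos (by omega)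
    _ = p := pow_one p

/-- **freeness**: a power of `t` acting trivially on `Ω_1(D) / K`, `w ^ p ∈ K ≠ Ω_1(D)` -/
theorem dvd_of_unip (hD : IsPGroup p D) (hab : ∀ a ∈ D, ∀ b ∈ D, a * b = b * a) (h : HomSq p D)
    (hTN : T ≤ normalizer (D : Set G)) (hT : ¬ p ∣ (centralizer (D : Set G)).relIndex T)
    {K : Subgroup G} (hK : K ≤ omS hab p) (hne : K ≠ omS hab p) (hwK : w ^ p ∈ K) {a : ℕ}
    (ha : ∀ y ∈ omS hab p, t ^ a * y * (t ^ a)⁻¹ * y⁻¹ ∈ K) : s ∣ a := by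
  rw [← hs.tpow]
  have hKw := hs.eq_of_lt hab h hK hne hwK
  set n := t ^ a with hn
  have hnT : n ∈ T := hs.t_pow_mem a
  have hnw : n * w * n⁻¹ = w := hs.t_pow_w a
  have hnK : ∀ x ∈ K, n * x * n⁻¹ = x := by
    intro x hx
    rw [hKw] at hx
    obtain ⟨i, rfl⟩ := hx
    simp only
    rw [← conj_zpow, ← conj_pow, hnw]
  refine cent_of_omega hD hab hTN hT hnT fun y hy => ?_
  set c := n * y * n⁻¹ * y⁻¹ with hc
  have hcK : c ∈ K := ha y hy
  have hcO := hK hcK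
  have h1 : n * y * n⁻¹ = c * y := by rw [hc]; group
  have h2 : ∀ e : ℕ, n ^ e * y * (n ^ e)⁻¹ = c ^ e * y := by
    intro e
    induction e with
    | zero => rw [pow_zero, pow_zero]; group
    | succ e ih =>
      have h3 : n * (c ^ e * y) * n⁻¹ = c ^ (e + 1) * y := by
        have h4 : n * c ^ e * n⁻¹ = c ^ e := by rw [← conj_pow, hnK c hcK]
        calc n * (c ^ e * y) * n⁻¹ = n * c ^ e * n⁻¹ * (n * y * n⁻¹) := by group
          _ = c ^ e * (c * y) := by rw [h4, h1]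
          _ = c ^ (e + 1) * y := by rw [pow_succ]; group
      rw [← h3, ← ih, pow_succ']
      group
  set e := (centralizer (D : Set G)).relIndex T with he
  have h3 := h2 e
  have h4 : n ^ e * y * (n ^ e)⁻¹ = y := by
    have h5 := pow_relIndex_mem hTN hnT
    have h6 := mem_centralizer_iff.1 h5 y hy.1
    rw [← he] at h6
    rw [← h6]; group
  rw [h4] at h3
  have h5 : c ^ e = 1 := by
    have : c ^ e * y = 1 * y := by rw [← h3, one_mul]
    exact mul_right_cancel this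
  have h6 : c = 1 := by
    have h7 : orderOf c ∣ Nat.gcd e p := Nat.dvd_gcd (orderOf_dvd_of_pow_eq_one h5)
      (orderOf_dvd_of_pow_eq_one hcO.2)
    have h8 : Nat.gcd e p = 1 := Nat.Coprime.symm ((Nat.Prime.coprime_iff_not_dvd hp.out).2 hT)
    rw [h8, Nat.dvd_one, orderOf_eq_one_iff] at h7
    exact h7
  rw [h1, h6, one_mul]

/-- an element of `Ω_1(D)` outside `⟨w⟩` -/
theorem exists_y (hab : ∀ a ∈ D, ∀ b ∈ D, a * b = b * a) (h : HomSq p D) :
    ∃ y ∈ D, y ^ p = 1 ∧ y ∉ zpowers w := by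
  by_contra hcon
  have h1 : omS hab p ≤ zpowers (w ^ p) := by
    intro y hy
    rw [← hs.mem_zpowers_iff hy.2]
    by_contra hyw
    exact hcon ⟨y, hy.1, hy.2, hyw⟩
  have h2 := Subgroup.card_le_of_le h1
  rw [Nat.card_zpowers, hs.order_wp, h.card_omS hab] at h2
  have h3 : p ^ 1 < p ^ 2 := Nat.pow_lt_pow_right hp.out.one_lt (by norm_num)
  rw [pow_one] at h3
  omega

end SqData

end P179H443
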