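import Vale.Agent.P179.R2.H443.Red

/-!
# The product hull
-/

namespace P179H443

open Subgroup P179A P179N P179R RegularWreathProduct

open scoped Classical

section

variable {G Q : Type} [Group G] [Group Q]

/-- the projection of a subgroup of the base group -/
def pr (q : Q) (X : Subgroup (G ≀ᵣ Q)) : Subgroup G :=
  (X.comap (incl G Q)).map (Pi.evalMonoidHom (fun _ : Q => G) q)

theorem mem_pr {q : Q} {X : Subgroup (G ≀ᵣ Q)} {x : G} :
    x ∈ pr q X ↔ ∃ y : Q → G, incl G Q y ∈ X ∧ y q = x := Iff.rfl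

/-- the smallest product subgroup containing a subgroup of the base group -/
def hull (X : Subgroup (G ≀ᵣ Q)) : Subgroup (G ≀ᵣ Q) := prodSub fun q => pr q X

theorem incl_mem_prodSub {A : Q → Subgroup G} {y : Q → G} :
    incl G Q y ∈ prodSub A ↔ ∀ q, y q ∈ A q :=
  ⟨fun h => h.2, fun h => ⟨rfl, h⟩⟩

theorem prodSub_le_base (A : Q → Subgroup G) : prodSub A ≤ base G Q :=
  fun _ hx => mem_base.2 hx.1

theorem le_hull {X : Subgroup (G ≀ᵣ Q)} (hX : X ≤ base G Q) : X ≤ hull X := by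
  intro x hx
  have h1 := mem_base.1 (hX hx)
  refine ⟨h1, fun q => ⟨x.left, ?_, rfl⟩⟩
  change incl G Q x.left ∈ X
  rw [← eq_incl h1]
  exact hx

theorem pr_prodSub (A : Q → Subgroup G) (q : Q) : pr q (prodSub A) = A q := by
  ext x
  rw [mem_pr]
  constructor
  · rintro ⟨y, hy, rfl⟩
    exact incl_mem_prodSub.1 hy q
  · intro hx
    refine ⟨Pi.mulSingle q x, ?_, by simp⟩
    rw [incl_mem_prodSub]
    intro q'
    by_cases h : q' = q
    · subst h
      rw [Pi.mulSingle_eq_same]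
      exact hx
    · rw [Pi.mulSingle_eq_of_ne h]
      exact (A q').one_mem

theorem hull_prodSub (A : Q → Subgroup G) : hull (prodSub A) = prodSub A := by
  unfold hull
  simp only [pr_prodSub]

theorem prodSub_mono {A B : Q → Subgroup G} (h : ∀ q, A q ≤ B q) : prodSub A ≤ prodSub B :=
  fun _ hx => ⟨hx.1, fun q => h q (hx.2 q)⟩

theorem prodSub_le_iff {A B : Q → Subgroup G} : prodSub A ≤ prodSub B ↔ ∀ q, A q ≤ B q := by
  refine ⟨fun h q => ?_, prodSub_mono⟩
  have h1 : pr q (prodSub A) ≤ pr q (prodSub B) := map_mono (comap_mono h)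
  rwa [pr_prodSub, pr_prodSub] at h1

theorem prodSub_injective : Function.Injective (prodSub : (Q → Subgroup G) → _) := by
  intro A B h
  funext q
  rw [← pr_prodSub A q, h, pr_prodSub]

theorem prodSub_bot : prodSub (fun _ : Q => (⊥ : Subgroup G)) = ⊥ := by
  rw [eq_bot_iff]
  rintro x ⟨h1, h2⟩
  rw [mem_bot]
  ext q
  · exact mem_bot.1 (h2 q)
  · exact h1

theorem hull_mono {X Y : Subgroup (G ≀ᵣ Q)} (h : X ≤ Y) : hull X ≤ hull Y :=
  prodSub_mono fun _ => map_mono (comap_mono h)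

theorem hull_conj {X : Subgroup (G ≀ᵣ Q)} {g : G ≀ᵣ Q} (h : ∀ x ∈ X, g * x * g⁻¹ ∈ X) :
    ∀ x ∈ hull X, g * x * g⁻¹ ∈ hull X := by
  intro x hx
  obtain ⟨y, rfl⟩ : ∃ y, x = incl G Q y := ⟨_, eq_incl hx.1⟩
  rw [wr_conj]
  refine incl_mem_prodSub.2 fun q => ?_
  obtain ⟨z, hz, hzy⟩ := mem_pr.1 (incl_mem_prodSub.1 hx (g.right⁻¹ * q))
  refine ⟨fun q => g.left q * z (g.right⁻¹ * q) * (g.left q)⁻¹, ?_, ?_⟩
  · have h1 := h _ hz
    rw [wr_conj] at h1
    exact h1
  · change g.left q * z (g.right⁻¹ * q) * (g.left q)⁻¹ = _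
    rw [hzy]

theorem mem_normalizer_iff' {K : Type*} [Group K] {X : Subgroup K} {g : K} :
    g ∈ normalizer (X : Set K) ↔ (∀ x ∈ X, g * x * g⁻¹ ∈ X) ∧ ∀ x ∈ X, g⁻¹ * x * g ∈ X := by
  rw [mem_normalizer_iff]
  constructor
  · intro h
    refine ⟨fun x hx => (h x).1 hx, fun x hx => ?_⟩
    rw [h]
    have : g * (g⁻¹ * x * g) * g⁻¹ = x := by group
    rw [this]
    exact hx
  · rintro ⟨h1, h2⟩ x
    refine ⟨h1 x, fun hx => ?_⟩
    have := h2 _ hx
    have h3 : g⁻¹ * (g * x * g⁻¹) * g = x := by group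
    rwa [h3] at this

theorem normalizer_hull (X : Subgroup (G ≀ᵣ Q)) :
    normalizer (X : Set (G ≀ᵣ Q)) ≤ normalizer (hull X : Set (G ≀ᵣ Q)) := by
  intro g hg
  rw [mem_normalizer_iff'] at hg ⊢
  refine ⟨hull_conj hg.1, ?_⟩
  have h1 : ∀ x ∈ X, g⁻¹ * x * g⁻¹⁻¹ ∈ X := by
    intro x hx
    rw [inv_inv]
    exact hg.2 x hx
  intro x hx
  have h2 := hull_conj h1 x hx
  rwa [inv_inv] at h2

theorem isPGroup_prodSub {p : ℕ} [Finite Q] {A : Q → Subgroup G} :
    IsPGroup p (prodSub A) ↔ ∀ q, IsPGroup p (A q) := by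
  constructor
  · intro h q
    rw [← pr_prodSub A q]
    unfold pr
    refine IsPGroup.map ?_ _
    exact h.comap_of_injective _ incl_injective
  · intro h
    have := Fintype.ofFinite Q
    rintro ⟨x, hx⟩
    obtain ⟨y, rfl⟩ : ∃ y, x = incl G Q y := ⟨_, eq_incl hx.1⟩
    have h1 : ∀ q, ∃ n, (y q) ^ p ^ n = 1 := by
      intro q
      obtain ⟨n, hn⟩ := h q ⟨y q, incl_mem_prodSub.1 hx q⟩
      exact ⟨n, congrArg Subtype.val hn⟩
    choose n hn using h1
    refine ⟨∑ q, n q, ?_⟩
    apply Subtype.ext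
    change (incl G Q y) ^ p ^ (∑ q, n q) = 1
    rw [← map_pow, ← map_one (incl G Q)]
    congr 1
    funext q
    change (y q) ^ p ^ (∑ q, n q) = 1
    rw [← Finset.add_sum_erase _ _ (Finset.mem_univ q), pow_add, pow_mul, hn, one_pow]

theorem mem_normalizer_prodSub {A B : Q → Subgroup G} {x : G ≀ᵣ Q} (hx : x ∈ prodSub A) :
    x ∈ normalizer (prodSub B : Set (G ≀ᵣ Q)) ↔ ∀ q, x.left q ∈ normalizer (B q : Set G) := by
  obtain ⟨y, rfl⟩ : ∃ y, x = incl G Q y := ⟨_, eq_incl hx.1⟩
  constructor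
  · intro h q
    rw [mem_normalizer_iff] at h ⊢
    intro z
    have h1 := h (incl G Q (Pi.mulSingle q z))
    rw [wr_conj, incl_mem_prodSub, incl_mem_prodSub] at h1
    simp only [incl_left, incl_right, inv_one, one_mul] at h1
    change z ∈ B q ↔ y q * z * (y q)⁻¹ ∈ B q
    constructor
    · intro hz
      have h2 := h1.1 (fun q' => by
        by_cases h : q' = q
        · subst h
          rw [Pi.mulSingle_eq_same]
          exact hz
        · rw [Pi.mulSingle_eq_of_ne h]
          exact (B q').one_mem) q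
      rwa [Pi.mulSingle_eq_same] at h2
    · intro hz
      have h2 := h1.2 (fun q' => by
        by_cases h : q' = q
        · subst h
          rw [Pi.mulSingle_eq_same]
          exact hz
        · rw [Pi.mulSingle_eq_of_ne h, mul_one, mul_inv_cancel]
          exact (B q').one_mem) q
      rwa [Pi.mulSingle_eq_same] at h2
  · intro h
    rw [mem_normalizer_iff]
    intro z
    constructor
    · intro hz
      obtain ⟨w, rfl⟩ : ∃ w, z = incl G Q w := ⟨_, eq_incl hz.1⟩
      rw [wr_conj, incl_mem_prodSub]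
      intro q
      simp only [incl_left, incl_right, inv_one, one_mul]
      exact (mem_normalizer_iff.1 (h q) (w q)).1 (incl_mem_prodSub.1 hz q)
    · intro hz
      have hr : z.right = 1 := by
        have h1 := hz.1
        rw [RegularWreathProduct.mul_right, RegularWreathProduct.mul_right, inv_right,
          incl_right, inv_one, mul_one, one_mul] at h1
        exact h1
      obtain ⟨w, rfl⟩ : ∃ w, z = incl G Q w := ⟨_, eq_incl hr⟩
      rw [wr_conj, incl_mem_prodSub] at hz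
      rw [incl_mem_prodSub]
      intro q
      have h1 := hz q
      simp only [incl_left, incl_right, inv_one, one_mul] at h1
      exact (mem_normalizer_iff.1 (h q) (w q)).2 h1

theorem inf_normalizer_prodSub (A B : Q → Subgroup G) :
    prodSub A ⊓ normalizer (prodSub B : Set (G ≀ᵣ Q)) =
      prodSub fun q => A q ⊓ normalizer (B q : Set G) := by
  ext x
  rw [mem_inf]
  constructor
  · rintro ⟨h1, h2⟩
    exact ⟨h1.1, fun q => ⟨h1.2 q, (mem_normalizer_prodSub h1).1 h2 q⟩⟩
  · intro h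
    have h1 : x ∈ prodSub A := ⟨h.1, fun q => (h.2 q).1⟩
    exact ⟨h1, (mem_normalizer_prodSub h1).2 fun q => (h.2 q).2⟩

/-- a product subgroup -/
def IsPr (V : Subgroup (G ≀ᵣ Q)) : Prop := ∃ A : Q → Subgroup G, V = prodSub A

theorem isPr_iff {V : Subgroup (G ≀ᵣ Q)} : IsPr V ↔ V ≤ base G Q ∧ hull V = V := by
  constructor
  · rintro ⟨A, rfl⟩
    exact ⟨prodSub_le_base A, hull_prodSub A⟩
  · rintro ⟨-, h⟩
    exact ⟨_, h.symm⟩

/-- the sum over the chains in the base group is a sum over normal chains of product subgroups -/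
theorem sum_base {p : ℕ} [hp : Fact p.Prime] [Finite G] [Finite Q]
    (f : Finset (Subgroup (G ≀ᵣ Q)) → ℤ)
    (hf : ∀ s t : Finset (Subgroup (G ≀ᵣ Q)), stab s = stab t → f s = f t) :
    ∑ s ∈ (chains p (G ≀ᵣ Q)).filter (fun s => ∀ V ∈ s, V ≤ base G Q), (-1 : ℤ) ^ s.card * f s =
      ∑ s ∈ (chains p (G ≀ᵣ Q)).filter (fun s => (∀ V ∈ s, IsPr V) ∧ Nml s),
        (-1 : ℤ) ^ s.card * f s := by
  rw [sum_closed (p := p) (fun V => V ≤ base G Q) hull (fun X => le_hull)
    (fun X _ => prodSub_le_base _) (fun X => hull_prodSub _) (fun X Y => hull_mono)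
    (fun X _ => normalizer_hull X) ?_ f hf]
  · have h7 := sum_normal_pred (p := p) (fun s : Finset (Subgroup (G ≀ᵣ Q)) => ∀ V ∈ s, IsPr V)
      ?_ f hf
    · refine Eq.trans ?_ (h7.trans ?_)
      · refine Finset.sum_congr ?_ fun _ _ => rfl
        ext s
        simp only [Finset.mem_filter, isPr_iff]
      · refine Finset.sum_congr ?_ fun _ _ => rfl
        ext s
        simp only [Finset.mem_filter]
    · intro s hs hn hP V hV
      rw [mem_tg] at hV
      rcases hV with h | h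
      · exact hP V h.1
      · obtain ⟨A, hA⟩ := hP _ (x0_spec hs.2 hn).1
        obtain ⟨B, hB⟩ := hP _ (q0_spec hs.2 hn).1
        rw [h.1, tt, hA, hB, inf_normalizer_prodSub]
        exact ⟨_, rfl⟩
  · intro X hX hXp
    refine isPGroup_prodSub.2 fun q => ?_
    unfold pr
    exact IsPGroup.map (hXp.comap_of_injective _ incl_injective) _

end

end P179H443
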