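import Vale.Agent.P179.R2.H443.WrCnt
import Vale.Agent.P179.R2.H854.Ph3

/-!
# The hypotheses (2) and (3) of the wreath formula
-/

namespace P179H443

open Subgroup P179A P179C P179H524 P179R RegularWreathProduct P179H854

open scoped Classical

universe u

variable {p : ℕ} [hp : Fact p.Prime] {k : Type u} [Field k] [IsAlgClosed k] [CharP k p]
  {G : Type} [Group G] [Fintype G] {Q : Type} [Group Q] [Fintype Q]

theorem bR_eq_wrSub (K : Subgroup G) : bR Q K = wrSub K Q := rfl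

theorem dD_eq_dgSub (K : Subgroup G) : dD Q K = dgSub K Q := by
  ext w
  rw [mem_dD, mem_dgSub]
  constructor
  · rintro ⟨x, hx, h⟩
    exact ⟨x, hx, funext h⟩
  · rintro ⟨x, hx, h⟩
    exact ⟨x, hx, congrFun h⟩

/-- **(2)** -/
theorem wt_bR (hQ : Nat.card Q = p) (e : MonoidAlgebra k G)
    (he : e ∈ Subalgebra.center k (MonoidAlgebra k G)) (K : Subgroup G)
    (hZ : ZO (trunc K e)) :
    wt (ehat Q e) (bR Q K) =
      wt e K ^ p + ((p : ℤ) - 1) * (Nat.card K : ℤ) ^ (p - 1) * wt e K := by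
  have h1 := nT_wrSub hQ e he K hZ
  have h2 := card_wrSub (Q := Q) K
  have h3 : (p : ℤ) * nT (ehat Q e) (wrSub K Q) =
      (nT e K : ℤ) ^ p + ((p : ℤ) - 1) * nT e K := by
    have h4 : ((p - 1 : ℕ) : ℤ) = (p : ℤ) - 1 := by
      rw [Nat.cast_sub hp.out.one_le, Nat.cast_one]
    rw [← h4]
    exact_mod_cast h1
  have h5 : (Nat.card K : ℤ) ^ p = (Nat.card K : ℤ) ^ (p - 1) * (Nat.card K : ℤ) := by
    rw [← pow_succ, Nat.sub_add_cancel hp.out.one_le]
  unfold wt
  rw [bR_eq_wrSub, h2, hQ]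
  push_cast
  rw [mul_assoc, h3, mul_pow, h5]
  ring

/-- **(3)** -/
theorem wt_dD (hQ : Nat.card Q = p) (e : MonoidAlgebra k G)
    (he : e ∈ Subalgebra.center k (MonoidAlgebra k G)) (K : Subgroup G) :
    wt (ehat Q e) (dD Q K) = p * wt e K := by
  unfold wt
  rw [dD_eq_dgSub, nT_dgSub hQ e he K, card_dgSub, hQ]
  push_cast
  ring

end P179H443
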