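import Vale.Agent.P179.R2.H443.KnLev
import Vale.Agent.P179.R2.H351.Ind13

/-!
# The equality and the congruence for the blocks which satisfy `AbelianGood` and `Level`
-/

namespace P179H443

open Subgroup P179H524 P179R P179Y P179H292 P179H351

open P179B (inertialIndex inertialGroup Solved Level AbelianGood PowerFaithful)

open scoped Classical

universe u

variable {p : ℕ} [hp : Fact p.Prime] {k : Type u} [Field k] [IsAlgClosed k] [hk : CharP k p]
  (red : integralClosure ℤ ℂ →+* k)

/-- **the congruence modulo `p ^ (a + 1)`** -/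
theorem modEq_of_lev {a : ℕ} {G : Type} [Group G] [Finite G] {B : MonoidAlgebra k G}
    (hB : P179B.IsBlock B) {D : Subgroup G} (hD : P179B.IsDefectGroup B D)
    (hab : ∀ x ∈ D, ∀ y ∈ D, x * y = y * x) {β : MonoidAlgebra k (centralizer (D : Set G))}
    (hβ : P179B.IsBlock β) (hβB : P179B.InducesTo β B)
    (h : PowerFaithful p a D β ∨ (2 < p ∧ Level p a D β)) :
    P179B.numSimpleIn B ≡ P179B.numWeightsIn p red B [MOD p ^ (a + 1)] := by
  rcases h with h | ⟨hp2, h⟩
  · exact modEq_of_faithful red hB hD hab hβ hβB h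
  · exact modEq_of_solved red hp2 hB hD hab hβ hβB h

/-- **the equality** -/
theorem eq_of_abelianGood {G : Type} [Group G] [Finite G] {B : MonoidAlgebra k G}
    (hB : P179B.IsBlock B) (h : AbelianGood p B) :
    P179B.numSimpleIn B = P179B.numWeightsIn p red B := by
  obtain ⟨hp2, D, b, hD, hab, hb, hbB, h | ⟨M, hMn, hMp, h⟩⟩ := h
  · exact eq_of_solved red hp2 hB hD hab hb hbB h
  · exact eq_of_solved_normal red hp2 M hMp hB hD hab hb hbB h

end P179H443
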