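import Vale.Agent.P179.R2.H292.LDefsD
import Vale.Agent.P179.R2.H450.GrowDef

/-!
# Abelian `p`-groups with a group of automorphisms for which the equality holds
-/

namespace P179B

open Subgroup

/-- The elements `u ≠ 1` of `K` with a centraliser in `S` larger than `C_S(K)` lie in the union of
`s ≥ 0` subgroups which do not contain `K`, and `|S / C_S(K)| + s < p` (for example,
`2 |S / C_S(K)| ≤ p`, `p` odd). -/
def FewFixed (p : ℕ) {G : Type*} [Group G] (K S : Subgroup G) : Prop :=
  ∃ (s : ℕ) (H : Fin s → Subgroup G), (∀ i, ¬ K ≤ H i) ∧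
    (∀ u ∈ K, u ≠ 1 → (∃ n ∈ S, n * u * n⁻¹ = u ∧ n ∉ centralizer (K : Set G)) →
      ∃ i, u ∈ H i) ∧ (centralizer (K : Set G)).relIndex S + s < p

/-- Conditions on the abelian `p`-group `K` and a group `S` acting on `K` by conjugation, where
`e = |S / C_S(K)|`: `K` is a product of two cyclic groups `≠ 1`, not both of order `p > 3`
(`RankTwoNotElem`); or the `i`-th smallest cyclic factor of `K` has order at least `p ^ (facB i)` for
all `i ≥ 1`; or the group `S / C_S(K)` is abelian and the `i`-th smallest cyclic factor of `K` has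
order at least `p ^ (facA i)` for all `i ≥ 1`; or `e ≤ p ^ j`, all cyclic factors of `K` have order
at least `p ^ j` and the `i`-th smallest one has order at least `p ^ ((i - 1) j + 1)` for all
`i ≥ 1`; or `e < p - 1` and all cyclic factors of `K` have order at least `p ^ 3`, or at least `p ^ 2`
if `e ≤ (p - 2 - e) ^ 2`; or few elements of `K` have a larger centraliser in `S` than `K`
(`FewFixed`); or `S / C_S(K)` acts freely on `K \ {1}` and `e` is less than the exponent of `K`, or
the number of the `x ∈ K` with `x ^ p = 1` is at most the exponent of `K`. -/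
def Known (p : ℕ) {G : Type*} [Group G] (K S : Subgroup G) : Prop :=
  RankTwoNotElem p K ∨ GrowBy facB p K ∨
    ((∀ s ∈ S, ∀ t ∈ S, s * t * s⁻¹ * t⁻¹ ∈ centralizer (K : Set G)) ∧ GrowBy facA p K) ∨
    (∃ j : ℕ, (centralizer (K : Set G)).relIndex S ≤ p ^ j ∧
      GrowBy (fun i => max j ((i - 1) * j + 1)) p K) ∨
    ((centralizer (K : Set G)).relIndex S + 1 < p ∧ (GrowBy (fun _ => 3) p K ∨
      ((centralizer (K : Set G)).relIndex S ≤ (p - 2 - (centralizer (K : Set G)).relIndex S) ^ 2 ∧
        GrowBy (fun _ => 2) p K))) ∨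
    FewFixed p K S ∨
    ((∀ u ∈ K, u ≠ 1 → ∀ s ∈ S, s * u * s⁻¹ = u → s ∈ centralizer (K : Set G)) ∧
      ((centralizer (K : Set G)).relIndex S < Monoid.exponent K ∨
        Nat.card {x : G // x ∈ K ∧ x ^ p = 1} ≤ Monoid.exponent K))

end P179B
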