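import Vale.Agent.P179.R2.H292.LDefsE

/-!
# Classes of abelian defect groups closed under direct factors
-/

namespace P179B

open Subgroup

/-- The class `Cl` of groups is closed under isomorphisms and direct factors. -/
def FactorClosed (Cl : ∀ (K : Type) [Group K], Prop) : Prop :=
  (∀ (K K' : Type) [Group K] [Group K'], Nonempty (K ≃* K') → Cl K → Cl K') ∧
    ∀ (K K' : Type) [Group K] [Group K'], Cl (K × K') → Cl K

section

variable (p : ℕ) {k : Type*} [Field k] (red : integralClosure ℤ ℂ →+* k)
  (Cl : ∀ (K : Type) [Group K], Prop)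

/-- `l(B) = |W_p(B)|` for all blocks `B` of all finite groups with an abelian defect group in the
class `Cl`. -/
def WeightConjAb : Prop :=
  ∀ (G : Type) [Group G] [Finite G] (B : MonoidAlgebra k G) (D : Subgroup G), IsBlock B →
    IsDefectGroup B D → (∀ x ∈ D, ∀ y ∈ D, x * y = y * x) → Cl D →
    numSimpleIn B = numWeightsIn p red B

end

/-- `K` is isomorphic to a direct factor of `D`, and `x ^ (p ^ a) = 1` for `x ∈ K`. -/
def SmallFactor (p a : ℕ) {G : Type} [Group G] (D : Subgroup G) (K : Type) [Group K] : Prop :=
  (∀ x : K, x ^ p ^ a = 1) ∧ ∃ (K' : Type) (_ : Group K'), Nonempty (D ≃* K × K')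

/-- `K` is isomorphic to a direct factor of `D` different from `D`. -/
def ProperFactor {G : Type} [Group G] (D : Subgroup G) (K : Type) [Group K] : Prop :=
  ∃ (K' : Type) (_ : Group K'), Nontrivial K' ∧ Nonempty (D ≃* K × K')

/-- The group `G` has no normal `p`-subgroup `≠ 1`, and, for the defect group `D` of the block `B`
of `G`, a block `b` of `C_G(D)` with `b^G = B` and its inertial group `T`, `[D, T] = D` (that is,
`C_D(T) = 1` if `D` is abelian), the inertial index `e` is larger than `p / 2`, for `p` odd `D` is
not a product of two cyclic groups not both of order `p > 3`, and not `GrowingFactors`, and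
`l(B) ≡ |W_p(B)|` modulo the exponent of `D`. -/
def SpecialBlock (p : ℕ) {k : Type*} [Field k] (red : integralClosure ℤ ℂ →+* k) {G : Type*}
    [Group G] [Finite G] (B : MonoidAlgebra k G) (D : Subgroup G)
    (b : MonoidAlgebra k (centralizer (D : Set G))) : Prop :=
  (∀ M : Subgroup G, M.Normal → IsPGroup p M → M = ⊥) ∧ hyperfocal D b = D ∧
    p < 2 * inertialIndex D b ∧ (2 < p → ¬ GoodFactors p D) ∧
    numSimpleIn B ≡ numWeightsIn p red B [MOD Monoid.exponent D]

/-- `l(B) = |W_p(B)|` for the special blocks `B` (`SpecialBlock`) of the finite groups `G` with an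
abelian defect group `D` in the class `Cl` such that the equality holds for all blocks whose defect
groups are isomorphic to direct factors `≠ D` of `D`. -/
def WeightConjAbSpecial (p : ℕ) {k : Type*} [Field k] (red : integralClosure ℤ ℂ →+* k)
    (Cl : ∀ (K : Type) [Group K], Prop) : Prop :=
  ∀ (G : Type) [Group G] [Finite G] (B : MonoidAlgebra k G) (D : Subgroup G)
    (b : MonoidAlgebra k (centralizer (D : Set G))), IsBlock B → IsDefectGroup B D →
    (∀ x ∈ D, ∀ y ∈ D, x * y = y * x) → Cl D → IsBlock b → InducesTo b B →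
    WeightConjAb p red (fun (K : Type) [Group K] => ProperFactor D K) →
    SpecialBlock p red B D b → numSimpleIn B = numWeightsIn p red B

/-- For the abelian defect group `D` of the block `B` of `G`, a block `b` of `C_G(D)` with
`b^G = B`, its inertial group `T` and a normal `p`-subgroup `M` of `G`: for the group `R` of the
fixed points of `C_T(M)` on `D` and `L = T C_G(R)`, the group `R` is normal in `L`, and there is a
block `B'` of `L` with `B'^G = B`, with the defect group `D`, with a block `b'` of `C_L(D)` with
`b'^L = B'` and the same inertial group `T`, such that `l(B) = l(B')` and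
`|W_p(B)| = |W_p(B')|`. -/
def HasLocalBlock (p : ℕ) {k : Type*} [Field k] (red : integralClosure ℤ ℂ →+* k) {G : Type*}
    [Group G] [Finite G] (B : MonoidAlgebra k G) (D : Subgroup G)
    (b : MonoidAlgebra k (centralizer (D : Set G))) (M : Subgroup G) : Prop :=
  ∃ (R L : Subgroup G) (B' : MonoidAlgebra k L)
    (b' : MonoidAlgebra k (centralizer ((D.subgroupOf L : Subgroup L) : Set L))),
    (∀ x, x ∈ R ↔ x ∈ D ∧ ∀ t ∈ inertialGroup D b, t ∈ centralizer (M : Set G) →
      t * x * t⁻¹ = x) ∧
    L = inertialGroup D b ⊔ centralizer (R : Set G) ∧ (R.subgroupOf L).Normal ∧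
    IsBlock B' ∧ InducesTo B' B ∧ IsDefectGroup B' (D.subgroupOf L) ∧ IsBlock b' ∧
    InducesTo b' B' ∧
    (∀ t : L, t ∈ inertialGroup (D.subgroupOf L) b' ↔ (t : G) ∈ inertialGroup D b) ∧
    numSimpleIn B = numSimpleIn B' ∧ numWeightsIn p red B = numWeightsIn p red B'

end P179B
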