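import Vale.Agent.P179.H166.KN1

/-!
# Restricting a sum over chains with a property to the normal chains
-/

namespace P179H443

open Subgroup P179A P179N

open scoped Classical

variable {p : ℕ} {G : Type*} [Group G]

/-- the sum over the chains with a property which is stable under the toggle equals the sum over
the normal chains with this property -/
theorem sum_normal_pred [hp : Fact p.Prime] [Finite G] (P : Finset (Subgroup G) → Prop)
    (hP : ∀ s, IsPChain p s → ¬ Nml s → P s → P (tg s)) (f : Finset (Subgroup G) → ℤ)
    (hf : ∀ s t : Finset (Subgroup G), stab s = stab t → f s = f t) :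
    ∑ s ∈ (chains p G).filter P, (-1 : ℤ) ^ s.card * f s =
      ∑ s ∈ (chains p G).filter (fun s => P s ∧ Nml s), (-1 : ℤ) ^ s.card * f s := by
  rw [← Finset.sum_filter_add_sum_filter_not ((chains p G).filter P) Nml]
  have h0 : ∑ s ∈ ((chains p G).filter P).filter (fun s => ¬ Nml s),
      (-1 : ℤ) ^ s.card * f s = 0 := by
    refine Finset.sum_involution (fun s _ => tg s) ?_ ?_ ?_ ?_
    · intro s hs
      rw [Finset.mem_filter, Finset.mem_filter, mem_chains] at hs
      rw [hf (tg s) s (stab_tg hs.1.1 hs.2), sign_tg]; ring
    · intro s hs _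
      exact tg_ne
    · intro s hs
      rw [Finset.mem_filter, Finset.mem_filter, mem_chains] at hs ⊢
      exact ⟨⟨isPChain_tg hs.1.1 hs.2, hP s hs.1.1 hs.2 hs.1.2⟩, not_nml_tg hs.1.1 hs.2⟩
    · intro s hs
      rw [Finset.mem_filter, Finset.mem_filter, mem_chains] at hs
      exact tg_tg hs.1.1 hs.2
  rw [h0, add_zero, Finset.filter_filter]

end P179H443
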