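import Vale.Agent.P179.R2.H443.RelA
import Vale.Agent.P179.R2.H443.LDefsR

/-!
# The local block of a block with abelian defect group and a normal `p`-subgroup
-/

namespace P179H443

open Subgroup Finset P179H524 P179A P179C P179P P179Y P179H292 P179H725 P179H450 P179R P179H12
  P179H854 P179H364 P179H872

open P179B (NChain inertialGroup inertialIndex)

open scoped Classical

universe u

section Loc

variable {p : ℕ} [hp : Fact p.Prime] {k : Type u} [Field k] [IsAlgClosed k] [hk : CharP k p]
  (red : integralClosure ℤ ℂ →+* k)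

/-- the local block of a block of a group with a normal `p`-subgroup `M` -/
theorem exists_locB (hE : EqwStmt p k) {G : Type} [Group G] [Finite G]
    (M : Subgroup G) [hMn : M.Normal] (hM : IsPGroup p M) {B : MonoidAlgebra k G}
    {D : Subgroup G} {β : MonoidAlgebra k (centralizer (D : Set G))} (hB : IsBlock B)
    (hDB : IsDefectGroup B D) (hab : ∀ a ∈ D, ∀ b ∈ D, a * b = b * a) (hβ : IsBlock β)
    (hβB : InducesTo β B) :
    ∃ (R L : Subgroup G) (b : MonoidAlgebra k L)
      (ε : MonoidAlgebra k (centralizer ((D.subgroupOf L : Subgroup L) : Set L))),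
      (∀ x, x ∈ R ↔ x ∈ D ∧ ∀ t ∈ inertialGroup D β, t ∈ centralizer (M : Set G) →
        t * x * t⁻¹ = x) ∧
      L = inertialGroup D β ⊔ centralizer (R : Set G) ∧ (R.subgroupOf L).Normal ∧
      IsBlock b ∧ InducesTo b B ∧ IsDefectGroup b (D.subgroupOf L) ∧ IsBlock ε ∧
      InducesTo ε b ∧
      (∀ t : L, t ∈ inertialGroup (D.subgroupOf L) ε ↔ (t : G) ∈ inertialGroup D β) ∧
      numSimpleIn B = numSimpleIn b ∧ numWeightsIn p red B = numWeightsIn p red b := by
  have := Fintype.ofFinite G
  obtain ⟨l, hl, hlz, hlβ⟩ := exists_BP_of_subblock (p := p) hB hDB hab hβ hβB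
  have hST : stabT D l = inertialGroup D β := stabT_eq_inertialGroup hβ hlβ
  have hD : IsPGroup p D := (exists_BP_of_block (p := p) B hB D hDB).1
  have hMD : M ≤ D := P179H725.le_defect (p := p) hB hDB M hM
  have hab' : D ≤ centralizer (D : Set G) := by
    intro x hx
    rw [mem_centralizer_iff]
    intro y hy
    exact hab y hy x hx
  have hT := hT_of_block hB hDB hD hab hl hlz
  have hCN : centralizer (D : Set G) ≤ centralizer (M : Set G) := centralizer_le hMD
  have hDN : D ≤ centralizer (M : Set G) := hab'.trans hCN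
  have hNn : (centralizer (M : Set G)).Normal := inferInstance
  have hmN : MulH (centralizer (M : Set G)) l := BP.mulH hl hD hab' hCN
  obtain ⟨b1, hb1, hlb1⟩ := exists_blk hmN
  have hbcf : IsCF (fun g => B.coeff g) := (P179C.mem_center_iff _).1 hB.1
  have hbb : conv (fun g => B.coeff g) (fun g => B.coeff g) = fun g => B.coeff g := by
    funext g
    rw [← coeff_mul_eq_conv, hB.2.1]
  -- the fixed points of `C_T(M)`
  obtain ⟨R, hR⟩ : ∃ R : Subgroup G, R = D ⊓ centralizer
      ((stabT D l ⊓ centralizer (M : Set G) : Subgroup G) : Set G) := ⟨_, rfl⟩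
  have hRmem : ∀ x, x ∈ R ↔ x ∈ D ∧
      ∀ t ∈ stabT D l, t ∈ centralizer (M : Set G) → t * x * t⁻¹ = x := by
    intro x
    rw [hR, Subgroup.mem_inf, mem_centralizer_iff]
    refine and_congr_right fun _ => ⟨fun h1 t ht htM => ?_, fun h1 t ht => ?_⟩
    · rw [h1 t ⟨ht, htM⟩, mul_inv_cancel_right]
    · have h2 := h1 t ht.1 ht.2
      calc t * x = t * x * t⁻¹ * t := by group
        _ = x * t := by rw [h2]
  have hRD : R ≤ D := fun x hx => ((hRmem x).1 hx).1
  have hMR : M ≤ R := by
    intro x hx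
    rw [hRmem]
    refine ⟨hMD hx, fun t _ htM => ?_⟩
    rw [← (mem_centralizer_iff.1 htM) x hx]
    group
  have hCRM : centralizer (R : Set G) ≤ centralizer (M : Set G) := centralizer_le hMR
  have hTN : stabT D l ≤ normalizer (D : Set G) := stabT_le_norm D l
  have hRT : ∀ t ∈ stabT D l, ∀ x ∈ R, t * x * t⁻¹ ∈ R := by
    intro t ht x hx
    rw [hRmem] at hx ⊢
    refine ⟨(mem_normalizer_iff.mp (hTN ht) x).mp hx.1, fun s hs hsM => ?_⟩
    have h1 := hx.2 (t⁻¹ * s * t) (mul_mem (mul_mem (inv_mem ht) hs) ht) (by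
      have := hNn.conj_mem s hsM t⁻¹
      rwa [inv_inv] at this)
    calc s * (t * x * t⁻¹) * s⁻¹ = t * (t⁻¹ * s * t * x * (t⁻¹ * s * t)⁻¹) * t⁻¹ := by group
      _ = t * x * t⁻¹ := by rw [h1]
  have hCT : ∀ t ∈ stabT D l, ∀ x ∈ centralizer (R : Set G),
      t * x * t⁻¹ ∈ centralizer (R : Set G) := by
    intro t ht x hx
    rw [mem_centralizer_iff] at hx ⊢
    intro r hr
    have h1 := hx (t⁻¹ * r * t) (by
      have := hRT t⁻¹ (inv_mem ht) r hr
      rwa [inv_inv] at this)
    calc r * (t * x * t⁻¹) = t * (t⁻¹ * r * t * x) * t⁻¹ := by group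
      _ = t * x * t⁻¹ * r := by rw [h1]; group
  have hCDC : centralizer (D : Set G) ≤ centralizer (R : Set G) := centralizer_le hRD
  have hDC : D ≤ centralizer (R : Set G) := hab'.trans hCDC
  have hmC : MulH (centralizer (R : Set G)) l := BP.mulH hl hD hab' hCDC
  -- the number of simple modules
  have e1 : numSimpleIn B =
      numSimpleIn (mkF fun g : (stabT D l ⊔ centralizer (R : Set G) : Subgroup G) =>
        eH (centralizer (R : Set G)) l g) := by
    rw [P179H443.numSimple_fr (p := p) (H := centralizer (M : Set G)) hB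
      (fun x hx => idem_supp (p := p) M hM hbcf hbb hx) hmN hlz hb1 hlb1, ← eH_eq hb1 hlb1,
      ← hE G D M R l hl hD hab' hT hMD (fun t _ x hx => hMn.conj_mem x hx t) hR]
    exact P179H292.numSimple_congr (stH_eq_sup hl hD hab' hT hDN hCN) _
  -- the block of `L`
  set L : Subgroup G := stabT D l ⊔ centralizer (R : Set G) with hL
  have hTL : stabT D l ≤ L := le_sup_left
  have hCL : centralizer (R : Set G) ≤ L := le_sup_right
  have hCDL : centralizer (D : Set G) ≤ L := hCDC.trans hCL
  have hDL : D ≤ L := hDC.trans hCL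
  have hmL : MulH L l := BP.mulH hl hD hab' hCDL
  obtain ⟨bL, hbL, hlbL, hebL⟩ := eH_spec hmL
  have hMn' : (M.subgroupOf L).Normal := inferInstance
  have hLinf : ∀ x ∈ L, x ∈ centralizer (M : Set G) → x ∈ centralizer (R : Set G) := by
    intro x hx hxM
    obtain ⟨t, ht, c, hc, rfl⟩ := mem_sup_of_norm hCT hx
    refine mul_mem ?_ hc
    have htM : t ∈ centralizer (M : Set G) := by
      have h1 := mul_mem hxM (inv_mem (hCRM hc))
      rwa [mul_inv_cancel_right] at h1
    rw [mem_centralizer_iff]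
    intro r hr
    have h1 := ((hRmem r).1 hr).2 t ht htM
    calc r * t = t * r * t⁻¹ * t := by rw [h1]
      _ = t * r := by group
  have hsupp : ∀ x, x ∉ centralizer (R : Set G) → eH L l x = 0 := by
    intro x hx
    rw [hebL]
    by_cases hxL : x ∈ L
    · unfold bF
      rw [ext_of_mem L _ hxL]
      have hbb' : conv (fun g => bL.coeff g) (fun g => bL.coeff g) = fun g => bL.coeff g := by
        funext g
        rw [← coeff_mul_eq_conv, hbL.2.1]
      refine idem_supp (p := p) (M.subgroupOf L) hM.comap_subtype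
        ((P179C.mem_center_iff _).1 hbL.1) hbb' (g := ⟨x, hxL⟩) fun h => hx (hLinf x hxL ?_)
      rw [mem_centralizer_iff] at h ⊢
      intro m hm
      have h2 := h ⟨m, hDL (hMD hm)⟩ (mem_subgroupOf.2 hm)
      exact congrArg Subtype.val h2
    · exact ext_of_not_mem L _ hxL
  have hst : ∀ g ∈ L, g ∈ stH (centralizer (R : Set G)) l := by
    have h1 : L ≤ stH (centralizer (R : Set G)) l := by
      refine sup_le (fun t ht => ?_) le_stH
      refine stabT_le_stH hl hCDC ht ?_
      rw [mem_normalizer_iff]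
      intro x
      refine ⟨fun hx => hCT t ht x hx, fun hx => ?_⟩
      have h2 := hCT t⁻¹ (inv_mem ht) _ hx
      have h3 : t⁻¹ * (t * x * t⁻¹) * t⁻¹⁻¹ = x := by group
      rwa [h3] at h2
    exact fun g hg => h1 hg
  have e2 : numSimpleIn (mkF fun g : L => eH (centralizer (R : Set G)) l g) =
      numSimpleIn bL := by
    rw [← eH_eq_of_supp hCL hmC hmL hst hsupp, hebL, mkF_bF]
  have hdf := isDefectGroup_low (p := p) hl hD hab hT hDL hCDL hbL hlbL
  have hRn : (R.subgroupOf L).Normal := by
    refine ⟨fun x hx g => ?_⟩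
    rw [mem_subgroupOf] at hx ⊢
    obtain ⟨t, ht, c, hc, htc⟩ := mem_sup_of_norm hCT g.2
    have h1 : c * (x : G) * c⁻¹ = x := by
      rw [← (mem_centralizer_iff.1 hc) x hx]
      group
    have h2 : ((g * x * g⁻¹ : L) : G) = t * (c * x * c⁻¹) * t⁻¹ := by
      push_cast
      rw [htc]
      group
    rw [h2, h1]
    exact hRT t ht x hx
  have hRp : IsPGroup p (R.subgroupOf L) := (hD.to_le hRD).comap_subtype
  have habL : ∀ a ∈ D.subgroupOf L, ∀ c ∈ D.subgroupOf L, a * c = c * a := fun a ha c hc =>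
    ((mem_centralizer_iff.1 (comm_subgroupOf hab' hDL ha)) c hc).symm
  obtain ⟨ε, hε, hlε, -⟩ := exists_root_below hl hD hab' hDL hCDL hβ hlβ
  refine ⟨R, L, bL, ε, fun x => by rw [hRmem, hST], by rw [hL, hST], hRn, hbL, ?_, hdf, hε,
    inducesTo_of_low (hl.restrict hDL hCDL) (Low.char hlbL) hlε, fun t => ?_, e1.trans e2, ?_⟩
  · -- the block induces to `B`
    intro z hz
    have hcf : IsCF (fun g => z.coeff g) := (P179C.mem_center_iff _).1 hz
    have h1 := hlz _ hcf
    rw [mkF_coeff] at h1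
    have h2 : InvOn L (fun x => if x ∈ L then z.coeff x else 0) := by
      refine ⟨fun c hc x => ?_, fun x hx => if_neg hx⟩
      have e : c * x * c⁻¹ ∈ L ↔ x ∈ L := by
        constructor
        · intro h
          have := mul_mem (mul_mem (inv_mem hc) h) hc
          have e1 : c⁻¹ * (c * x * c⁻¹) * c = x := by group
          rwa [e1] at this
        · intro h
          exact mul_mem (mul_mem hc h) (inv_mem hc)
      simp only [e, hcf c x]
    rw [← h1, hl.congr (a := fun g => z.coeff g) (b := fun x => if x ∈ L then z.coeff x else 0)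
      (fun x hx => (if_pos (hCDL hx)).symm), hlbL _ h2]
    conv_lhs => rw [← mkF_coeff z, trunc_mkF]
    congr 2
    funext h
    exact (if_pos h.2).symm
  · rw [← stabT_eq_inertialGroup hε hlε, mem_stabT_lres hDL hCDL, hST]
  · rw [numWeightsIn_below red hl hD hab' hT hDL hCDL hbL hlbL hdf hβ hlβ,
      numWeightsIn_eq_stabT red hB hDB hab hl hD hT hlz hβ hlβ]
    exact (P179H292.numSimple_congr (inf_eq_left.mpr hTL) _).symm

theorem hasLocalBlock (hE : EqwStmt p k) {G : Type} [Group G] [Finite G]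
    {B : MonoidAlgebra k G} (hB : P179B.IsBlock B)
    {D : Subgroup G} (hDB : P179B.IsDefectGroup B D)
    (hab : ∀ a ∈ D, ∀ b ∈ D, a * b = b * a)
    {β : MonoidAlgebra k (centralizer (D : Set G))} (hβ : P179B.IsBlock β)
    (hβB : P179B.InducesTo β B) (M : Subgroup G) [M.Normal] (hM : IsPGroup p M) :
    P179B.HasLocalBlock p red B D β M := by
  obtain ⟨R, L, b, ε, h1, h2, h3, h4, h5, h6, h7, h8, h9, h10, h11⟩ :=
    exists_locB red hE M hM hB hDB hab hβ ((P179B.inducesTo_iff β B).1 hβB)
  refine ⟨R, L, b, ε, h1, h2, h3, h4, (P179B.inducesTo_iff b B).2 h5, h6, h7,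
    (P179B.inducesTo_iff ε b).2 h8, h9, ?_, ?_⟩
  · rw [P179B.numSimpleIn_eq, P179B.numSimpleIn_eq, h10]
  · rw [P179B.numWeightsIn_eq, P179B.numWeightsIn_eq, h11]

end Loc

end P179H443
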