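import Vale.Agent.P179.R2.H443.Rd1
import Vale.Agent.P179.R2.H443.FinB
import Vale.Agent.P179.R2.H351.Ind8

/-!
# The reduction for classes of abelian defect groups closed under direct factors
-/

namespace P179H443

open Subgroup P179H524 P179R P179Y P179H292 P179H351

open P179B (inertialIndex inertialGroup regularElements GrowingFactors hyperfocal
  RankTwoNotElem GoodFactors FactorClosed WeightConjAb WeightConjAbSpecial SmallFactor
  ProperFactor SpecialBlock)

open scoped Classical

universe u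

section Gp

variable {p : ℕ} [hp : Fact p.Prime] {G : Type} [Group G]

/-- an internal direct factor is a direct factor -/
theorem equiv_of_isFactor {D K : Subgroup G} (hab : ∀ x ∈ D, ∀ y ∈ D, x * y = y * x)
    (h : IsFactor D K) : ∃ C : Subgroup G, Nonempty (D ≃* K × C) := by
  obtain ⟨hK, C, hC, hCK, hgen⟩ := h
  refine ⟨C, ⟨(MulEquiv.ofBijective
    ({ toFun := fun z => ⟨(z.1 : G) * z.2, mul_mem (hK z.1.2) (hC z.2.2)⟩
       map_one' := Subtype.ext (by simp)
       map_mul' := fun x y => Subtype.ext (by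
        change (x.1 : G) * y.1 * ((x.2 : G) * y.2) = (x.1 : G) * x.2 * (y.1 * y.2)
        have h1 := hab _ (hC x.2.2) _ (hK y.1.2)
        calc (x.1 : G) * y.1 * ((x.2 : G) * y.2) = x.1 * (y.1 * x.2) * y.2 := by group
          _ = x.1 * (x.2 * y.1) * y.2 := by rw [h1]
          _ = _ := by group) } : K × C →* D) ⟨?_, ?_⟩).symm⟩⟩
  · rw [injective_iff_map_eq_one]
    rintro ⟨x, c⟩ hxc
    have h1 : (x : G) * c = 1 := congrArg Subtype.val hxc
    have h2 : (c : G) = (x : G)⁻¹ := eq_inv_of_mul_eq_one_right h1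
    have h3 : (c : G) = 1 := hCK c c.2 (h2 ▸ inv_mem x.2)
    have h4 : (x : G) = 1 := by
      rw [h3, mul_one] at h1
      exact h1
    exact Prod.ext (Subtype.ext h4) (Subtype.ext h3)
  · rintro ⟨d, hd⟩
    obtain ⟨c, hc, x, hx, rfl⟩ := hgen d hd
    exact ⟨(⟨x, hx⟩, ⟨c, hc⟩), Subtype.ext (hab _ (hK hx) _ (hC hc))⟩

variable [Finite G]

/-- the commutator group of a coprime action is a direct factor -/
theorem isFactor_comm {D T F : Subgroup G} (hD : IsPGroup p D)
    (hab : ∀ x ∈ D, ∀ y ∈ D, x * y = y * x)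
    (hTN : T ≤ normalizer (D : Set G)) (hT : ¬ p ∣ (centralizer (D : Set G)).relIndex T)
    (hFT : F ≤ T) (hCF : centralizer (D : Set G) ≤ F) :
    IsFactor D (⁅F, D⁆ : Subgroup G) ∧
      ∀ x ∈ (⁅F, D⁆ : Subgroup G), (∀ t ∈ F, t * x * t⁻¹ = x) → x = 1 := by
  have hFN : F ≤ normalizer (D : Set G) := hFT.trans hTN
  have hF : ¬ p ∣ (centralizer (D : Set G)).relIndex F := by
    intro h1
    apply hT
    refine h1.trans ?_
    rw [← relIndex_mul_relIndex (centralizer (D : Set G)) F T hCF hFT]
    exact dvd_mul_right _ _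
  have hfix : ∀ d ∈ D, d ∈ D ⊓ centralizer (F : Set G) ↔ ∀ t ∈ F, t * d * t⁻¹ = d := by
    intro d hd
    rw [mem_inf, mem_centralizer_iff]
    refine ⟨fun h1 t ht => ?_, fun h1 => ⟨hd, fun t ht => ?_⟩⟩
    · rw [h1.2 t ht, mul_inv_cancel_right]
    · calc t * d = t * d * t⁻¹ * t := by group
        _ = d * t := by rw [h1 t ht]
  refine ⟨⟨comm_le hFN, D ⊓ centralizer (F : Set G), inf_le_left, fun x hx hxK => ?_,
    fun d hd => ?_⟩, fun x hx h => comm_inf_fix hD hab hFN hF hx h⟩
  · exact comm_inf_fix hD hab hFN hF hxK ((hfix x hx.1).1 hx)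
  · obtain ⟨y, hy, hyfix, z, hz, hyz⟩ := mem_fix_mul hD hab hFN hF hd
    exact ⟨y, (hfix y hy).2 hyfix, z, hz, hyz⟩

end Gp

section Main

variable {p : ℕ} [hp : Fact p.Prime] {k : Type u} [Field k] [IsAlgClosed k] [hk : CharP k p]
  (red : integralClosure ℤ ℂ →+* k)

/-- the congruence modulo the exponent, if the small direct factors are solved -/
theorem modEq_of_small (hE : EqwStmt p k) {G : Type} [Group G] [Finite G]
    {B : MonoidAlgebra k G} (hB : P179B.IsBlock B) {D : Subgroup G}
    (hD : P179B.IsDefectGroup B D) (hab : ∀ a ∈ D, ∀ b ∈ D, a * b = b * a) {a : ℕ}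
    (hex : ∃ d ∈ D, d ^ p ^ a ≠ 1)
    (h : WeightConjAb p red fun (K : Type) [Group K] => SmallFactor p a D K) :
    P179B.numSimpleIn B ≡ P179B.numWeightsIn p red B [MOD p ^ (a + 1)] := by
  obtain ⟨β, hβ, hβB⟩ := P179B.exists_root p hB hD
  have h1 : (p : ℤ) ^ (a + 1) ∣ (P179B.numSimpleIn B : ℤ) - P179B.numWeightsIn p red B := by
    refine w7Stmt_of red hE G B D β a hB hD hab hβ hβB hex fun K hK hKa => ?_
    intro X _ _ B' D' hB' hD' he
    obtain ⟨e⟩ := he
    have habD' : ∀ x ∈ D', ∀ y ∈ D', x * y = y * x := by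
      intro x hx y hy
      have h2 : e.symm ⟨x, hx⟩ * e.symm ⟨y, hy⟩ = e.symm ⟨y, hy⟩ * e.symm ⟨x, hx⟩ :=
        Subtype.ext (hab _ (hK.1 (e.symm ⟨x, hx⟩).2) _ (hK.1 (e.symm ⟨y, hy⟩).2))
      rw [← map_mul, ← map_mul] at h2
      exact congrArg Subtype.val (e.symm.injective h2)
    obtain ⟨C, ⟨f⟩⟩ := equiv_of_isFactor hab hK
    have h3 := h X B' D' hB' hD' habD' ⟨fun x => ?_, C, inferInstance,
      ⟨f.trans (MulEquiv.prodCongr e (MulEquiv.refl _))⟩⟩
    · rwa [P179B.numSimpleIn_eq, P179B.numWeightsIn_eq] at h3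
    · apply e.symm.injective
      rw [map_pow, map_one]
      exact Subtype.ext (hKa _ (e.symm x).2)
  rw [← Int.natCast_modEq_iff]
  refine Int.ModEq.symm ((Int.modEq_iff_dvd).2 ?_)
  exact_mod_cast h1

/-- **a block is special or satisfies the conjecture**, if the proper direct factors of its defect
group are solved -/
theorem special_or (hE : EqwStmt p k) {G : Type} [Group G] [Finite G] {B : MonoidAlgebra k G}
    (hB : P179B.IsBlock B) {D : Subgroup G} (hD : P179B.IsDefectGroup B D)
    (hab : ∀ x ∈ D, ∀ y ∈ D, x * y = y * x) {β : MonoidAlgebra k (centralizer (D : Set G))}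
    (hβ : P179B.IsBlock β) (hβB : P179B.InducesTo β B)
    (hprop : WeightConjAb p red (fun (K : Type) [Group K] => ProperFactor D K)) :
    P179B.numSimpleIn B = P179B.numWeightsIn p red B ∨ SpecialBlock p red B D β := by
  have hDp : IsPGroup p D := isPGroup_of_defect (p := p) hB hD
  obtain ⟨hwe, hnd⟩ := numWeights_le red hB hD hab hβ hβB
  have hTN : inertialGroup D β ≤ normalizer (D : Set G) := fun n hn => hn.1
  have hCT : centralizer (D : Set G) ≤ inertialGroup D β := by
    have := Fintype.ofFinite G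
    obtain ⟨l, hl, hlz, hlb⟩ := exists_BP_of_subblock (p := p) hB hD hab hβ
      ((P179B.inducesTo_iff β B).1 hβB)
    rw [← stabT_eq_inertialGroup hβ hlb]
    exact cent_le_stabT D l
  have hfac : ∀ K : Subgroup G, IsFactor D K → K ≠ D → EqFor p red K := by
    intro K hK hKD X _ _ B' D' hB' hD' he
    obtain ⟨e⟩ := he
    have habD' : ∀ x ∈ D', ∀ y ∈ D', x * y = y * x := by
      intro x hx y hy
      have h2 : e.symm ⟨x, hx⟩ * e.symm ⟨y, hy⟩ = e.symm ⟨y, hy⟩ * e.symm ⟨x, hx⟩ :=
        Subtype.ext (hab _ (hK.1 (e.symm ⟨x, hx⟩).2) _ (hK.1 (e.symm ⟨y, hy⟩).2))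
      rw [← map_mul, ← map_mul] at h2
      exact congrArg Subtype.val (e.symm.injective h2)
    obtain ⟨C, ⟨f⟩⟩ := equiv_of_isFactor hab hK
    have h3 := hprop X B' D' hB' hD' habD' ⟨C, inferInstance, ?_,
      ⟨f.trans (MulEquiv.prodCongr e (MulEquiv.refl _))⟩⟩
    · rwa [P179B.numSimpleIn_eq, P179B.numWeightsIn_eq] at h3
    · rw [← Finite.one_lt_card_iff_nontrivial]
      have h4 : Nat.card K < Nat.card D := lt_of_le_of_ne (card_le_of_le hK.1) fun h =>
        hKD (eq_of_le_of_card_ge hK.1 h.ge)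
      rw [Nat.card_congr f.toEquiv, Nat.card_prod] at h4
      by_contra h5
      have h6 : Nat.card C = 1 := le_antisymm (not_lt.1 h5) Nat.card_pos
      rw [h6, mul_one] at h4
      exact lt_irrefl _ h4
  by_cases hM : ∀ M : Subgroup G, M.Normal → IsPGroup p M → M = ⊥
  · by_cases hyp : hyperfocal D β = D
    · by_cases he : 2 * inertialIndex D β ≤ p
      · have := Fintype.ofFinite G
        have h1 := P179I.equality_half red hB hD hab hβ ((P179B.inducesTo_iff β B).1 hβB) he
        left
        rwa [P179B.numSimpleIn_eq, P179B.numWeightsIn_eq]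
      · push Not at he
        by_cases hg : 2 < p ∧ GoodFactors p D
        · obtain ⟨hp2, hg | hg⟩ := hg
          · have h1 : EqFor p red D := eqFor_rankTwo red (bdSq red (by omega)) (by omega) hab hg
            have h2 := h1 G B D hB hD ⟨MulEquiv.refl _⟩
            left
            rwa [P179B.numSimpleIn_eq, P179B.numWeightsIn_eq]
          · exact Or.inl (eq_of_core red hp2 hE hB hD hab hβ hβB (Or.inl rfl) hg)
        · refine Or.inr ⟨hM, hyp, he, fun h1 h2 => hg ⟨h1, h2⟩, ?_⟩
          by_cases hD1 : D = ⊥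
          · subst hD1
            have h1 : Monoid.exponent (⊥ : Subgroup G) = 1 := by
              rw [Monoid.exp_eq_one_iff]
              exact inferInstance
            rw [h1]
            exact Nat.modEq_one
          · obtain ⟨a, ha, z, hz, hza⟩ := exists_exponent_of_comm hDp hab hD1
            rw [ha]
            have h1 : (p : ℤ) ^ (a + 1) ∣
                (P179B.numSimpleIn B : ℤ) - P179B.numWeightsIn p red B := by
              refine w7Stmt_of red hE G B D β a hB hD hab hβ hβB ⟨z, hz, hza⟩ fun K hK hKa => ?_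
              refine hfac K hK fun h2 => hza (hKa z ?_)
              rw [h2]
              exact hz
            rw [← Int.natCast_modEq_iff]
            refine Int.ModEq.symm ((Int.modEq_iff_dvd).2 ?_)
            exact_mod_cast h1
    · have h1 : EqFor p red (⁅inertialGroup D β, D⁆ : Subgroup G) := by
        refine hfac _ (isFactor_comm hDp hab hTN hnd le_rfl hCT).1 fun h2 => hyp ?_
        rw [hyperfocal_eq, h2]
      left
      rw [P179B.numSimpleIn_eq, P179B.numWeightsIn_eq]
      exact eq_of_hyp red (P179H843.watX p k) (P179H450.defQuo p k) _ G rfl B D β hB hD hab hβ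
        ((P179B.inducesTo_iff β B).1 hβB) h1
  · push Not at hM
    obtain ⟨M, hMn, hMp, hM1⟩ := hM
    have hMD : M ≤ D := P179H725.le_defect (p := p) hB hD M hMp
    have hF := isFactor_comm (F := inertialGroup D β ⊓ centralizer (M : Set G)) hDp hab hTN hnd
      inf_le_left (le_inf hCT (centralizer_le hMD))
    have h1 : EqFor p red
        (⁅inertialGroup D β ⊓ centralizer (M : Set G), D⁆ : Subgroup G) := by
      refine hfac _ hF.1 fun h2 => hM1 ?_
      rw [eq_bot_iff]
      intro x hx
      refine mem_bot.2 (hF.2 x (by rw [h2]; exact hMD hx) fun t ht => ?_)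
      rw [← (mem_centralizer_iff.1 ht.2) x hx, mul_inv_cancel_right]
    left
    rw [P179B.numSimpleIn_eq, P179B.numWeightsIn_eq]
    exact eq_of_eqw red hE (P179H450.defQuo p k) M hMp hB hD hab hβ
      ((P179B.inducesTo_iff β B).1 hβB) h1

/-- **the reduction** -/
theorem weightConjAb_of_special (hE : EqwStmt p k) {Cl : ∀ (K : Type) [Group K], Prop}
    (hCl : FactorClosed Cl) (h : WeightConjAbSpecial p red Cl) :
    ∀ (N : ℕ) (G : Type) [Group G] [Finite G] (B : MonoidAlgebra k G) (D : Subgroup G),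
      P179B.IsBlock B → P179B.IsDefectGroup B D → (∀ x ∈ D, ∀ y ∈ D, x * y = y * x) → Cl D →
      Nat.card D = N → P179B.numSimpleIn B = P179B.numWeightsIn p red B := by
  intro N
  induction N using Nat.strong_induction_on with
  | _ N ih =>
  intro G _ _ B D hB hD hab hDCl hN
  obtain ⟨β, hβ, hβB⟩ := P179B.exists_root p hB hD
  -- the smaller direct factors are solved
  have hprop : WeightConjAb p red (fun (K : Type) [Group K] => ProperFactor D K) := by
    intro X _ _ B' D' hB' hD' habD' hDD'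
    obtain ⟨K', _, hK', ⟨f⟩⟩ := hDD'
    have hfin : Finite (D' × K') := Finite.of_equiv D f.toEquiv
    have hfin' : Finite K' := Finite.of_injective (fun y : K' => ((1 : D'), y)) fun x y h =>
      (Prod.ext_iff.1 h).2
    refine ih (Nat.card D') ?_ X B' D' hB' hD' habD' (hCl.2 D' K' (hCl.1 D _ ⟨f⟩ hDCl)) rfl
    rw [← hN, Nat.card_congr f.toEquiv, Nat.card_prod]
    have h1 : 1 < Nat.card K' := Finite.one_lt_card_iff_nontrivial.2 hK'
    have h2 : 0 < Nat.card D' := Nat.card_pos
    nlinarith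
  rcases special_or red hE hB hD hab hβ hβB hprop with h1 | h1
  · exact h1
  · exact h G B D β hB hD hab hDCl hβ hβB hprop h1

/-- **the reduction**, as an equivalence -/
theorem weightConjAb_iff (hE : EqwStmt p k) {Cl : ∀ (K : Type) [Group K], Prop}
    (hCl : FactorClosed Cl) : WeightConjAb p red Cl ↔ WeightConjAbSpecial p red Cl :=
  ⟨fun h G _ _ B D _ hB hD hab hDCl _ _ _ _ => h G B D hB hD hab hDCl,
    fun h G _ _ B D hB hD hab hDCl =>
      weightConjAb_of_special red hE hCl h _ G B D hB hD hab hDCl rfl⟩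

end Main

end P179H443
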