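import Vale.Agent.P179.R2.H443.RelB
import Vale.Agent.P179.R2.H843.SolvAct

/-!
# The number of weights is the number of simple modules of a block of the inertial group
-/

namespace P179H443

open Subgroup Finset P179H524 P179A P179C P179P P179Y P179H292 P179H725 P179H450 P179R P179H12
  P179H854 P179H364 P179H872

open P179B (NChain inertialGroup inertialIndex)

open scoped Classical

universe u

variable {p : ℕ} [hp : Fact p.Prime] {k : Type u} [Field k] [IsAlgClosed k] [hk : CharP k p]
  (red : integralClosure ℤ ℂ →+* k)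

/-- the block of the inertial group `T`: it has the defect group `D`, the inertial group `T`, and
the number of its simple modules is `|W_p(B)|` -/
theorem exists_local {G : Type} [Group G] [Finite G] {B : MonoidAlgebra k G}
    {D : Subgroup G} {β : MonoidAlgebra k (centralizer (D : Set G))} (hB : IsBlock B)
    (hDB : IsDefectGroup B D) (hab : ∀ a ∈ D, ∀ b ∈ D, a * b = b * a) (hβ : IsBlock β)
    (hβB : InducesTo β B) :
    ∃ (L : Subgroup G) (b : MonoidAlgebra k L)
      (ε : MonoidAlgebra k (centralizer ((D.subgroupOf L : Subgroup L) : Set L))),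
      D ≤ L ∧ IsBlock b ∧ IsDefectGroup b (D.subgroupOf L) ∧
      (∀ x ∈ D.subgroupOf L, ∀ y ∈ D.subgroupOf L, x * y = y * x) ∧ IsBlock ε ∧
      InducesTo ε b ∧ (∀ t : L, t ∈ inertialGroup (D.subgroupOf L) ε → (t : G) ∈
        inertialGroup D β) ∧ numSimpleIn b = numWeightsIn p red B := by
  have := Fintype.ofFinite G
  obtain ⟨l, hl, hlz, hlβ⟩ := exists_BP_of_subblock (p := p) hB hDB hab hβ hβB
  have hST : stabT D l = inertialGroup D β := stabT_eq_inertialGroup hβ hlβ
  have hD : IsPGroup p D := (exists_BP_of_block (p := p) B hB D hDB).1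
  have hab' : D ≤ centralizer (D : Set G) := by
    intro x hx
    rw [mem_centralizer_iff]
    intro y hy
    exact hab y hy x hx
  have hT := hT_of_block hB hDB hD hab hl hlz
  have hCDL : centralizer (D : Set G) ≤ stabT D l := cent_le_stabT D l
  have hDL : D ≤ stabT D l := hab'.trans hCDL
  have hmL : MulH (stabT D l) l := BP.mulH hl hD hab' hCDL
  obtain ⟨bL, hbL, hlbL, -⟩ := eH_spec hmL
  have hdf := isDefectGroup_low (p := p) hl hD hab hT hDL hCDL hbL hlbL
  obtain ⟨ε, hε, hlε, -⟩ := exists_root_below hl hD hab' hDL hCDL hβ hlβ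
  have habL : ∀ a ∈ D.subgroupOf (stabT D l), ∀ c ∈ D.subgroupOf (stabT D l), a * c = c * a :=
    fun a ha c hc => ((mem_centralizer_iff.1 (comm_subgroupOf hab' hDL ha)) c hc).symm
  have hεb : InducesTo ε bL := inducesTo_of_low (hl.restrict hDL hCDL) (Low.char hlbL) hlε
  have hTε : ∀ t : stabT D l, t ∈ inertialGroup (D.subgroupOf (stabT D l)) ε →
      (t : G) ∈ inertialGroup D β := fun t _ => by
    rw [← hST]
    exact t.2
  have hw : numWeightsIn p red bL = numWeightsIn p red B := by
    rw [numWeightsIn_below red hl hD hab' hT hDL hCDL hbL hlbL hdf hβ hlβ,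
      numWeightsIn_eq_stabT red hB hDB hab hl hD hT hlz hβ hlβ]
    exact P179H292.numSimple_congr (inf_eq_left.mpr le_rfl) _
  refine ⟨stabT D l, bL, ε, hDL, hbL, hdf, habL, hε, hεb, hTε, ?_⟩
  rw [← hw]
  by_cases hD1 : D = ⊥
  · -- the inertial index is one
    refine P179I.equality_half red hbL hdf habL hε hεb ?_
    have h1 : centralizer ((D.subgroupOf (stabT D l) : Subgroup (stabT D l)) :
        Set (stabT D l)) = ⊤ := by
      rw [eq_top_iff]
      intro x _
      rw [mem_centralizer_iff]
      intro y hy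
      have h2 : (y : G) = 1 := mem_bot.1 (hD1.le (mem_subgroupOf.1 hy))
      have h3 : y = 1 := Subtype.ext h2
      rw [h3, one_mul, mul_one]
    have h2 : inertialIndex (D.subgroupOf (stabT D l)) ε = 1 :=
      relIndex_eq_one.2 (by rw [h1]; exact le_top)
    rw [h2]
    exact hp.out.two_le
  · have hn : (D.subgroupOf (stabT D l)).Normal := by
      refine ⟨fun x hx g => ?_⟩
      rw [mem_subgroupOf] at hx ⊢
      exact (mem_normalizer_iff.1 (stabT_le_norm D l g.2) _).1 hx
    refine P179H843.eqRel p k red (stabT D l) bL (D.subgroupOf (stabT D l)) ε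
      (D.subgroupOf (stabT D l)) hD.comap_subtype ?_ hbL hdf habL hε hεb fun n _ hn => hn
    intro h
    apply hD1
    rw [eq_bot_iff]
    intro x hx
    have h1 : (⟨x, hDL hx⟩ : stabT D l) ∈ D.subgroupOf (stabT D l) := mem_subgroupOf.2 hx
    rw [h, mem_bot] at h1
    exact mem_bot.2 (congrArg Subtype.val h1)

end P179H443
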