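import Vale.Agent.P179.R2.H443.SvDef
import Vale.Agent.P179.R2.H443.Kn1
import Vale.Agent.P179.R2.H443.Wb
import Vale.Agent.P179.R2.H351.Ind11

/-!
# The equality for the groups `K` with the action of `S` which satisfy `SolvedBy`
-/

namespace P179H443

open Subgroup P179H524 P179A P179C P179P P179R P179Y P179H292 P179H351 P179H843 P179H364

open P179B (inertialIndex inertialGroup regularElements SolvedBy Known)

open scoped Classical

universe u

/-- the data of a regular coset -/
def RegData (p a j o : ℕ) {G : Type*} [Group G] (K S : Subgroup G) (w : G) : Prop :=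
  w ∈ K ∧ (∀ i : ℕ, (∃ d ∈ K, w ^ i = d ^ p ^ j) ↔ o ∣ i) ∧
    (∀ n ∈ S, (∃ d ∈ K, n * w * n⁻¹ * w⁻¹ = d ^ p ^ j) → n ∈ centralizer (K : Set G)) ∧
    (centralizer (K : Set G)).relIndex S * Nat.card K < p ^ (2 * j) *
      Nat.card {u : G // u ∈ K ∧ ∀ n ∈ S, n * u * n⁻¹ = u → n ∈ centralizer (K : Set G)} ∧
    Nat.card K * p ≤ p ^ (a + 1) * (Nat.card {y : G // ∃ d ∈ K, d ^ p ^ j = y} * o)

theorem RegData.act {p a j o : ℕ} {G X : Type*} [Group G] [Group X] {K S : Subgroup G}
    {D' T' : Subgroup X} {w : G} (h : RegData p a j o K S w) (hfin : Finite K)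
    (hN : S ≤ normalizer (K : Set G)) (hact : ActSub K S D' T') :
    ∃ w', RegData p a j o D' T' w' := by
  obtain ⟨hw, hord, hreg, hii, hcd⟩ := h
  have hK : ∀ t ∈ S, ∀ x ∈ K, t * x * t⁻¹ ∈ K := fun t ht x hx =>
    (mem_normalizer_iff.1 (hN ht) x).1 hx
  obtain ⟨e, hee⟩ := act_spec hK hact
  have hinj : ∀ {x y : K}, (e x : X) = e y → x = y := fun h => e.injective (Subtype.ext h)
  refine ⟨e ⟨w, hw⟩, (e _).2, fun i => ?_, ?_, ?_, ?_⟩
  · rw [← hord i]
    constructor
    · rintro ⟨d', hd', h1⟩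
      refine ⟨e.symm ⟨d', hd'⟩, (e.symm _).2, ?_⟩
      have h2 : ((e (⟨w, hw⟩ ^ i) : D') : X) = e (e.symm ⟨d', hd'⟩ ^ p ^ j) := by
        rw [map_pow, map_pow, e.apply_symm_apply]
        exact h1
      exact congrArg (fun z : K => (z : G)) (hinj h2)
    · rintro ⟨d, hd, h1⟩
      refine ⟨e ⟨d, hd⟩, (e _).2, ?_⟩
      have h2 : (⟨w, hw⟩ : K) ^ i = ⟨d, hd⟩ ^ p ^ j := Subtype.ext h1
      have h3 := congrArg e h2
      rw [map_pow, map_pow] at h3
      exact congrArg (fun z : D' => (z : X)) h3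
  · rintro n' hn' ⟨d', hd', h1⟩
    obtain ⟨n, hn, hne, hc⟩ := hee n' hn'
    refine hc.1 (hreg n hn ⟨e.symm ⟨d', hd'⟩, (e.symm _).2, ?_⟩)
    have h2 := (hne ⟨w, hw⟩ ⟨n * w * n⁻¹, hK n hn w hw⟩).1 rfl
    have h3 : ((e (⟨n * w * n⁻¹, hK n hn w hw⟩ * ⟨w, hw⟩⁻¹) : D') : X) =
        e (e.symm ⟨d', hd'⟩ ^ p ^ j) := by
      rw [map_mul, map_inv, map_pow, e.apply_symm_apply]
      change ((e ⟨n * w * n⁻¹, hK n hn w hw⟩ : D') : X) * ((e ⟨w, hw⟩ : D') : X)⁻¹ = d' ^ p ^ j
      rw [h2]
      exact h1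
    exact congrArg (fun z : K => (z : G)) (hinj h3)
  · rw [card_act hact]
    calc (centralizer (D' : Set X)).relIndex T' * Nat.card K
        ≤ (centralizer (K : Set G)).relIndex S * Nat.card K :=
          Nat.mul_le_mul_right _ (relIndex_act_fin hfin hK hact)
      _ < _ := hii
      _ ≤ _ := Nat.mul_le_mul_left _ (card_reg_act hfin hK hact)
  · rw [card_act hact, card_pow_act (p ^ j) hact]
    exact hcd

section Main

variable {p : ℕ} [hp : Fact p.Prime] {k : Type u} [Field k] [IsAlgClosed k] [hk : CharP k p]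
  (red : integralClosure ℤ ℂ →+* k)

include red in
/-- the bound for the number of simple modules -/
theorem bound_of_regData (hp2 : p ≠ 2) {X : Type} [Group X] [Finite X] {B : MonoidAlgebra k X}
    {D : Subgroup X} {β : MonoidAlgebra k (centralizer (D : Set X))} (hB : IsBlock B)
    (hDB : IsDefectGroup B D) (hab : ∀ a ∈ D, ∀ b ∈ D, a * b = b * a)
    (hβ : IsBlock β) (hβB : InducesTo β B) {a j o : ℕ} {w : X} (hj : 1 ≤ j)
    (ho : 1 ≤ o) (h : RegData p a j o D (inertialGroup D β) w) :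
    numSimpleIn B ≤ p ^ (a + 1) := by
  obtain ⟨hw, hord, hreg, hii, hcd⟩ := h
  have h1 := boundHere_of_reg (k := k) (P179H452.m7Stmt red hp2) hab hj hw ho
    (fun i hi => (hord i).1 hi) hreg hii hcd B β hB hDB hβ ((P179B.inducesTo_iff β B).2 hβB) rfl
  rwa [P179B.numSimpleIn_eq] at h1

/-- the bound for the number of weights -/
theorem weights_of_regData (hp2 : p ≠ 2) {X : Type} [Group X] [Finite X] {B : MonoidAlgebra k X}
    {D : Subgroup X} {β : MonoidAlgebra k (centralizer (D : Set X))} (hB : IsBlock B)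
    (hDB : IsDefectGroup B D) (hab : ∀ a ∈ D, ∀ b ∈ D, a * b = b * a)
    (hβ : IsBlock β) (hβB : InducesTo β B) {a j o : ℕ} {w : X} (hj : 1 ≤ j)
    (ho : 1 ≤ o) (h : RegData p a j o D (inertialGroup D β) w) :
    numWeightsIn p red B ≤ p ^ (a + 1) := by
  obtain ⟨L, b, ε, hDL, hb, hdf, habL, hε, hεb, hT, hw⟩ :=
    exists_local red hB hDB hab hβ hβB
  have hact : ActSub D (inertialGroup D β) (D.subgroupOf L)
      (inertialGroup (D.subgroupOf L) ε) := by
    refine ⟨(subgroupOfEquivOfLe hDL).symm, fun t' ht' => ⟨t', hT t' ht', fun x y hxy => ?_⟩⟩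
    exact Subtype.ext hxy
  obtain ⟨w', hw'⟩ := h.act inferInstance (fun n hn => hn.1) hact
  rw [← hw]
  exact bound_of_regData red hp2 hb hdf habL hε hεb hj ho hw'

/-- **the equality for the groups `K` with the action of `S` which satisfy `SolvedBy`** -/
theorem eqForAct_of_solvedBy (hp2 : 2 < p) {G : Type} [Group G] [Finite G]
    {K S : Subgroup G} (hS : S ≤ normalizer (K : Set G)) (h : SolvedBy p K S) :
    EqForAct p red K S := by
  induction h with
  | known h => exact eqForAct_of_known red (eqwStmt p k) hp2 hS h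
  | @step K S a j o w hj ho hw hord hreg hii hcd _ ih =>
    intro X _ _ B D β hB hDB hab hβ hβB hact
    have hB' : P179B.IsBlock B := hB
    have hDB' : P179B.IsDefectGroup B D := hDB
    have hβB' : P179B.InducesTo β B := (P179B.inducesTo_iff β B).2 hβB
    have hp2' : p ≠ 2 := by omega
    have hK : ∀ t ∈ S, ∀ x ∈ K, t * x * t⁻¹ ∈ K := fun t ht x hx =>
      (mem_normalizer_iff.1 (hS ht) x).1 hx
    have hTN : inertialGroup D β ≤ normalizer (D : Set X) := fun n hn => hn.1
    -- the groups `[D, F]`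
    have hF : ∀ F' ≤ inertialGroup D β, (∀ n ∈ F', ∀ d ∈ D, n * d ^ p ^ a * n⁻¹ = d ^ p ^ a) →
        EqForAct p red (⁅F', D⁆ : Subgroup X)
          (inertialGroup D β ⊓ normalizer ((⁅F', D⁆ : Subgroup X) : Set X)) := by
      intro F' hF' hq
      obtain ⟨F, hFS, hFq, hFa⟩ := comm_act hK hact hF' hq
      exact (ih F hFS hFq inf_le_right).congr hFa
    obtain ⟨w', hw'⟩ := RegData.act (a := a) ⟨hw, hord, hreg, hii, hcd⟩ inferInstance hS hact
    have hl := bound_of_regData red hp2' hB hDB hab hβ hβB hj ho hw'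
    have hwt := weights_of_regData red hp2' hB hDB hab hβ hβB hj ho hw'
    by_cases hex : ∃ d ∈ D, d ^ p ^ a ≠ 1
    · have hdvd := dvd_of_starA red (eqwStmt p k) hB' hDB' hab hβ hβB' hex
        fun F hFT _ M _ _ hM hFM _ => hF F hFT fun n hn d hd => by
          rw [← mem_centralizer_iff.1 (hFM hn) _ (hM d hd), mul_inv_cancel_right]
      have hmod : P179B.numSimpleIn B ≡ P179B.numWeightsIn p red B [MOD p ^ (a + 1)] := by
        rw [← Int.natCast_modEq_iff]
        refine Int.ModEq.symm ((Int.modEq_iff_dvd).2 ?_)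
        exact_mod_cast hdvd
      have hl0 : 0 < P179B.numSimpleIn B := by
        rw [P179B.numSimpleIn_eq]
        exact P179C.numSimpleIn_pos B hB
      rw [← P179B.numSimpleIn_eq] at hl
      rw [← P179B.numWeightsIn_eq] at hwt
      have h3 := eq_of_modEq_le hmod hl0 hl (numWeights_pos red hB' hDB' hab) hwt
      rwa [P179B.numSimpleIn_eq, P179B.numWeightsIn_eq] at h3
    · push Not at hex
      have h1 := hF (inertialGroup D β) le_rfl fun n _ d hd => by
        rw [hex d hd, mul_one, mul_inv_cancel]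
      have h2 : inertialGroup D β ⊓ normalizer
          ((⁅inertialGroup D β, D⁆ : Subgroup X) : Set X) = inertialGroup D β :=
        inf_eq_left.2 (comm_normal hTN fun t ht f hf =>
          mul_mem (mul_mem ht hf) (inv_mem ht))
      rw [h2] at h1
      exact P179H364.rel_of_hyp red (P := fun l w => l = w) rfl
        (fun _ _ _ _ h2 h3 => by rw [h2, h3]) _ X rfl B D β hB hDB hab hβ hβB h1

end Main

end P179H443
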