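import Vale.Agent.P179.R2.H443.SvLev
import Vale.Agent.P179.R2.H443.Sv1

/-!
# The equality and the congruence for the blocks which satisfy `SolvedBlock` and `LevelSolved`
-/

namespace P179H443

open Subgroup P179H524 P179A P179C P179P P179R P179Y P179H292 P179H351 P179H843 P179H364

open P179B (inertialIndex inertialGroup regularElements SolvedBy LevelSolved SolvedBlock
  PowerFaithful)

open scoped Classical

universe u

variable {p : ℕ} [hp : Fact p.Prime] {k : Type u} [Field k] [IsAlgClosed k] [hk : CharP k p]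
  (red : integralClosure ℤ ℂ →+* k) {G : Type} [Group G] [Finite G] {B : MonoidAlgebra k G}
  {D : Subgroup G} {β : MonoidAlgebra k (centralizer (D : Set G))}

/-- **the equality**, in terms of `D` -/
theorem eq_of_solvedBy (hp2 : 2 < p) (hB : P179B.IsBlock B)
    (hD : P179B.IsDefectGroup B D) (hab : ∀ a ∈ D, ∀ b ∈ D, a * b = b * a)
    (hβ : P179B.IsBlock β) (hβB : P179B.InducesTo β B) (h : SolvedBy p D (inertialGroup D β)) :
    P179B.numSimpleIn B = P179B.numWeightsIn p red B := by
  have hTN : inertialGroup D β ≤ normalizer (D : Set G) := fun n hn => hn.1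
  rw [P179B.numSimpleIn_eq, P179B.numWeightsIn_eq]
  exact eqForAct_of_solvedBy red hp2 hTN h G B D β hB hD hab hβ
    ((P179B.inducesTo_iff β B).1 hβB) (actSub_refl _ _)

/-- **the equality**, in terms of `[D, T]` -/
theorem eq_of_solvedBy_hyp (hp2 : 2 < p) (hB : P179B.IsBlock B)
    (hD : P179B.IsDefectGroup B D) (hab : ∀ a ∈ D, ∀ b ∈ D, a * b = b * a)
    (hβ : P179B.IsBlock β) (hβB : P179B.InducesTo β B)
    (h : SolvedBy p (⁅inertialGroup D β, D⁆ : Subgroup G) (inertialGroup D β)) :
    P179B.numSimpleIn B = P179B.numWeightsIn p red B := by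
  rw [P179B.numSimpleIn_eq, P179B.numWeightsIn_eq]
  refine P179H364.rel_of_hyp red (P := fun l w => l = w) rfl
    (fun _ _ _ _ h2 h3 => by rw [h2, h3]) _ G rfl B D β hB hD hab hβ
    ((P179B.inducesTo_iff β B).1 hβB) (eqForAct_of_solvedBy red hp2 ?_ h)
  exact comm_normal (fun n hn => hn.1) fun t ht f hf => mul_mem (mul_mem ht hf) (inv_mem ht)

/-- **the equality**, in terms of `[D, C_T(M)]` for a normal `p`-subgroup `M` of `G` -/
theorem eq_of_solvedBy_normal (hp2 : 2 < p) (M : Subgroup G) [hMn : M.Normal]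
    (hM : IsPGroup p M) (hB : P179B.IsBlock B)
    (hD : P179B.IsDefectGroup B D) (hab : ∀ a ∈ D, ∀ b ∈ D, a * b = b * a)
    (hβ : P179B.IsBlock β) (hβB : P179B.InducesTo β B)
    (h : SolvedBy p (⁅inertialGroup D β ⊓ centralizer (M : Set G), D⁆ : Subgroup G)
      (inertialGroup D β)) :
    P179B.numSimpleIn B = P179B.numWeightsIn p red B := by
  have hN : inertialGroup D β ≤ normalizer
      ((⁅inertialGroup D β ⊓ centralizer (M : Set G), D⁆ : Subgroup G) : Set G) := by
    refine comm_normal (fun n hn => hn.1) fun t ht f hf => ?_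
    have h2 : (centralizer (M : Set G)).Normal := inferInstance
    exact Subgroup.mem_inf.2 ⟨(inertialGroup D β).mul_mem ((inertialGroup D β).mul_mem ht hf.1)
      ((inertialGroup D β).inv_mem ht), h2.conj_mem f hf.2 t⟩
  rw [P179B.numSimpleIn_eq, P179B.numWeightsIn_eq]
  refine P179H443.eq_of_eqw_act red (eqwStmt p k) M hM hB hD hab hβ
    ((P179B.inducesTo_iff β B).1 hβB) ?_
  rw [inf_eq_left.2 hN]
  exact eqForAct_of_solvedBy red hp2 hN h

/-- **the congruence modulo `p ^ (a + 1)`** -/
theorem modEq_of_levelSolved {a : ℕ} (hB : P179B.IsBlock B) (hD : P179B.IsDefectGroup B D)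
    (hab : ∀ x ∈ D, ∀ y ∈ D, x * y = y * x) (hβ : P179B.IsBlock β)
    (hβB : P179B.InducesTo β B) (h : PowerFaithful p a D β ∨ (2 < p ∧ LevelSolved p a D β)) :
    P179B.numSimpleIn B ≡ P179B.numWeightsIn p red B [MOD p ^ (a + 1)] := by
  rcases h with h | ⟨hp2, h⟩
  · exact modEq_of_faithful red hB hD hab hβ hβB h
  by_cases hex : ∃ d ∈ D, d ^ p ^ a ≠ 1
  · have hdvd := dvd_of_starA red (eqwStmt p k) hB hD hab hβ hβB hex
      fun F hFT _ M _ _ hM hFM _ => eqForAct_of_solvedBy red hp2 inf_le_right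
        (h F hFT fun n hn d hd => by
          rw [← mem_centralizer_iff.1 (hFM hn) _ (hM d hd), mul_inv_cancel_right])
    rw [← Int.natCast_modEq_iff]
    refine Int.ModEq.symm ((Int.modEq_iff_dvd).2 ?_)
    exact_mod_cast hdvd
  · push Not at hex
    have h1 := h (inertialGroup D β) le_rfl fun n _ d hd => by
      rw [hex d hd, mul_one, mul_inv_cancel]
    have h2 : inertialGroup D β ⊓ normalizer
        ((⁅inertialGroup D β, D⁆ : Subgroup G) : Set G) = inertialGroup D β :=
      inf_eq_left.2 (comm_normal (fun n hn => hn.1) fun t ht f hf =>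
        mul_mem (mul_mem ht hf) (inv_mem ht))
    rw [h2] at h1
    rw [eq_of_solvedBy_hyp red hp2 hB hD hab hβ hβB h1]

/-- **the equality** -/
theorem eq_of_solvedBlock (hB : P179B.IsBlock B) (h : SolvedBlock p B) :
    P179B.numSimpleIn B = P179B.numWeightsIn p red B := by
  obtain ⟨hp2, D, b, hD, hab, hb, hbB, h | ⟨M, hMn, hMp, h⟩⟩ := h
  · exact eq_of_solvedBy red hp2 hB hD hab hb hbB h
  · exact eq_of_solvedBy_normal red hp2 M hMp hB hD hab hb hbB h

end P179H443
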