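import Vale.Agent.P179.R2.H443.SpDef
import Vale.Agent.P179.R2.H443.Sv2
import Vale.Agent.P179.R2.H452.Fh6

/-!
# The reduction for abelian defect groups: the remaining blocks
-/

namespace P179H443

open Subgroup P179H524 P179R P179Y P179H292 P179H351 P179H872 P179H452

open P179B (inertialIndex inertialGroup hyperfocal FactorClosed WeightConjAb ProperFactor
  SpecialBlock CoversOne SolvedBelow SolvedBlock ReducedBlock PrimitiveBlock WeightConjAbReduced)

open scoped Classical

universe u

section Main

variable {p : ℕ} [hp : Fact p.Prime] {k : Type u} [Field k] [IsAlgClosed k] [hk : CharP k p]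
  (red : integralClosure ℤ ℂ →+* k)

/-- **a block is reduced or satisfies the conjecture**, if the proper direct factors of its defect
group are solved; if the groups of smaller order with the same defect group are solved also, it is
primitive -/
theorem reduced_or (hE : EqwStmt p k) {G : Type} [Group G] [Finite G] {B : MonoidAlgebra k G}
    (hB : P179B.IsBlock B) {D : Subgroup G} (hD : P179B.IsDefectGroup B D)
    (hab : ∀ x ∈ D, ∀ y ∈ D, x * y = y * x) {β : MonoidAlgebra k (centralizer (D : Set G))}
    (hβ : P179B.IsBlock β) (hβB : P179B.InducesTo β B)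
    (hprop : WeightConjAb p red (fun (K : Type) [Group K] => ProperFactor D K)) :
    P179B.numSimpleIn B = P179B.numWeightsIn p red B ∨
      (ReducedBlock p red B D β ∧ (SolvedBelow p red D → PrimitiveBlock p B)) := by
  by_cases heq : P179B.numSimpleIn B = P179B.numWeightsIn p red B
  · exact Or.inl heq
  have hns : ¬ SolvedBlock p B := fun h => heq (eq_of_solvedBlock red hB h)
  rcases special_or red hE hB hD hab hβ hβB hprop with h1 | h1
  · exact absurd h1 heq
  refine Or.inr ⟨⟨h1.1, h1.2.1, h1.2.2.1, hns, h1.2.2.2.2⟩, fun hbelow => ?_⟩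
  rcases special_prim_or red hE hB hD hab hβ hβB hprop hbelow with h2 | h2
  · exact absurd h2 heq
  · exact h2.2

/-- **the reduction** for a class of groups closed under direct factors -/
theorem weightConjAb_iff_reduced (hE : EqwStmt p k) {Cl : ∀ (K : Type) [Group K], Prop}
    (hCl : FactorClosed Cl) :
    WeightConjAb p red Cl ↔ WeightConjAbReduced p red Cl := by
  constructor
  · intro h G _ _ B D b hB hD hab hDCl _ _ _ _ _ _
    exact h G B D hB hD hab hDCl
  · intro h G _ _ B D hB hD hab hDCl
    refine weightConjAb_of_prim red hE hCl (fun G _ _ B D b hB hD hab hDCl hb hbB hprop hbelow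
      hsp hprim => ?_) _ _ G B D hB hD hab hDCl rfl rfl
    by_cases hs : SolvedBlock p B
    · exact eq_of_solvedBlock red hB hs
    · exact h G B D b hB hD hab hDCl hb hbB hprop hbelow
        ⟨hsp.1, hsp.2.1, hsp.2.2.1, hs, hsp.2.2.2.2⟩ hprim

end Main

end P179H443
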