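import Mathlib

/-!
# Chains of tuples and tuples of chains
-/

namespace P179H443

open Finset

open scoped Classical

variable {ι α : Type*} [Fintype ι] [SemilatticeSup α] [OrderBot α]

/-- the nontrivial coordinates of the members of `s` -/
noncomputable def co (s : Finset (ι → α)) (q : ι) : Finset α := (s.image fun V => V q).erase ⊥

omit [Fintype ι] in
theorem mem_co {s : Finset (ι → α)} {q : ι} {x : α} :
    x ∈ co s q ↔ x ≠ ⊥ ∧ ∃ V ∈ s, V q = x := by
  unfold co
  rw [mem_erase, mem_image]

/-- a chain of tuples different from the least tuple -/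
def IsTup (s : Finset (ι → α)) : Prop :=
  IsChain (· ≤ ·) (s : Set (ι → α)) ∧ (⊥ : ι → α) ∉ s

/-- the chains of tuples with given chains of coordinates -/
noncomputable def tups (u : ι → Finset α) : Finset (Finset (ι → α)) :=
  (Fintype.piFinset fun q => insert ⊥ (u q)).powerset.filter fun s => IsTup s ∧ ∀ q, co s q = u q

theorem mem_tups {u : ι → Finset α} {s : Finset (ι → α)} :
    s ∈ tups u ↔ IsTup s ∧ ∀ q, co s q = u q := by
  unfold tups
  rw [mem_filter, mem_powerset, and_iff_right_iff_imp]
  rintro ⟨-, h⟩ V hV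
  rw [Fintype.mem_piFinset]
  intro q
  rw [mem_insert]
  by_cases h1 : V q = ⊥
  · exact Or.inl h1
  · right
    rw [← h q, mem_co]
    exact ⟨h1, V, hV, rfl⟩

/-- the greatest members of the chains -/
def mx (u : ι → Finset α) (q : ι) : α := (u q).sup id

omit [Fintype ι] in
theorem sup_mem_chain {c : Finset α} (hc : IsChain (· ≤ ·) (c : Set α)) (hne : c.Nonempty) :
    c.sup id ∈ c := by
  obtain ⟨M, hM, hmax⟩ := Finset.exists_maximal hne
  have h1 : ∀ x ∈ c, x ≤ M := by
    intro x hx
    rcases hc.total (mem_coe.2 hx) (mem_coe.2 hM) with h | h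
    · exact h
    · exact hmax hx h
  have h2 : c.sup id = M := le_antisymm (Finset.sup_le h1) (Finset.le_sup (f := id) hM)
  rw [h2]
  exact hM

/-- the tuple of chains with some greatest members removed -/
noncomputable def cut (u : ι → Finset α) (T : Finset ι) (q : ι) : Finset α :=
  if q ∈ T then (u q).erase (mx u q) else u q

/-- the coordinates at which the greatest member disappears with the greatest tuple -/
noncomputable def jmp (u : ι → Finset α) (s : Finset (ι → α)) : Finset ι :=
  univ.filter fun q => (u q).Nonempty ∧ mx u q ∉ co (s.erase (mx u)) q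

section

variable {u : ι → Finset α} (hu : ∀ q, IsChain (· ≤ ·) (u q : Set α)) (hb : ∀ q, ⊥ ∉ u q)

omit [Fintype ι] in
theorem mx_eq_bot {q : ι} (h : ¬ (u q).Nonempty) : mx u q = ⊥ := by
  rw [not_nonempty_iff_eq_empty] at h
  rw [mx, h, sup_empty]

omit [Fintype ι] in
include hu hb in
theorem mx_ne_bot {q : ι} (h : (u q).Nonempty) : mx u q ∈ u q ∧ mx u q ≠ ⊥ := by
  have h1 : mx u q ∈ u q := sup_mem_chain (hu q) h
  exact ⟨h1, fun h2 => hb q (h2 ▸ h1)⟩

omit [Fintype ι] in
theorem le_mx {s : Finset (ι → α)} (hco : ∀ q, co s q = u q) {V : ι → α} (hV : V ∈ s) :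
    V ≤ mx u := by
  intro q
  by_cases h1 : V q = ⊥
  · rw [h1]; exact bot_le
  · refine Finset.le_sup (f := id) ?_
    rw [← hco q, mem_co]
    exact ⟨h1, V, hV, rfl⟩

omit [Fintype ι] in
include hu hb in
/-- the greatest tuple is a member -/
theorem mx_mem {s : Finset (ι → α)} (hs : IsTup s) (hco : ∀ q, co s q = u q)
    (hne : ∃ q, (u q).Nonempty) : mx u ∈ s := by
  obtain ⟨q, hq⟩ := hne
  have hsne : s.Nonempty := by
    obtain ⟨h1, -⟩ := mx_ne_bot hu hb hq
    rw [← hco q, mem_co] at h1
    obtain ⟨-, V, hV, -⟩ := h1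
    exact ⟨V, hV⟩
  obtain ⟨M, hM, hmax⟩ := Finset.exists_maximal hsne
  have h1 : ∀ V ∈ s, V ≤ M := by
    intro V hV
    rcases hs.1.total (mem_coe.2 hV) (mem_coe.2 hM) with h | h
    · exact h
    · exact hmax hV h
  have h2 : mx u = M := by
    refine le_antisymm ?_ (le_mx hco hM)
    intro q
    refine Finset.sup_le fun x hx => ?_
    rw [← hco q, mem_co] at hx
    obtain ⟨-, V, hV, rfl⟩ := hx
    exact h1 V hV q
  rw [h2]
  exact hM

/-- removing the greatest tuple can only remove the greatest coordinates -/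
theorem co_erase_sub {s : Finset (ι → α)} (hco : ∀ q, co s q = u q) {q : ι} {x : α} :
    x ∈ co (s.erase (mx u)) q → x ∈ u q := by
  intro h
  rw [mem_co] at h
  obtain ⟨h1, V, hV, h2⟩ := h
  rw [← hco q, mem_co]
  exact ⟨h1, V, (mem_erase.1 hV).2, h2⟩

theorem mem_co_erase {s : Finset (ι → α)} (hco : ∀ q, co s q = u q) {q : ι} {x : α}
    (hx : x ∈ u q) (hxm : x ≠ mx u q) : x ∈ co (s.erase (mx u)) q := by
  rw [← hco q, mem_co] at hx
  obtain ⟨h1, V, hV, rfl⟩ := hx
  rw [mem_co]
  refine ⟨h1, V, ?_, rfl⟩
  rw [mem_erase]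
  exact ⟨fun h => hxm (by rw [h]), hV⟩

include hu in
theorem co_erase {s : Finset (ι → α)} (hco : ∀ q, co s q = u q) (q : ι) :
    co (s.erase (mx u)) q = cut u (jmp u s) q := by
  ext x
  unfold cut
  split_ifs with hq
  · unfold jmp at hq
    rw [mem_filter] at hq
    rw [mem_erase]
    constructor
    · intro h
      refine ⟨?_, co_erase_sub hco h⟩
      rintro rfl
      exact hq.2.2 h
    · rintro ⟨h1, h2⟩
      exact mem_co_erase hco h2 h1
  · unfold jmp at hq
    rw [mem_filter] at hq
    constructor
    · exact co_erase_sub hco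
    · intro h
      by_cases h1 : x = mx u q
      · subst h1
        by_contra h2
        exact hq ⟨mem_univ _, ⟨_, h⟩, h2⟩
      · exact mem_co_erase hco h h1

include hu hb in
theorem jmp_nonempty {s : Finset (ι → α)} (hs : IsTup s) (hco : ∀ q, co s q = u q)
    (hne : ∃ q, (u q).Nonempty) : (jmp u s).Nonempty := by
  by_contra h
  rw [not_nonempty_iff_eq_empty] at h
  have h1 : ∀ q, co (s.erase (mx u)) q = u q := by
    intro q
    rw [co_erase hu hco, h]
    unfold cut
    rw [if_neg (notMem_empty q)]
  have h2 : IsTup (s.erase (mx u)) := by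
    refine ⟨hs.1.mono ?_, fun h => hs.2 (mem_erase.1 h).2⟩
    intro x hx
    exact (mem_erase.1 (mem_coe.1 hx)).2
  have h3 := mx_mem hu hb h2 h1 hne
  exact (mem_erase.1 h3).1 rfl

include hu hb in
theorem insert_mem {T : Finset ι} (hT : T.Nonempty) (hTs : ∀ q ∈ T, (u q).Nonempty)
    {s : Finset (ι → α)} (hs : IsTup s) (hco : ∀ q, co s q = cut u T q) :
    mx u ∉ s ∧ IsTup (insert (mx u) s) ∧ (∀ q, co (insert (mx u) s) q = u q) ∧
      jmp u (insert (mx u) s) = T := by
  have hcut : ∀ q, cut u T q ⊆ u q := by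
    intro q x hx
    unfold cut at hx
    split_ifs at hx with h
    · exact (mem_erase.1 hx).2
    · exact hx
  have hle : ∀ V ∈ s, V ≤ mx u := by
    intro V hV q
    by_cases h1 : V q = ⊥
    · rw [h1]; exact bot_le
    · refine Finset.le_sup (f := id) (hcut q ?_)
      rw [← hco q, mem_co]
      exact ⟨h1, V, hV, rfl⟩
  obtain ⟨q₀, hq₀⟩ := hT
  have h1 := mx_ne_bot hu hb (hTs q₀ hq₀)
  have hnm : mx u ∉ s := by
    intro h
    have h2 : mx u q₀ ∈ co s q₀ := mem_co.2 ⟨h1.2, _, h, rfl⟩
    rw [hco q₀, cut, if_pos hq₀, mem_erase] at h2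
    exact h2.1 rfl
  have hco' : ∀ q, co (insert (mx u) s) q = u q := by
    intro q
    ext x
    rw [mem_co]
    constructor
    · rintro ⟨h2, V, hV, rfl⟩
      rw [mem_insert] at hV
      rcases hV with rfl | hV
      · have h3 : (u q).Nonempty := by
          by_contra h3
          exact h2 (mx_eq_bot h3)
        exact (mx_ne_bot hu hb h3).1
      · refine hcut q ?_
        rw [← hco q, mem_co]
        exact ⟨h2, V, hV, rfl⟩
    · intro hx
      have h2 : x ≠ ⊥ := fun h => hb q (h ▸ hx)
      refine ⟨h2, ?_⟩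
      by_cases h3 : x = mx u q
      · exact ⟨mx u, mem_insert_self _ _, h3.symm⟩
      · have h4 : x ∈ co s q := by
          rw [hco q]
          unfold cut
          split_ifs
          · exact mem_erase.2 ⟨h3, hx⟩
          · exact hx
        rw [mem_co] at h4
        obtain ⟨-, V, hV, h5⟩ := h4
        exact ⟨V, mem_insert_of_mem hV, h5⟩
  refine ⟨hnm, ⟨?_, ?_⟩, hco', ?_⟩
  · rw [coe_insert]
    refine hs.1.insert fun V hV _ => Or.inr (hle V (mem_coe.1 hV))
  · rw [mem_insert]
    rintro (h | h)
    · exact h1.2 (congrFun h q₀).symm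
    · exact hs.2 h
  · ext q
    unfold jmp
    rw [mem_filter, erase_insert hnm]
    constructor
    · rintro ⟨-, h2, h3⟩
      by_contra h4
      apply h3
      rw [hco q, cut, if_neg h4]
      exact (mx_ne_bot hu hb h2).1
    · intro h2
      refine ⟨mem_univ _, hTs q h2, ?_⟩
      rw [hco q, cut, if_pos h2, mem_erase]
      exact fun h => h.1 rfl

end

omit [SemilatticeSup α] [OrderBot α] in
theorem card_pos_of_nonempty {u : ι → Finset α} (h : ∃ q, (u q).Nonempty) :
    0 < ∑ q, (u q).card := by
  obtain ⟨q, hq⟩ := h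
  exact lt_of_lt_of_le (card_pos.2 hq) (single_le_sum (f := fun q => (u q).card)
    (fun _ _ => Nat.zero_le _) (mem_univ q))

/-- **the signed number of chains of tuples with given chains of coordinates** -/
theorem sum_tups (u : ι → Finset α) (hu : ∀ q, IsChain (· ≤ ·) (u q : Set α))
    (hb : ∀ q, ⊥ ∉ u q) :
    ∑ s ∈ tups u, (-1 : ℤ) ^ s.card = (-1) ^ (∑ q, (u q).card) := by
  induction hn : ∑ q, (u q).card using Nat.strong_induction_on generalizing u with
  | _ n ih =>
  by_cases hne : ∃ q, (u q).Nonempty
  · set S : Finset ι := univ.filter fun q => (u q).Nonempty with hS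
    have hSne : S.Nonempty := by
      obtain ⟨q, hq⟩ := hne
      exact ⟨q, mem_filter.2 ⟨mem_univ _, hq⟩⟩
    have hmaps : ∀ s ∈ tups u, jmp u s ∈ S.powerset.erase ∅ := by
      intro s hs
      rw [mem_tups] at hs
      rw [mem_erase, mem_powerset]
      refine ⟨(jmp_nonempty hu hb hs.1 hs.2 hne).ne_empty, ?_⟩
      intro q hq
      unfold jmp at hq
      rw [mem_filter] at hq
      rw [hS, mem_filter]
      exact ⟨mem_univ _, hq.2.1⟩
    rw [← sum_fiberwise_of_maps_to hmaps]
    have hfib : ∀ T ∈ S.powerset.erase ∅, ∑ s ∈ (tups u).filter (fun s => jmp u s = T),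
        (-1 : ℤ) ^ s.card = - ((-1) ^ n * (-1) ^ T.card) := by
      intro T hT
      rw [mem_erase, mem_powerset] at hT
      have hTne : T.Nonempty := nonempty_iff_ne_empty.2 hT.1
      have hTs : ∀ q ∈ T, (u q).Nonempty := fun q hq => by
        have h1 := hT.2 hq
        rw [hS, mem_filter] at h1
        exact h1.2
      have hbij : ∑ s ∈ (tups u).filter (fun s => jmp u s = T), (-1 : ℤ) ^ s.card =
          ∑ s ∈ tups (cut u T), - (-1 : ℤ) ^ s.card := by
        refine sum_bij' (fun s _ => s.erase (mx u)) (fun s _ => insert (mx u) s) ?_ ?_ ?_ ?_ ?_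
        · intro s hs
          rw [mem_filter, mem_tups] at hs
          rw [mem_tups]
          refine ⟨⟨hs.1.1.1.mono ?_, fun h => hs.1.1.2 (mem_erase.1 h).2⟩, ?_⟩
          · intro x hx
            exact (mem_erase.1 (mem_coe.1 hx)).2
          · intro q
            rw [co_erase hu hs.1.2, hs.2]
        · intro s hs
          rw [mem_tups] at hs
          obtain ⟨h1, h2, h3, h4⟩ := insert_mem hu hb hTne hTs hs.1 hs.2
          rw [mem_filter, mem_tups]
          exact ⟨⟨h2, h3⟩, h4⟩
        · intro s hs
          rw [mem_filter, mem_tups] at hs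
          exact insert_erase (mx_mem hu hb hs.1.1 hs.1.2 hne)
        · intro s hs
          rw [mem_tups] at hs
          obtain ⟨h1, -⟩ := insert_mem hu hb hTne hTs hs.1 hs.2
          exact erase_insert h1
        · intro s hs
          rw [mem_filter, mem_tups] at hs
          have h1 := card_erase_add_one (mx_mem hu hb hs.1.1 hs.1.2 hne)
          rw [← h1, pow_succ]
          ring
      rw [hbij, sum_neg_distrib]
      have hcard : ∑ q, (cut u T q).card + T.card = n := by
        rw [← hn, card_eq_sum_ones T, ← sum_filter_add_sum_filter_not univ (fun q => q ∈ T)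
          (fun q => (cut u T q).card), ← sum_filter_add_sum_filter_not univ (fun q => q ∈ T)
          (fun q => (u q).card)]
        have h1 : ∑ q ∈ univ.filter (fun q => q ∈ T), (cut u T q).card + ∑ q ∈ T, 1 =
            ∑ q ∈ univ.filter (fun q => q ∈ T), (u q).card := by
          have h2 : univ.filter (fun q => q ∈ T) = T := by
            ext q
            rw [mem_filter]
            exact ⟨fun h => h.2, fun h => ⟨mem_univ _, h⟩⟩
          rw [h2, ← sum_add_distrib]
          refine sum_congr rfl fun q hq => ?_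
          rw [cut, if_pos hq]
          exact card_erase_add_one (mx_ne_bot hu hb (hTs q hq)).1
        have h3 : ∑ q ∈ univ.filter (fun q => q ∉ T), (cut u T q).card =
            ∑ q ∈ univ.filter (fun q => q ∉ T), (u q).card := by
          refine sum_congr rfl fun q hq => ?_
          rw [mem_filter] at hq
          rw [cut, if_neg hq.2]
        rw [h3, ← h1]
        ring
      have hlt : ∑ q, (cut u T q).card < n := by
        have := card_pos.2 hTne
        omega
      have hchain : ∀ q, IsChain (· ≤ ·) (cut u T q : Set α) := by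
        intro q
        unfold cut
        split_ifs
        · exact (hu q).mono fun x hx => (mem_erase.1 (mem_coe.1 hx)).2
        · exact hu q
      have hbot : ∀ q, ⊥ ∉ cut u T q := by
        intro q h
        apply hb q
        unfold cut at h
        split_ifs at h
        · exact (mem_erase.1 h).2
        · exact h
      rw [ih _ hlt (cut u T) hchain hbot rfl, ← hcard, pow_add, mul_assoc, ← pow_add]
      rw [Even.neg_one_pow ⟨T.card, rfl⟩, mul_one]
    rw [sum_congr rfl hfib, sum_neg_distrib, ← mul_sum]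
    have h0 : ∑ T ∈ S.powerset, (-1 : ℤ) ^ T.card = 0 :=
      sum_powerset_neg_one_pow_card_of_nonempty hSne
    have h1 : ∑ T ∈ S.powerset.erase ∅, (-1 : ℤ) ^ T.card = -1 := by
      have h2 := add_sum_erase S.powerset (fun T => (-1 : ℤ) ^ T.card) (empty_mem_powerset S)
      rw [h0, card_empty, pow_zero] at h2
      linarith
    rw [h1]
    ring
  · push Not at hne
    have h1 : ∀ q, u q = ∅ := hne
    have h2 : n = 0 := by
      rw [← hn]
      exact sum_eq_zero fun q _ => by rw [h1 q, card_empty]
    have h3 : tups u = {∅} := by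
      ext s
      rw [mem_tups, mem_singleton]
      constructor
      · rintro ⟨hs, hco⟩
        by_contra h
        obtain ⟨V, hV⟩ := nonempty_iff_ne_empty.2 h
        have h4 : V = ⊥ := by
          funext q
          by_contra h5
          have h6 : V q ∈ co s q := mem_co.2 ⟨h5, V, hV, rfl⟩
          rw [hco q, h1 q] at h6
          exact notMem_empty _ h6
        exact hs.2 (h4 ▸ hV)
      · rintro rfl
        refine ⟨⟨by simp, notMem_empty _⟩, fun q => ?_⟩
        rw [h1 q]
        rfl
    rw [h3, sum_singleton, card_empty, h2]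

end P179H443
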