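import Vale.Agent.P179.R2.H443.Defs
import Vale.Agent.P179.R2.H443.Nrm
import Vale.Agent.P179.R2.H443.Tup

/-!
# Reduction of the chains in the base group to normal chains of product subgroups
-/

namespace P179H443

open Subgroup P179A P179N P179R RegularWreathProduct

open scoped Classical

section Closed

variable {p : ℕ} {G : Type*} [Group G]

/-- the greatest member which is not closed -/
noncomputable def mo (cl : Subgroup G → Subgroup G) (s : Finset (Subgroup G)) : Subgroup G :=
  (s.filter fun V => cl V ≠ V).sup id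

/-- toggling the closure of the greatest member which is not closed -/
noncomputable def tc (cl : Subgroup G → Subgroup G) (s : Finset (Subgroup G)) :
    Finset (Subgroup G) := symmDiff s {cl (mo cl s)}

theorem mem_tc {cl : Subgroup G → Subgroup G} {Q : Subgroup G} {s : Finset (Subgroup G)} :
    Q ∈ tc cl s ↔ (Q ∈ s ∧ Q ≠ cl (mo cl s)) ∨ (Q = cl (mo cl s) ∧ Q ∉ s) := by
  rw [tc, Finset.mem_symmDiff]; simp

/-- **Restricting to closed members.** -/
theorem sum_closed [Finite G] (P : Subgroup G → Prop) (cl : Subgroup G → Subgroup G)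
    (h1 : ∀ X, P X → X ≤ cl X) (h2 : ∀ X, P X → P (cl X)) (h3 : ∀ X, cl (cl X) = cl X)
    (h4 : ∀ X Y, X ≤ Y → cl X ≤ cl Y)
    (h5 : ∀ X : Subgroup G, P X → normalizer (X : Set G) ≤ normalizer (cl X : Set G))
    (h6 : ∀ X, P X → IsPGroup p X → IsPGroup p (cl X)) (f : Finset (Subgroup G) → ℤ)
    (hf : ∀ s t : Finset (Subgroup G), stab s = stab t → f s = f t) :
    ∑ s ∈ (chains p G).filter (fun s => ∀ V ∈ s, P V), (-1 : ℤ) ^ s.card * f s =
      ∑ s ∈ (chains p G).filter (fun s => ∀ V ∈ s, P V ∧ cl V = V), (-1 : ℤ) ^ s.card * f s := by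
  rw [← Finset.sum_filter_add_sum_filter_not ((chains p G).filter (fun s => ∀ V ∈ s, P V))
    (fun s => ∀ V ∈ s, cl V = V)]
  have hspec : ∀ s : Finset (Subgroup G), IsPChain p s → (¬ ∀ V ∈ s, cl V = V) →
      mo cl s ∈ s ∧ cl (mo cl s) ≠ mo cl s ∧ ∀ V ∈ s, cl V ≠ V → V ≤ mo cl s := by
    intro s hs hn
    push Not at hn
    obtain ⟨V, hV, hVc⟩ := hn
    have h7 : (s.filter fun V => cl V ≠ V).Nonempty := ⟨V, Finset.mem_filter.2 ⟨hV, hVc⟩⟩
    have h8 := sup_mem_chain (c := s.filter fun V => cl V ≠ V) (hs.2.mono fun x hx =>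
      (Finset.mem_filter.1 (Finset.mem_coe.1 hx)).1) h7
    have h9 := Finset.mem_filter.1 h8
    exact ⟨h9.1, h9.2, fun W hW hWc => Finset.le_sup (f := id) (Finset.mem_filter.2 ⟨hW, hWc⟩)⟩
  have hmo : ∀ s : Finset (Subgroup G), mo cl (tc cl s) = mo cl s := by
    intro s
    unfold mo
    congr 1
    ext V
    rw [Finset.mem_filter, Finset.mem_filter, mem_tc]
    constructor
    · rintro ⟨h | h, h'⟩
      · exact ⟨h.1, h'⟩
      · exact absurd (by rw [h.1, h3]) h'
    · rintro ⟨h, h'⟩
      refine ⟨Or.inl ⟨h, ?_⟩, h'⟩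
      rintro rfl
      exact h' (h3 _)
  have hchain : ∀ s : Finset (Subgroup G), IsPChain p s → (∀ V ∈ s, P V) →
      (¬ ∀ V ∈ s, cl V = V) → IsPChain p (tc cl s) := by
    intro s hs hP hn
    obtain ⟨m1, m2, m3⟩ := hspec s hs hn
    have hcomp : ∀ V ∈ s, V ≤ cl (mo cl s) ∨ cl (mo cl s) ≤ V := by
      intro V hV
      rcases hs.2.total (Finset.mem_coe.2 hV) (Finset.mem_coe.2 m1) with h | h
      · exact Or.inl (h.trans (h1 _ (hP _ m1)))
      · by_cases hc : cl V = V
        · right
          have := h4 _ _ h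
          rwa [hc] at this
        · left
          exact (m3 V hV hc).trans (h1 _ (hP _ m1))
    refine ⟨?_, ?_⟩
    · intro V hV
      rw [mem_tc] at hV
      rcases hV with h | h
      · exact hs.1 V h.1
      · rw [h.1]
        refine ⟨h6 _ (hP _ m1) (hs.1 _ m1).1, ?_⟩
        intro hb
        have h7 := h1 _ (hP _ m1)
        rw [hb, le_bot_iff] at h7
        exact (hs.1 _ m1).2 h7
    · intro V hV W hW hne
      rw [Finset.mem_coe, mem_tc] at hV hW
      rcases hV with hV | hV <;> rcases hW with hW | hW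
      · exact hs.2.total (Finset.mem_coe.2 hV.1) (Finset.mem_coe.2 hW.1)
      · rw [hW.1]
        exact hcomp V hV.1
      · rw [hV.1]
        exact (hcomp W hW.1).symm
      · exact absurd (hV.1.trans hW.1.symm) hne
  have hstab : ∀ s : Finset (Subgroup G), IsPChain p s → (∀ V ∈ s, P V) →
      (¬ ∀ V ∈ s, cl V = V) → stab (tc cl s) = stab s := by
    intro s hs hP hn
    obtain ⟨m1, m2, m3⟩ := hspec s hs hn
    ext g
    rw [mem_stab, mem_stab]
    constructor
    · intro h Q hQ
      by_cases h7 : Q = cl (mo cl s)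
      · rw [h7]
        refine h5 _ (hP _ m1) (h _ ?_)
        rw [mem_tc]
        exact Or.inl ⟨m1, fun h8 => m2 h8.symm⟩
      · exact h Q (mem_tc.2 (Or.inl ⟨hQ, h7⟩))
    · intro h Q hQ
      rw [mem_tc] at hQ
      rcases hQ with h7 | h7
      · exact h Q h7.1
      · rw [h7.1]
        exact h5 _ (hP _ m1) (h _ m1)
  have h0 : ∑ s ∈ ((chains p G).filter (fun s => ∀ V ∈ s, P V)).filter
      (fun s => ¬ ∀ V ∈ s, cl V = V), (-1 : ℤ) ^ s.card * f s = 0 := by
    refine Finset.sum_involution (fun s _ => tc cl s) ?_ ?_ ?_ ?_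
    · intro s hs
      rw [Finset.mem_filter, Finset.mem_filter, mem_chains] at hs
      rw [hf (tc cl s) s (hstab s hs.1.1 hs.1.2 hs.2)]
      have h7 : (-1 : ℤ) ^ (tc cl s).card = - (-1) ^ s.card := by
        unfold tc
        by_cases h8 : cl (mo cl s) ∈ s
        · have h9 : symmDiff s {cl (mo cl s)} = s.erase (cl (mo cl s)) := by
            ext Q
            rw [Finset.mem_symmDiff, Finset.mem_erase, Finset.mem_singleton]
            constructor
            · rintro (h | h)
              · exact ⟨h.2, h.1⟩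
              · exact absurd (h.1 ▸ h8) h.2
            · rintro ⟨h, h'⟩
              exact Or.inl ⟨h', h⟩
          rw [h9, ← Finset.card_erase_add_one h8, pow_succ]
          ring
        · have h9 : symmDiff s {cl (mo cl s)} = insert (cl (mo cl s)) s := by
            ext Q
            rw [Finset.mem_symmDiff, Finset.mem_insert, Finset.mem_singleton]
            constructor
            · rintro (h | h)
              · exact Or.inr h.1
              · exact Or.inl h.1
            · rintro (h | h)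
              · exact Or.inr ⟨h, h ▸ h8⟩
              · exact Or.inl ⟨h, fun h' => h8 (h' ▸ h)⟩
          rw [h9, Finset.card_insert_of_notMem h8, pow_succ]
          ring
      rw [h7]; ring
    · intro s hs _ h7
      have h8 : cl (mo cl s) ∈ tc cl s ↔ cl (mo cl s) ∈ s := by rw [h7]
      rw [mem_tc] at h8
      by_cases h9 : cl (mo cl s) ∈ s
      · rcases h8.2 h9 with h | h
        · exact h.2 rfl
        · exact h.2 h9
      · exact h9 (h8.1 (Or.inr ⟨rfl, h9⟩))
    · intro s hs
      rw [Finset.mem_filter, Finset.mem_filter, mem_chains] at hs ⊢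
      obtain ⟨m1, m2, m3⟩ := hspec s hs.1.1 hs.2
      refine ⟨⟨hchain s hs.1.1 hs.1.2 hs.2, ?_⟩, ?_⟩
      · intro V hV
        rw [mem_tc] at hV
        rcases hV with h | h
        · exact hs.1.2 V h.1
        · rw [h.1]
          exact h2 _ (hs.1.2 _ m1)
      · intro h
        exact m2 (h _ (mem_tc.2 (Or.inl ⟨m1, fun h8 => m2 h8.symm⟩)))
    · intro s hs
      change tc cl (tc cl s) = s
      unfold tc
      have h7 := hmo s
      unfold tc at h7
      rw [h7, symmDiff_assoc, symmDiff_self, symmDiff_bot]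
  rw [h0, add_zero, Finset.filter_filter]
  refine Finset.sum_congr ?_ fun _ _ => rfl
  ext s
  rw [Finset.mem_filter, Finset.mem_filter]
  exact ⟨fun h => ⟨h.1, fun V hV => ⟨h.2.1 V hV, h.2.2 V hV⟩⟩,
    fun h => ⟨h.1, fun V hV => (h.2 V hV).1, fun V hV => (h.2 V hV).2⟩⟩

end Closed

end P179H443
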