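import Vale.Agent.P179.R2.H443.RelN
import Vale.Agent.P179.R2.H364.QuoRoot

/-!
# The congruence modulo a power of `p`, with the action of the inertial group
-/

namespace P179H443

open Subgroup Finset P179H524 P179A P179C P179P P179Y P179H292 P179H725 P179H450 P179R P179H12
  P179H854 P179H364 P179H872

open P179B (NChain inertialGroup inertialIndex)

open scoped Classical

universe u

section Quo

variable {p : ℕ} [hp : Fact p.Prime] {k : Type u} [Field k] [IsAlgClosed k] [CharP k p]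

/-- the root of a block of `G / R`, for a normal `p`-subgroup `R` of `G` -/
theorem quoRootN {G : Type} [Group G] [Finite G] (R : Subgroup G) [R.Normal] (hR : IsPGroup p R)
    {B : MonoidAlgebra k G} {D : Subgroup G} {β : MonoidAlgebra k (centralizer (D : Set G))}
    (hB : IsBlock B) (hD : IsDefectGroup B D) (hab : ∀ a ∈ D, ∀ b ∈ D, a * b = b * a)
    (hRD : R ≤ D) (hβ : IsBlock β) (hβB : InducesTo β B) {B' : MonoidAlgebra k (G ⧸ R)}
    (hB' : IsBlock B')
    (hdom : B' * MonoidAlgebra.mapDomainAlgHom k k (QuotientGroup.mk' R) B = B') :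
    ∃ β' : MonoidAlgebra k
      (centralizer ((D.map (QuotientGroup.mk' R) : Subgroup (G ⧸ R)) : Set (G ⧸ R))),
      IsDefectGroup B' (D.map (QuotientGroup.mk' R)) ∧ IsBlock β' ∧ InducesTo β' B' ∧
      ∀ t' ∈ inertialGroup (D.map (QuotientGroup.mk' R)) β', ∃ t ∈ inertialGroup D β, ∀ d ∈ D,
        t' * QuotientGroup.mk' R d * t'⁻¹ = QuotientGroup.mk' R (t * d * t⁻¹) := by
  have := Fintype.ofFinite G
  have hfq := Fintype.ofFinite (G ⧸ R)
  have hDD' : IsDefectGroup B' (D.map (QuotientGroup.mk' R)) :=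
    isDefectGroup_quo p hB hD hab R hR hB' hdom
  obtain ⟨β₀, hβ₀, hβ₀B⟩ := exists_subblock (p := p) hB' hDD'
  obtain ⟨g, hg, hgt⟩ := exists_conj_quo (p := p) hB hD hab hβ hβB R hR hRD hB' hdom rfl hβ₀ hβ₀B
  have habD' : ∀ a ∈ D.map (QuotientGroup.mk' R), ∀ b ∈ D.map (QuotientGroup.mk' R),
      a * b = b * a := by
    rintro _ ⟨a, ha, rfl⟩ _ ⟨b, hb, rfl⟩
    rw [← map_mul, hab a ha b hb, map_mul]
  obtain ⟨lq, hlq, hlqz, hlqβ⟩ := exists_BP_of_subblock (p := p) hB' hDD' habD' hβ₀ hβ₀B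
  have hDp' := (exists_BP_of_block (p := p) B' hB' _ hDD').1
  have habD'' : D.map (QuotientGroup.mk' R) ≤
      centralizer ((D.map (QuotientGroup.mk' R) : Subgroup (G ⧸ R)) : Set (G ⧸ R)) := by
    intro x hx
    rw [mem_centralizer_iff]
    intro y hy
    exact habD' y hy x hx
  have hgN : (g : G ⧸ R) ∈ normalizer ((D.map (QuotientGroup.mk' R) : Subgroup (G ⧸ R)) :
      Set (G ⧸ R)) := by
    have key : ∀ n ∈ normalizer (D : Set G), ∀ y ∈ D.map (QuotientGroup.mk' R),
        (n : G ⧸ R) * y * (n : G ⧸ R)⁻¹ ∈ D.map (QuotientGroup.mk' R) := by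
      rintro n hn _ ⟨d, hd, rfl⟩
      exact ⟨n * d * n⁻¹, (mem_normalizer_iff.1 hn d).1 hd, rfl⟩
    rw [mem_normalizer_iff]
    refine fun y => ⟨key g hg y, fun h => ?_⟩
    have h1 := key g⁻¹ (inv_mem hg) _ h
    have h2 : ((g⁻¹ : G) : G ⧸ R) * ((g : G ⧸ R) * y * (g : G ⧸ R)⁻¹) *
        ((g⁻¹ : G) : G ⧸ R)⁻¹ = y := by
      rw [QuotientGroup.mk_inv]
      group
    rwa [h2] at h1
  have hl' := hlq.conjBP hgN
  obtain ⟨β', hβ', hlowβ'⟩ := exists_blk (BP.mulH hl' hDp' habD'' le_rfl)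
  refine ⟨β', hDD', hβ', inducesTo_of_low hl' (fun z hz => ?_) hlowβ', fun t' ht' => ?_⟩
  · rw [cj_eq_of_inv (hz (g : G ⧸ R)), hlqz z hz]
  · rw [← stabT_eq_inertialGroup hβ' hlowβ'] at ht'
    obtain ⟨t, rfl⟩ := QuotientGroup.mk_surjective t'
    have h1 : ((g * t * g⁻¹ : G) : G ⧸ R) ∈ inertialGroup (D.map (QuotientGroup.mk' R)) β₀ := by
      rw [← stabT_eq_inertialGroup hβ₀ hlqβ, QuotientGroup.mk_mul, QuotientGroup.mk_mul,
        QuotientGroup.mk_inv]
      refine ⟨mul_mem (mul_mem hgN ht'.1) (inv_mem hgN), fun z hz => ?_⟩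
      have h2 := ht'.2 _ (hz.cj (inv_mem hgN))
      change lq (cj (g : G ⧸ R) (cj (t : G ⧸ R) (cj (g : G ⧸ R)⁻¹ z))) =
        lq (cj (g : G ⧸ R) (cj (g : G ⧸ R)⁻¹ z)) at h2
      rw [cj_mul, cj_mul, h2, ← cj_mul, mul_inv_cancel, P179Y.cj_one]
    obtain ⟨s, hs, c, hc, hcs⟩ := hgt _ h1
    refine ⟨s, hs, fun d hd => ?_⟩
    have h2 : t = c * s := by
      rw [← hcs]
      group
    have hsN : s ∈ normalizer (D : Set G) := hs.1
    have h3 := hc (s * d * s⁻¹) ((mem_normalizer_iff.1 hsN d).1 hd)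
    rw [← QuotientGroup.eq_one_iff] at h3
    have h4 : t * d * t⁻¹ = c * (s * d * s⁻¹) * c⁻¹ * (s * d * s⁻¹)⁻¹ * (s * d * s⁻¹) := by
      rw [h2]
      group
    change ((t * d * t⁻¹ : G) : G ⧸ R) = _
    rw [h4, QuotientGroup.mk_mul, h3, one_mul]
    rfl

end Quo

section Loc

variable {p : ℕ} [hp : Fact p.Prime] {k : Type u} [Field k] [IsAlgClosed k] [hk : CharP k p]
  (red : integralClosure ℤ ℂ →+* k)

/-- the local block of a block of a group with a normal `p`-subgroup `M`: it has the same inertial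
group `T` and the fixed points of `C_T(M)` on `D` are normal -/
theorem exists_loc (hE : EqwStmt p k) {G : Type} [Group G] [Finite G]
    (M : Subgroup G) [hMn : M.Normal] (hM : IsPGroup p M) {B : MonoidAlgebra k G}
    {D : Subgroup G} {β : MonoidAlgebra k (centralizer (D : Set G))} (hB : IsBlock B)
    (hDB : IsDefectGroup B D) (hab : ∀ a ∈ D, ∀ b ∈ D, a * b = b * a) (hβ : IsBlock β)
    (hβB : InducesTo β B) :
    ∃ (L R : Subgroup G) (b : MonoidAlgebra k L)
      (ε : MonoidAlgebra k (centralizer ((D.subgroupOf L : Subgroup L) : Set L))),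
      inertialGroup D β ≤ L ∧ D ≤ L ∧ (R.subgroupOf L).Normal ∧ R ≤ D ∧
      (∀ x, x ∈ R ↔ x ∈ D ∧ ∀ t ∈ inertialGroup D β, t ∈ centralizer (M : Set G) →
        t * x * t⁻¹ = x) ∧
      IsBlock b ∧ IsDefectGroup b (D.subgroupOf L) ∧ IsBlock ε ∧ InducesTo ε b ∧
      (∀ t : L, t ∈ inertialGroup (D.subgroupOf L) ε ↔ (t : G) ∈ inertialGroup D β) ∧
      numSimpleIn B = numSimpleIn b ∧ numWeightsIn p red B = numWeightsIn p red b := by
  have := Fintype.ofFinite G
  obtain ⟨l, hl, hlz, hlβ⟩ := exists_BP_of_subblock (p := p) hB hDB hab hβ hβB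
  have hST : stabT D l = inertialGroup D β := stabT_eq_inertialGroup hβ hlβ
  have hD : IsPGroup p D := (exists_BP_of_block (p := p) B hB D hDB).1
  have hMD : M ≤ D := P179H725.le_defect (p := p) hB hDB M hM
  have hab' : D ≤ centralizer (D : Set G) := by
    intro x hx
    rw [mem_centralizer_iff]
    intro y hy
    exact hab y hy x hx
  have hT := hT_of_block hB hDB hD hab hl hlz
  have hCN : centralizer (D : Set G) ≤ centralizer (M : Set G) := centralizer_le hMD
  have hDN : D ≤ centralizer (M : Set G) := hab'.trans hCN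
  have hNn : (centralizer (M : Set G)).Normal := inferInstance
  have hmN : MulH (centralizer (M : Set G)) l := BP.mulH hl hD hab' hCN
  obtain ⟨b1, hb1, hlb1⟩ := exists_blk hmN
  have hbcf : IsCF (fun g => B.coeff g) := (P179C.mem_center_iff _).1 hB.1
  have hbb : conv (fun g => B.coeff g) (fun g => B.coeff g) = fun g => B.coeff g := by
    funext g
    rw [← coeff_mul_eq_conv, hB.2.1]
  -- the fixed points of `C_T(M)`
  obtain ⟨R, hR⟩ : ∃ R : Subgroup G, R = D ⊓ centralizer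
      ((stabT D l ⊓ centralizer (M : Set G) : Subgroup G) : Set G) := ⟨_, rfl⟩
  have hRmem : ∀ x, x ∈ R ↔ x ∈ D ∧
      ∀ t ∈ stabT D l, t ∈ centralizer (M : Set G) → t * x * t⁻¹ = x := by
    intro x
    rw [hR, Subgroup.mem_inf, mem_centralizer_iff]
    refine and_congr_right fun _ => ⟨fun h1 t ht htM => ?_, fun h1 t ht => ?_⟩
    · rw [h1 t ⟨ht, htM⟩, mul_inv_cancel_right]
    · have h2 := h1 t ht.1 ht.2
      calc t * x = t * x * t⁻¹ * t := by group
        _ = x * t := by rw [h2]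
  have hRD : R ≤ D := fun x hx => ((hRmem x).1 hx).1
  have hMR : M ≤ R := by
    intro x hx
    rw [hRmem]
    refine ⟨hMD hx, fun t _ htM => ?_⟩
    rw [← (mem_centralizer_iff.1 htM) x hx]
    group
  have hCRM : centralizer (R : Set G) ≤ centralizer (M : Set G) := centralizer_le hMR
  have hTN : stabT D l ≤ normalizer (D : Set G) := stabT_le_norm D l
  have hRT : ∀ t ∈ stabT D l, ∀ x ∈ R, t * x * t⁻¹ ∈ R := by
    intro t ht x hx
    rw [hRmem] at hx ⊢
    refine ⟨(mem_normalizer_iff.mp (hTN ht) x).mp hx.1, fun s hs hsM => ?_⟩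
    have h1 := hx.2 (t⁻¹ * s * t) (mul_mem (mul_mem (inv_mem ht) hs) ht) (by
      have := hNn.conj_mem s hsM t⁻¹
      rwa [inv_inv] at this)
    calc s * (t * x * t⁻¹) * s⁻¹ = t * (t⁻¹ * s * t * x * (t⁻¹ * s * t)⁻¹) * t⁻¹ := by group
      _ = t * x * t⁻¹ := by rw [h1]
  have hCT : ∀ t ∈ stabT D l, ∀ x ∈ centralizer (R : Set G),
      t * x * t⁻¹ ∈ centralizer (R : Set G) := by
    intro t ht x hx
    rw [mem_centralizer_iff] at hx ⊢
    intro r hr
    have h1 := hx (t⁻¹ * r * t) (by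
      have := hRT t⁻¹ (inv_mem ht) r hr
      rwa [inv_inv] at this)
    calc r * (t * x * t⁻¹) = t * (t⁻¹ * r * t * x) * t⁻¹ := by group
      _ = t * x * t⁻¹ * r := by rw [h1]; group
  have hCDC : centralizer (D : Set G) ≤ centralizer (R : Set G) := centralizer_le hRD
  have hDC : D ≤ centralizer (R : Set G) := hab'.trans hCDC
  have hmC : MulH (centralizer (R : Set G)) l := BP.mulH hl hD hab' hCDC
  -- the number of simple modules
  have e1 : numSimpleIn B =
      numSimpleIn (mkF fun g : (stabT D l ⊔ centralizer (R : Set G) : Subgroup G) =>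
        eH (centralizer (R : Set G)) l g) := by
    rw [P179H443.numSimple_fr (p := p) (H := centralizer (M : Set G)) hB
      (fun x hx => idem_supp (p := p) M hM hbcf hbb hx) hmN hlz hb1 hlb1, ← eH_eq hb1 hlb1,
      ← hE G D M R l hl hD hab' hT hMD (fun t _ x hx => hMn.conj_mem x hx t) hR]
    exact P179H292.numSimple_congr (stH_eq_sup hl hD hab' hT hDN hCN) _
  -- the block of `L`
  set L : Subgroup G := stabT D l ⊔ centralizer (R : Set G) with hL
  have hTL : stabT D l ≤ L := le_sup_left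
  have hCL : centralizer (R : Set G) ≤ L := le_sup_right
  have hCDL : centralizer (D : Set G) ≤ L := hCDC.trans hCL
  have hDL : D ≤ L := hDC.trans hCL
  have hmL : MulH L l := BP.mulH hl hD hab' hCDL
  obtain ⟨bL, hbL, hlbL, hebL⟩ := eH_spec hmL
  have hMn' : (M.subgroupOf L).Normal := inferInstance
  have hLinf : ∀ x ∈ L, x ∈ centralizer (M : Set G) → x ∈ centralizer (R : Set G) := by
    intro x hx hxM
    obtain ⟨t, ht, c, hc, rfl⟩ := mem_sup_of_norm hCT hx
    refine mul_mem ?_ hc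
    have htM : t ∈ centralizer (M : Set G) := by
      have h1 := mul_mem hxM (inv_mem (hCRM hc))
      rwa [mul_inv_cancel_right] at h1
    rw [mem_centralizer_iff]
    intro r hr
    have h1 := ((hRmem r).1 hr).2 t ht htM
    calc r * t = t * r * t⁻¹ * t := by rw [h1]
      _ = t * r := by group
  have hsupp : ∀ x, x ∉ centralizer (R : Set G) → eH L l x = 0 := by
    intro x hx
    rw [hebL]
    by_cases hxL : x ∈ L
    · unfold bF
      rw [ext_of_mem L _ hxL]
      have hbb' : conv (fun g => bL.coeff g) (fun g => bL.coeff g) = fun g => bL.coeff g := by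
        funext g
        rw [← coeff_mul_eq_conv, hbL.2.1]
      refine idem_supp (p := p) (M.subgroupOf L) hM.comap_subtype
        ((P179C.mem_center_iff _).1 hbL.1) hbb' (g := ⟨x, hxL⟩) fun h => hx (hLinf x hxL ?_)
      rw [mem_centralizer_iff] at h ⊢
      intro m hm
      have h2 := h ⟨m, hDL (hMD hm)⟩ (mem_subgroupOf.2 hm)
      exact congrArg Subtype.val h2
    · exact ext_of_not_mem L _ hxL
  have hst : ∀ g ∈ L, g ∈ stH (centralizer (R : Set G)) l := by
    have h1 : L ≤ stH (centralizer (R : Set G)) l := by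
      refine sup_le (fun t ht => ?_) le_stH
      refine stabT_le_stH hl hCDC ht ?_
      rw [mem_normalizer_iff]
      intro x
      refine ⟨fun hx => hCT t ht x hx, fun hx => ?_⟩
      have h2 := hCT t⁻¹ (inv_mem ht) _ hx
      have h3 : t⁻¹ * (t * x * t⁻¹) * t⁻¹⁻¹ = x := by group
      rwa [h3] at h2
    exact fun g hg => h1 hg
  have e2 : numSimpleIn (mkF fun g : L => eH (centralizer (R : Set G)) l g) =
      numSimpleIn bL := by
    rw [← eH_eq_of_supp hCL hmC hmL hst hsupp, hebL, mkF_bF]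
  have hdf := isDefectGroup_low (p := p) hl hD hab hT hDL hCDL hbL hlbL
  have hRn : (R.subgroupOf L).Normal := by
    refine ⟨fun x hx g => ?_⟩
    rw [mem_subgroupOf] at hx ⊢
    obtain ⟨t, ht, c, hc, htc⟩ := mem_sup_of_norm hCT g.2
    have h1 : c * (x : G) * c⁻¹ = x := by
      rw [← (mem_centralizer_iff.1 hc) x hx]
      group
    have h2 : ((g * x * g⁻¹ : L) : G) = t * (c * x * c⁻¹) * t⁻¹ := by
      push_cast
      rw [htc]
      group
    rw [h2, h1]
    exact hRT t ht x hx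
  have hRp : IsPGroup p (R.subgroupOf L) := (hD.to_le hRD).comap_subtype
  have habL : ∀ a ∈ D.subgroupOf L, ∀ c ∈ D.subgroupOf L, a * c = c * a := fun a ha c hc =>
    ((mem_centralizer_iff.1 (comm_subgroupOf hab' hDL ha)) c hc).symm
  obtain ⟨ε, hε, hlε, -⟩ := exists_root_below hl hD hab' hDL hCDL hβ hlβ
  refine ⟨L, R, bL, ε, hST ▸ hTL, hDL, hRn, hRD, fun x => by rw [hRmem, hST], hbL, hdf, hε,
    inducesTo_of_low (hl.restrict hDL hCDL) (Low.char hlbL) hlε, fun t => ?_, e1.trans e2, ?_⟩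
  · rw [← stabT_eq_inertialGroup hε hlε, mem_stabT_lres hDL hCDL, hST]
  · rw [numWeightsIn_below red hl hD hab' hT hDL hCDL hbL hlbL hdf hβ hlβ,
      numWeightsIn_eq_stabT red hB hDB hab hl hD hT hlz hβ hlβ]
    exact (P179H292.numSimple_congr (inf_eq_left.mpr hTL) _).symm

/-- **(W6)** with the action of the inertial group -/
theorem eq_of_eqw_act (hE : EqwStmt p k) {G : Type} [Group G] [Finite G]
    (M : Subgroup G) [hMn : M.Normal] (hM : IsPGroup p M) {B : MonoidAlgebra k G}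
    {D : Subgroup G} {β : MonoidAlgebra k (centralizer (D : Set G))} (hB : IsBlock B)
    (hDB : IsDefectGroup B D) (hab : ∀ a ∈ D, ∀ b ∈ D, a * b = b * a) (hβ : IsBlock β)
    (hβB : InducesTo β B)
    (h : EqForAct p red (⁅inertialGroup D β ⊓ centralizer (M : Set G), D⁆ : Subgroup G)
      (inertialGroup D β ⊓ normalizer
        ((⁅inertialGroup D β ⊓ centralizer (M : Set G), D⁆ : Subgroup G) : Set G))) :
    numSimpleIn B = numWeightsIn p red B := by
  obtain ⟨L, R, b, ε, hTL, hDL, hRn, hRD, hRmem, hb, hdf, hε, hεb, hT, hl, hw⟩ :=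
    exists_loc red hE M hM hB hDB hab hβ hβB
  rw [hl, hw]
  have hD : IsPGroup p D := by
    have := Fintype.ofFinite G
    exact (exists_BP_of_block (p := p) B hB D hDB).1
  have hCT : centralizer (D : Set G) ≤ inertialGroup D β := by
    have := Fintype.ofFinite G
    obtain ⟨l, hl, hlz, hlb⟩ := exists_BP_of_subblock (p := p) hB hDB hab hβ hβB
    rw [← stabT_eq_inertialGroup hβ hlb]
    exact cent_le_stabT D l
  have hnd : ¬ p ∣ (centralizer (D : Set G)).relIndex (inertialGroup D β) := by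
    have := Fintype.ofFinite G
    obtain ⟨l, hl, hlz, hlb⟩ := exists_BP_of_subblock (p := p) hB hDB hab hβ hβB
    rw [← stabT_eq_inertialGroup hβ hlb]
    exact hT_of_block hB hDB hD hab hl hlz
  have hMD : M ≤ D := P179H725.le_defect (p := p) hB hDB M hM
  have hTN : inertialGroup D β ≤ normalizer (D : Set G) := fun n hn => hn.1
  set F : Subgroup G := inertialGroup D β ⊓ centralizer (M : Set G) with hFdef
  have hFN : F ≤ normalizer (D : Set G) := inf_le_left.trans hTN
  have hF : ¬ p ∣ (centralizer (D : Set G)).relIndex F := by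
    intro h1
    apply hnd
    refine h1.trans ?_
    rw [← relIndex_mul_relIndex (centralizer (D : Set G)) F (inertialGroup D β)
      (le_inf hCT (centralizer_le hMD)) inf_le_left]
    exact dvd_mul_right _ _
  -- the inertial group normalises `[D, F]`
  have hTK : ∀ t ∈ inertialGroup D β, t ∈ normalizer ((⁅F, D⁆ : Subgroup G) : Set G) := by
    have key : ∀ t ∈ inertialGroup D β, (⁅F, D⁆ : Subgroup G) ≤
        (⁅F, D⁆ : Subgroup G).comap (MulAut.conj t).toMonoidHom := by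
      intro t ht
      rw [commutator_le]
      intro f hf d hd
      rw [mem_comap]
      change t * (f * d * f⁻¹ * d⁻¹) * t⁻¹ ∈ _
      have h0 : t * f * t⁻¹ ∈ F := Subgroup.mem_inf.2
        ⟨mul_mem (mul_mem ht (Subgroup.mem_inf.1 hf).1) (inv_mem ht),
        (inferInstance : (centralizer (M : Set G)).Normal).conj_mem f
          (Subgroup.mem_inf.1 hf).2 t⟩
      have h2 := commutator_mem_commutator h0 ((mem_normalizer_iff.1 (hTN ht) d).1 hd)
      have h1 : t * (f * d * f⁻¹ * d⁻¹) * t⁻¹ =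
          t * f * t⁻¹ * (t * d * t⁻¹) * (t * f * t⁻¹)⁻¹ * (t * d * t⁻¹)⁻¹ := by group
      rw [h1]
      exact h2
    intro t ht
    rw [mem_normalizer_iff]
    refine fun x => ⟨fun hx => key t ht hx, fun hx => ?_⟩
    have h1 := key t⁻¹ (inv_mem ht) hx
    rw [mem_comap] at h1
    change t⁻¹ * (t * x * t⁻¹) * t⁻¹⁻¹ ∈ _ at h1
    have h2 : t⁻¹ * (t * x * t⁻¹) * t⁻¹⁻¹ = x := by group
    rwa [h2] at h1
  have hKD : (⁅F, D⁆ : Subgroup G) ≤ D := comm_le hFN
  have hRp : IsPGroup p (R.subgroupOf L) := (hD.to_le hRD).comap_subtype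
  refine P179R.eq_of_quo p red (R.subgroupOf L) hRp hb fun B' hB' hBB' => ?_
  have habL : ∀ a ∈ D.subgroupOf L, ∀ c ∈ D.subgroupOf L, a * c = c * a := fun a ha c hc =>
    Subtype.ext (hab a ha c hc)
  obtain ⟨β', hD', hβ', hβB', hact⟩ := quoRootN (R.subgroupOf L) hRp hb hdf habL
    (fun x hx => hRD hx) hε hεb hB' hBB'
  -- the isomorphism
  let q : L →* L ⧸ (R.subgroupOf L) := QuotientGroup.mk' (R.subgroupOf L)
  have hgm : ∀ x : (⁅F, D⁆ : Subgroup G), q ⟨x, hDL (hKD x.2)⟩ ∈ (D.subgroupOf L).map q :=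
    fun x => ⟨⟨x, hDL (hKD x.2)⟩, mem_subgroupOf.2 (hKD x.2), rfl⟩
  let g : (⁅F, D⁆ : Subgroup G) →* ((D.subgroupOf L).map q) :=
    (q.comp (inclusion (hKD.trans hDL))).codRestrict _ hgm
  have hg : ∀ x, ((g x : (D.subgroupOf L).map q) : L ⧸ (R.subgroupOf L)) =
      q ⟨x, hDL (hKD x.2)⟩ := fun x => rfl
  have hker : ∀ y : L, q y = 1 ↔ (y : G) ∈ R := fun y => by
    change QuotientGroup.mk' (R.subgroupOf L) y = 1 ↔ _
    rw [QuotientGroup.mk'_apply, QuotientGroup.eq_one_iff, mem_subgroupOf]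
  have hgi : Function.Injective g := by
    rw [injective_iff_map_eq_one]
    intro x hgx
    have h1 : q ⟨x, hDL (hKD x.2)⟩ = 1 := by
      rw [← hg, hgx]
      rfl
    have h2 := (hRmem _).1 ((hker _).1 h1)
    apply Subtype.ext
    exact comm_inf_fix hD hab hFN hF (x := (x : G)) x.2 fun t ht => h2.2 t ht.1 ht.2
  have hgs : Function.Surjective g := by
    rintro ⟨_, d, hd, rfl⟩
    obtain ⟨y, hy, hyfix, z, hz, hyz⟩ := mem_fix_mul hD hab hFN hF (mem_subgroupOf.1 hd)
    refine ⟨⟨z, hz⟩, ?_⟩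
    apply Subtype.ext
    change q ⟨z, _⟩ = q d
    have h1 : q ⟨y, hDL hy⟩ = 1 :=
      (hker _).2 ((hRmem y).2 ⟨hy, fun t ht htM => hyfix t ⟨ht, htM⟩⟩)
    have h2 : d = ⟨y, hDL hy⟩ * ⟨z, hDL (hKD hz)⟩ := Subtype.ext hyz
    rw [h2, map_mul, h1, one_mul]
  refine h (L ⧸ (R.subgroupOf L)) B' _ β' hB' hD' ?_ hβ' hβB'
    ⟨MulEquiv.ofBijective g ⟨hgi, hgs⟩, fun t' ht' => ?_⟩
  · rintro _ ⟨a, ha, rfl⟩ _ ⟨c, hc, rfl⟩
    rw [← map_mul, ← map_mul, habL a ha c hc]
  · obtain ⟨t, ht, htd⟩ := hact t' ht'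
    have ht1 := (hT t).1 ht
    refine ⟨t, ⟨ht1, hTK t ht1⟩, fun x y hxy => ?_⟩
    change q ⟨y, _⟩ = t' * q ⟨x, _⟩ * t'⁻¹
    rw [htd ⟨x, hDL (hKD x.2)⟩ (mem_subgroupOf.2 (hKD x.2))]
    congr 1
    exact Subtype.ext hxy

/-- the equality holds for the defect groups `[D, F]` with the action of the normaliser of
`[D, F]` in `T`, for the subgroups `F` of `T` not centralising `D` but centralising a subgroup
`M ≠ 1` of `D` which contains `D ^ (p ^ a)` -/
def StarA (p : ℕ) {k : Type u} [Field k] (red : integralClosure ℤ ℂ →+* k) {G : Type*} [Group G]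
    (a : ℕ) (D T : Subgroup G) : Prop :=
  ∀ F ≤ T, centralizer (D : Set G) ≤ F → ∀ M ≤ D, M ≠ ⊥ → (∀ d ∈ D, d ^ p ^ a ∈ M) →
    F ≤ centralizer (M : Set G) → ¬ F ≤ centralizer (D : Set G) →
    EqForAct p red (⁅F, D⁆ : Subgroup G) (T ⊓ normalizer ((⁅F, D⁆ : Subgroup G) : Set G))

omit [IsAlgClosed k] hk hp in
theorem starA_below {G : Type*} [Group G] {a : ℕ} {D T : Subgroup G} (h : StarA p red a D T)
    {H : Subgroup G}
    {E TE : Subgroup H} {g : G} (h0 : ∀ c ∈ centralizer (D : Set G), g * c * g⁻¹ ∈ H)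
    (h1 : ∀ x ∈ D, g * x * g⁻¹ ∈ H) (h2 : ∀ x : H, x ∈ E ↔ g⁻¹ * x * g ∈ D)
    (h3 : ∀ n : H, n ∈ TE ↔ g⁻¹ * n * g ∈ T) : StarA p red a E TE := by
  intro F' hF' hCF' M' hM' hM1 hpow hFM hFE
  let φ : H →* G := (MulAut.conj g⁻¹).toMonoidHom.comp H.subtype
  have hφ : ∀ x : H, φ x = g⁻¹ * x * g := by
    intro x
    change g⁻¹ * (x : G) * g⁻¹⁻¹ = _
    rw [inv_inv]
  have hφi : Function.Injective φ := (MulAut.conj g⁻¹).injective.comp H.subtype_injective
  have hED : E.map φ = D := by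
    ext x
    constructor
    · rintro ⟨e, he, rfl⟩
      rw [hφ]
      exact (h2 e).1 he
    · intro hx
      refine ⟨⟨g * x * g⁻¹, h1 x hx⟩, ?_, ?_⟩
      · rw [SetLike.mem_coe, h2]
        have h5 : g⁻¹ * (g * x * g⁻¹) * g = x := by group
        change g⁻¹ * (g * x * g⁻¹) * g ∈ D
        rwa [h5]
      · rw [hφ]
        change g⁻¹ * (g * x * g⁻¹) * g = x
        group
  have hmemD : ∀ x ∈ D, ∃ e ∈ E, φ e = x := by
    intro x hx
    rw [← hED] at hx
    exact hx
  have hK : (⁅F'.map φ, D⁆ : Subgroup G) = (⁅F', E⁆ : Subgroup H).map φ := by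
    rw [map_commutator, hED]
  have hmain : EqForAct p red (⁅F'.map φ, D⁆ : Subgroup G)
      (T ⊓ normalizer ((⁅F'.map φ, D⁆ : Subgroup G) : Set G)) := by
    refine h (F'.map φ) ?_ ?_ (M'.map φ) ?_ ?_ ?_ ?_ ?_
    · rintro _ ⟨f, hf, rfl⟩
      rw [hφ]
      exact (h3 f).1 (hF' hf)
    · intro c hc
      refine ⟨⟨g * c * g⁻¹, h0 c hc⟩, hCF' ?_, ?_⟩
      · rw [mem_centralizer_iff]
        intro e he
        apply Subtype.ext
        change (e : G) * (g * c * g⁻¹) = g * c * g⁻¹ * e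
        have h4 := mem_centralizer_iff.1 hc _ ((h2 e).1 he)
        calc (e : G) * (g * c * g⁻¹) = g * (g⁻¹ * e * g * c) * g⁻¹ := by group
          _ = g * c * g⁻¹ * e := by rw [h4]; group
      · rw [hφ]
        change g⁻¹ * (g * c * g⁻¹) * g = c
        group
    · rw [← hED]
      exact map_mono hM'
    · intro h4
      exact hM1 ((map_eq_bot_iff_of_injective _ hφi).1 h4)
    · intro d hd
      obtain ⟨e, he, rfl⟩ := hmemD d hd
      rw [← map_pow]
      exact mem_map_of_mem φ (hpow e he)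
    · rintro _ ⟨f, hf, rfl⟩
      rw [mem_centralizer_iff]
      rintro _ ⟨m, hm, rfl⟩
      rw [← map_mul, ← map_mul, mem_centralizer_iff.1 (hFM hf) m hm]
    · intro h4
      apply hFE
      intro f hf
      rw [mem_centralizer_iff]
      intro e he
      apply hφi
      rw [map_mul, map_mul]
      exact mem_centralizer_iff.1 (h4 (mem_map_of_mem φ hf)) (φ e) (by
        rw [SetLike.mem_coe, ← hED]
        exact mem_map_of_mem φ he)
  let e : (⁅F'.map φ, D⁆ : Subgroup G) ≃* (⁅F', E⁆ : Subgroup H) :=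
    ((equivMapOfInjective _ φ hφi).trans (MulEquiv.subgroupCongr hK.symm)).symm
  have he : ∀ x, φ (e x : H) = (x : G) := by
    intro x
    have h4 : ((e.symm (e x) : (⁅F'.map φ, D⁆ : Subgroup G)) : G) = φ (e x : H) := rfl
    rw [← h4, MulEquiv.symm_apply_apply]
  refine hmain.congr ⟨e, fun t' ht' => ⟨φ t', Subgroup.mem_inf.2 ⟨?_, ?_⟩, fun x y hxy => ?_⟩⟩
  · rw [hφ]
    exact (h3 t').1 ht'.1
  · rw [hK, mem_normalizer_iff]
    intro x
    constructor
    · rintro ⟨y, hy, rfl⟩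
      rw [← map_inv, ← map_mul, ← map_mul]
      exact mem_map_of_mem φ ((mem_normalizer_iff.1 ht'.2 y).1 hy)
    · rintro ⟨y, hy, hyx⟩
      have h4 : x = φ (t'⁻¹ * y * t') := by
        rw [map_mul, map_mul, map_inv, hyx]
        group
      rw [h4]
      refine mem_map_of_mem φ ((mem_normalizer_iff.1 ht'.2 _).2 ?_)
      have h5 : t' * (t'⁻¹ * y * t') * t'⁻¹ = y := by group
      rwa [h5]
  · apply hφi
    rw [he, map_mul, map_mul, map_inv, he, hxy]

/-- **The congruence modulo `p ^ (a + 1)`**, with the action of the inertial group. -/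
theorem dvd_of_eqw_act (hE : EqwStmt p k) (hkr : P179H292.KrWr p k)
    (hEq : P179H725.EqRel p red) (hQ : P179H725.DefQuo p k) (a : ℕ) :
    ∀ (N : ℕ) (G : Type) [Group G] [Finite G], Nat.card G = N →
      ∀ (B : MonoidAlgebra k G) (D : Subgroup G) (β : MonoidAlgebra k (centralizer (D : Set G))),
      IsBlock B → IsDefectGroup B D → (∀ a ∈ D, ∀ b ∈ D, a * b = b * a) → IsBlock β →
      InducesTo β B → (∃ d ∈ D, d ^ p ^ a ≠ 1) → StarA p red a D (inertialGroup D β) →
      (p : ℤ) ^ (a + 1) ∣ (numSimpleIn B : ℤ) - numWeightsIn p red B := by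
  intro N
  induction N using Nat.strong_induction_on with
  | _ N ih =>
  intro G _ _ hN B D β hB hD hab hβ hβB hex hstar
  have := Fintype.ofFinite G
  by_cases hT : ∀ n ∈ inertialGroup D β, n ∈ centralizer (D : Set G)
  · have h1 : inertialIndex D β = 1 := relIndex_eq_one.2 hT
    have h2 := P179I.equality_half red hB hD hab hβ hβB (by rw [h1]; exact hp.out.two_le)
    rw [h2, sub_self]
    exact dvd_zero _
  obtain ⟨R, hRn, hR, hO⟩ := P179H725.exists_Op p G
  by_cases hC : ∀ n ∈ inertialGroup D β, n ∈ centralizer (R : Set G) →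
      n ∈ centralizer (D : Set G)
  · have hR1 : R ≠ ⊥ := by
      rintro rfl
      apply hT
      intro n hn
      refine hC n hn ?_
      rw [mem_centralizer_iff]
      intro x hx
      rw [SetLike.mem_coe, mem_bot] at hx
      rw [hx, one_mul, mul_one]
    rw [hEq G B D β R hR hR1 hB hD hab hβ hβB hC, sub_self]
    exact dvd_zero _
  push Not at hC
  obtain ⟨n, hn, hnR, hnD⟩ := hC
  have hRD : R ≤ D := P179H725.le_defect hB hD R hR
  have hCT : centralizer (D : Set G) ≤ inertialGroup D β := by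
    obtain ⟨l, hl, hlz, hlb⟩ := P179Y.exists_BP_of_subblock (p := p) hB hD hab hβ hβB
    rw [← P179Y.stabT_eq_inertialGroup hβ hlb]
    exact P179Y.cent_le_stabT D l
  by_cases hdR : ∀ d ∈ D, d ^ p ^ a ∈ R
  · have hR1 : R ≠ ⊥ := by
      rintro rfl
      obtain ⟨d, hd, hd1⟩ := hex
      exact hd1 (mem_bot.1 (hdR d hd))
    rw [eq_of_eqw_act red hE R hR hB hD hab hβ hβB (hstar _ inf_le_left
      (le_inf hCT (centralizer_le hRD)) R hRD hR1 hdR inf_le_right
      fun h => hnD (h ⟨hn, hnR⟩)), sub_self]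
    exact dvd_zero _
  push Not at hdR
  obtain ⟨d, hd, hdR⟩ := hdR
  have hbelow : ∀ B' : MonoidAlgebra k (G ⧸ R), IsBlock B' → B' * quo R B = B' →
      ∃ D' : Subgroup (G ⧸ R), IsDefectGroup B' D' ∧ ∃ z : D', z ∈ center D' ∧
        z ^ p ^ a ∉ commutator D' := by
    intro B' hB' hBB'
    obtain ⟨D', g, hD', hg⟩ := hQ G B D R B' hR hB hD hab hB' hBB'
    have habD : ∀ x ∈ D', ∀ y ∈ D', x * y = y * x := by
      intro x hx y hy
      obtain ⟨x0, hx0, hx1⟩ := (hg x).1 hx
      obtain ⟨y0, hy0, hy1⟩ := (hg y).1 hy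
      have h1 : (QuotientGroup.mk' R) (x0 * y0) = (QuotientGroup.mk' R) (y0 * x0) :=
        congrArg _ (hab x0 hx0 y0 hy0)
      rw [map_mul, map_mul, hx1, hy1] at h1
      calc x * y = g * (g⁻¹ * x * g * (g⁻¹ * y * g)) * g⁻¹ := by group
        _ = y * x := by rw [h1]; group
    have hcomm : commutator D' = ⊥ := by
      rw [_root_.commutator_def, commutator_eq_bot_iff_le_centralizer]
      intro x _
      rw [mem_centralizer_iff]
      intro y _
      exact Subtype.ext (habD y y.2 x x.2)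
    have hz : g * (d : G ⧸ R) * g⁻¹ ∈ D' := by
      rw [hg]
      have : g⁻¹ * (g * (d : G ⧸ R) * g⁻¹) * g = d := by group
      rw [this]
      exact ⟨d, hd, rfl⟩
    refine ⟨D', hD', ⟨_, hz⟩, ?_, ?_⟩
    · rw [Subgroup.mem_center_iff]
      intro y
      exact Subtype.ext (habD y y.2 _ hz)
    · rw [hcomm, mem_bot]
      intro h1
      have h2 : (g * (d : G ⧸ R) * g⁻¹) ^ p ^ a = 1 := congrArg Subtype.val h1
      rw [conj_pow] at h2
      have h3 : ((d : G ⧸ R)) ^ p ^ a = 1 := by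
        calc (d : G ⧸ R) ^ p ^ a = g⁻¹ * (g * (d : G ⧸ R) ^ p ^ a * g⁻¹) * g := by group
          _ = 1 := by rw [h2]; group
      apply hdR
      rw [← QuotientGroup.eq_one_iff]
      exact h3
  refine P179H854.delta_dvd_quo (R := R) red hR hO hB _ ?_ ?_ ?_
  · intro B' hB' hBB'
    obtain ⟨D', hD', z, -, hz⟩ := hbelow B' hB' hBB'
    refine ⟨D', hD', ?_⟩
    rintro rfl
    apply hz
    have : z ^ p ^ a = 1 := Subsingleton.elim _ _
    rw [this]
    exact one_mem _
  · intro B' hB' hBB'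
    obtain ⟨D', hD', z, hz, hz1⟩ := hbelow B' hB' hBB'
    exact P179H292.pow_dvd_krSum hkr a (G ⧸ R) B' hB' D' hD' z hz hz1
  · intro s _ hs b hb hbB
    obtain ⟨M, hMs, -, hMp, hM1, hMle, hMn, hMC⟩ := P179H725.exists_top s
    have hHM : stab s.1 ≤ normalizer (M : Set G) := fun g hg => (mem_stab.1 hg) M hMs
    obtain ⟨E, ε, g, hE, hME, hEab, hε, hεb, -, -, hg1, hg2, hg3⟩ :=
      P179H725.below_data hB hD hab hβ hβB hMp hMle hHM hMC hb hbB
    have hg0 : ∀ c ∈ centralizer (D : Set G), g * c * g⁻¹ ∈ stab s.1 := by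
      intro c hc
      apply hMC
      rw [mem_centralizer_iff]
      intro m hm
      have h4 : g⁻¹ * m * g ∈ D := (hg2 ⟨m, hMle hm⟩).1 (hME (mem_subgroupOf.2 hm))
      have h5 := mem_centralizer_iff.1 hc _ h4
      calc m * (g * c * g⁻¹) = g * (g⁻¹ * m * g * c) * g⁻¹ := by group
        _ = g * c * g⁻¹ * m := by rw [h5]; group
    refine ih (Nat.card (stab s.1)) ?_ (stab s.1) rfl b E ε hb hE hEab hε hεb ?_
      (starA_below red hstar hg0 hg1 hg2 hg3)
    · rw [← hN]
      exact lt_of_le_of_ne (card_le_card_group (stab s.1))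
        fun h => hs (card_eq_iff_eq_top _ |>.1 h)
    · obtain ⟨d, hd, hd1⟩ := hex
      refine ⟨⟨g * d * g⁻¹, hg1 d hd⟩, (hg2 _).2 ?_, ?_⟩
      · have h5 : g⁻¹ * (g * d * g⁻¹) * g = d := by group
        change g⁻¹ * (g * d * g⁻¹) * g ∈ D
        rwa [h5]
      · intro h1
        have h2 : (g * d * g⁻¹) ^ p ^ a = 1 := congrArg Subtype.val h1
        rw [conj_pow] at h2
        apply hd1
        calc d ^ p ^ a = g⁻¹ * (g * d ^ p ^ a * g⁻¹) * g := by group
          _ = 1 := by rw [h2]; group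

end Loc

end P179H443
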