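import Vale.Agent.P179.R2.H443.RelA
import Vale.Agent.P179.R2.H351.Ind7

/-!
# The congruence modulo a power of `p`, with the action: the forms used in the final induction
-/

namespace P179H443

open Subgroup P179H524 P179A P179C P179Y P179H292

open P179B (NChain inertialGroup inertialIndex)

open scoped Classical

universe u

variable {p : ℕ} [hp : Fact p.Prime] {k : Type u} [Field k] [IsAlgClosed k] [hk : CharP k p]
  (red : integralClosure ℤ ℂ →+* k)

/-- the congruence, relative to the groups `[D, F]` with the action of their normalisers in `T` -/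
theorem dvd_of_starA (hE : EqwStmt p k) {G : Type} [Group G] [Finite G] {B : MonoidAlgebra k G}
    (hB : P179B.IsBlock B) {D : Subgroup G} (hDB : P179B.IsDefectGroup B D)
    (hab : ∀ x ∈ D, ∀ y ∈ D, x * y = y * x) {β : MonoidAlgebra k (centralizer (D : Set G))}
    (hβ : P179B.IsBlock β) (hβB : P179B.InducesTo β B) {a : ℕ} (hex : ∃ d ∈ D, d ^ p ^ a ≠ 1)
    (h : StarA p red a D (inertialGroup D β)) :
    (p : ℤ) ^ (a + 1) ∣ (P179B.numSimpleIn B : ℤ) - P179B.numWeightsIn p red B := by
  rw [P179B.numSimpleIn_eq, P179B.numWeightsIn_eq]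
  exact dvd_of_eqw_act red hE (krWr p k) (P179H843.eqRel p k red) (P179H450.defQuo p k) a
    _ G rfl B D β hB hDB hab hβ ((P179B.inducesTo_iff β B).1 hβB) hex h

omit hp [IsAlgClosed k] hk in
/-- a smaller acting group -/
theorem EqForAct.mono {G : Type*} [Group G] {K S T : Subgroup G} (h : EqForAct p red K T)
    (hST : S ≤ T) : EqForAct p red K S := by
  intro X _ _ B D β hB hD hab hβ hβB hA
  refine h X B D β hB hD hab hβ hβB ?_
  obtain ⟨e, he⟩ := hA
  refine ⟨e, fun t' ht' => ?_⟩
  obtain ⟨t, ht, h1⟩ := he t' ht'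
  exact ⟨t, hST ht, h1⟩

theorem w7Act_of (hE : EqwStmt p k) : P179H351.W7ActStmt p k red := by
  intro G _ _ B D β a hB hDB hab hβ hβB hex hstar
  refine dvd_of_starA red hE hB hDB hab hβ hβB hex fun F hFT hCF M hMD hM1 hM hFM hFD => ?_
  exact EqForAct.mono red (hstar F hFT hCF M hMD hM1 hM hFM hFD) inf_le_left

end P179H443
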