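import Vale.Agent.P179.R2.H443.EqwDef
import Vale.Agent.P179.R2.H292.Hyp

/-!
# The equality for the blocks of a group with a normal `p`-subgroup, relative to `EqwStmt`
-/

namespace P179H443

open Subgroup P179H524 P179C P179A P179P P179Y P179H12 P179H872 P179H854

open P179B (inertialGroup inertialIndex)

open scoped Classical

universe u

section Gp

variable {p : ℕ} [hp : Fact p.Prime] {G : Type*} [Group G] [Finite G] {D F : Subgroup G}

/-- a group which is an image of `D` with kernel the fixed points of `F` on `D` is isomorphic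
to `[F, D]` -/
theorem equiv_of_fix (hD : IsPGroup p D) (hab : ∀ a ∈ D, ∀ b ∈ D, a * b = b * a)
    (hFN : F ≤ normalizer (D : Set G)) (hF : ¬ p ∣ (centralizer (D : Set G)).relIndex F)
    {Y : Type*} [Group Y] (f : D →* Y) (hfs : Function.Surjective f)
    (hfk : ∀ d : D, f d = 1 ↔ ∀ t ∈ F, t * (d : G) * t⁻¹ = d) :
    Nonempty ((⁅F, D⁆ : Subgroup G) ≃* Y) := by
  have hKD : (⁅F, D⁆ : Subgroup G) ≤ D := P179H292.comm_le hFN
  let g : (⁅F, D⁆ : Subgroup G) →* Y := f.comp (inclusion hKD)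
  refine ⟨MulEquiv.ofBijective g ⟨?_, ?_⟩⟩
  · rw [injective_iff_map_eq_one]
    rintro ⟨x, hx⟩ hgx
    have h1 : f ⟨x, hKD hx⟩ = 1 := hgx
    have h2 := (hfk _).1 h1
    apply Subtype.ext
    exact P179H292.comm_inf_fix hD hab hFN hF (x := x) hx h2
  · intro d'
    obtain ⟨d, rfl⟩ := hfs d'
    obtain ⟨y, hy, hyfix, z, hz, hyz⟩ := P179H292.mem_fix_mul hD hab hFN hF d.2
    refine ⟨⟨z, hz⟩, ?_⟩
    have h1 : f ⟨y, hy⟩ = 1 := (hfk _).2 hyfix
    have h2 : d = ⟨y, hy⟩ * ⟨z, hKD hz⟩ := Subtype.ext hyz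
    change f ⟨z, hKD hz⟩ = f d
    rw [h2, map_mul, h1, one_mul]

end Gp

section Sup

variable {G : Type*} [Group G] {T C : Subgroup G}

theorem mem_sup_of_norm (hTC : ∀ t ∈ T, ∀ x ∈ C, t * x * t⁻¹ ∈ C) {g : G} (hg : g ∈ T ⊔ C) :
    ∃ t ∈ T, ∃ c ∈ C, g = t * c := by
  let P : Subgroup G :=
    { carrier := {g | ∃ t ∈ T, ∃ c ∈ C, g = t * c}
      mul_mem' := by
        rintro a b ⟨t, ht, c, hc, rfl⟩ ⟨s, hs, d, hd, rfl⟩
        refine ⟨t * s, mul_mem ht hs, s⁻¹ * c * s * d, mul_mem ?_ hd, by group⟩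
        have h1 := hTC s⁻¹ (inv_mem hs) c hc
        rwa [inv_inv] at h1
      one_mem' := ⟨1, one_mem _, 1, one_mem _, by group⟩
      inv_mem' := by
        rintro a ⟨t, ht, c, hc, rfl⟩
        exact ⟨t⁻¹, inv_mem ht, t * c⁻¹ * t⁻¹, hTC t ht _ (inv_mem hc), by group⟩ }
  have h1 : T ⊔ C ≤ P := sup_le (fun t ht => ⟨t, ht, 1, one_mem _, by group⟩)
    fun c hc => ⟨1, one_mem _, c, hc, by group⟩
  exact h1 hg

end Sup

section Blk

variable {p : ℕ} [hp : Fact p.Prime] {k : Type u} [Field k] [IsAlgClosed k] [CharP k p]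
  {G : Type} [Group G] [Fintype G] {D C L : Subgroup G} {l : (G → k) → k}

/-- the block of `L` below `l` is the block of `C` below `l`, if it is supported on `C` and
`L` stabilises the latter -/
theorem eH_eq_of_supp (hCL : C ≤ L) (hmC : MulH C l) (hmL : MulH L l)
    (hst : ∀ g ∈ L, g ∈ stH C l) (hsupp : ∀ x, x ∉ C → eH L l x = 0) : eH L l = eH C l := by
  obtain ⟨b, hb, hlb, heb⟩ := eH_spec hmC
  obtain ⟨c, hc, hlc, hec⟩ := eH_spec hmL
  have hinvL : InvOn L (eH L l) := invOn_eH hmL
  have h1 : conv (eH L l) (bF C b) = bF C b := by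
    refine conv_bF_of_ne hb hlb ⟨fun g hg x => hinvL.1 g (hCL hg) x, hsupp⟩ ?_ ?_
    · rw [hec, conv_bF_self hc]
    · rw [hec, hlc.one hc]
      exact one_ne_zero
  have hinvC : InvOn L (bF C b) := by
    refine ⟨fun g hg x => ?_, fun x hx => (invOn_bF hb.1).2 x fun h => hx (hCL h)⟩
    have h2 := (mem_stH_iff hmC hb hlb (mem_stH.1 (hst g⁻¹ (inv_mem hg))).1).1
      (hst g⁻¹ (inv_mem hg))
    have h3 := congrFun h2 x
    unfold P179Y.cj at h3
    rwa [inv_inv] at h3
  have h2 : conv (bF C b) (bF L c) = bF L c := by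
    refine conv_bF_of_ne hc hlc hinvC (conv_bF_self hb) ?_
    rw [hlb.one hb]
    exact one_ne_zero
  rw [← hec, ← heb] at h2
  rw [← heb] at h1
  rw [← h2, ← conv_comm_inv (H := L) hinvL.1, h1]
  intro x hx
  exact (invOn_eH hmC).2 x fun h => hx (hCL h)

end Blk

section Main

variable {p : ℕ} [hp : Fact p.Prime] {k : Type u} [Field k] [IsAlgClosed k] [hk : CharP k p]
  (red : integralClosure ℤ ℂ →+* k)

/-- **(W6)** the equality for a block of a group with a normal `p`-subgroup `M`, if it holds for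
the blocks whose defect groups are isomorphic to `[D, C_T(M)]` -/
theorem eq_of_eqw (hE : EqwStmt p k) (hQ : P179H725.DefQuo p k) {G : Type} [Group G] [Finite G]
    (M : Subgroup G) [hMn : M.Normal] (hM : IsPGroup p M) {B : MonoidAlgebra k G}
    {D : Subgroup G} {β : MonoidAlgebra k (centralizer (D : Set G))} (hB : IsBlock B)
    (hDB : IsDefectGroup B D) (hab : ∀ a ∈ D, ∀ b ∈ D, a * b = b * a) (hβ : IsBlock β)
    (hβB : InducesTo β B)
    (h : P179H292.EqFor p red
      (⁅inertialGroup D β ⊓ centralizer (M : Set G), D⁆ : Subgroup G)) :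
    numSimpleIn B = numWeightsIn p red B := by
  have := Fintype.ofFinite G
  obtain ⟨l, hl, hlz, hlβ⟩ := exists_BP_of_subblock (p := p) hB hDB hab hβ hβB
  have hST : stabT D l = inertialGroup D β := stabT_eq_inertialGroup hβ hlβ
  have hD : IsPGroup p D := (exists_BP_of_block (p := p) B hB D hDB).1
  have hMD : M ≤ D := P179H725.le_defect (p := p) hB hDB M hM
  have hab' : D ≤ centralizer (D : Set G) := by
    intro x hx
    rw [mem_centralizer_iff]
    intro y hy
    exact hab y hy x hx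
  have hT := hT_of_block hB hDB hD hab hl hlz
  have hCN : centralizer (D : Set G) ≤ centralizer (M : Set G) := centralizer_le hMD
  have hDN : D ≤ centralizer (M : Set G) := hab'.trans hCN
  have hNn : (centralizer (M : Set G)).Normal := inferInstance
  have hmN : MulH (centralizer (M : Set G)) l := BP.mulH hl hD hab' hCN
  obtain ⟨b1, hb1, hlb1⟩ := exists_blk hmN
  have hbcf : IsCF (fun g => B.coeff g) := (P179C.mem_center_iff _).1 hB.1
  have hbb : conv (fun g => B.coeff g) (fun g => B.coeff g) = fun g => B.coeff g := by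
    funext g
    rw [← coeff_mul_eq_conv, hB.2.1]
  -- the fixed points of `C_T(M)`
  obtain ⟨R, hR⟩ : ∃ R : Subgroup G, R = D ⊓ centralizer
      ((stabT D l ⊓ centralizer (M : Set G) : Subgroup G) : Set G) := ⟨_, rfl⟩
  have hRmem : ∀ x, x ∈ R ↔ x ∈ D ∧
      ∀ t ∈ stabT D l, t ∈ centralizer (M : Set G) → t * x * t⁻¹ = x := by
    intro x
    rw [hR, mem_inf, mem_centralizer_iff]
    refine and_congr_right fun _ => ⟨fun h1 t ht htM => ?_, fun h1 t ht => ?_⟩
    · rw [h1 t ⟨ht, htM⟩, mul_inv_cancel_right]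
    · have h2 := h1 t ht.1 ht.2
      calc t * x = t * x * t⁻¹ * t := by group
        _ = x * t := by rw [h2]
  have hRD : R ≤ D := fun x hx => ((hRmem x).1 hx).1
  have hMR : M ≤ R := by
    intro x hx
    rw [hRmem]
    refine ⟨hMD hx, fun t _ htM => ?_⟩
    rw [← (mem_centralizer_iff.1 htM) x hx]
    group
  have hCRM : centralizer (R : Set G) ≤ centralizer (M : Set G) := centralizer_le hMR
  have hTN : stabT D l ≤ normalizer (D : Set G) := stabT_le_norm D l
  have hRT : ∀ t ∈ stabT D l, ∀ x ∈ R, t * x * t⁻¹ ∈ R := by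
    intro t ht x hx
    rw [hRmem] at hx ⊢
    refine ⟨(mem_normalizer_iff.mp (hTN ht) x).mp hx.1, fun s hs hsM => ?_⟩
    have h1 := hx.2 (t⁻¹ * s * t) (mul_mem (mul_mem (inv_mem ht) hs) ht) (by
      have := hNn.conj_mem s hsM t⁻¹
      rwa [inv_inv] at this)
    calc s * (t * x * t⁻¹) * s⁻¹ = t * (t⁻¹ * s * t * x * (t⁻¹ * s * t)⁻¹) * t⁻¹ := by group
      _ = t * x * t⁻¹ := by rw [h1]
  have hCT : ∀ t ∈ stabT D l, ∀ x ∈ centralizer (R : Set G),
      t * x * t⁻¹ ∈ centralizer (R : Set G) := by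
    intro t ht x hx
    rw [mem_centralizer_iff] at hx ⊢
    intro r hr
    have h1 := hx (t⁻¹ * r * t) (by
      have := hRT t⁻¹ (inv_mem ht) r hr
      rwa [inv_inv] at this)
    calc r * (t * x * t⁻¹) = t * (t⁻¹ * r * t * x) * t⁻¹ := by group
      _ = t * x * t⁻¹ * r := by rw [h1]; group
  have hCDC : centralizer (D : Set G) ≤ centralizer (R : Set G) := centralizer_le hRD
  have hDC : D ≤ centralizer (R : Set G) := hab'.trans hCDC
  have hmC : MulH (centralizer (R : Set G)) l := BP.mulH hl hD hab' hCDC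
  -- the number of simple modules
  have e1 : numSimpleIn B =
      numSimpleIn (mkF fun g : (stabT D l ⊔ centralizer (R : Set G) : Subgroup G) =>
        eH (centralizer (R : Set G)) l g) := by
    rw [P179H443.numSimple_fr (p := p) (H := centralizer (M : Set G)) hB
      (fun x hx => idem_supp (p := p) M hM hbcf hbb hx) hmN hlz hb1 hlb1, ← eH_eq hb1 hlb1,
      ← hE G D M R l hl hD hab' hT hMD (fun t _ x hx => hMn.conj_mem x hx t) hR]
    exact P179H292.numSimple_congr (stH_eq_sup hl hD hab' hT hDN hCN) _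
  -- the block of `L`
  set L : Subgroup G := stabT D l ⊔ centralizer (R : Set G) with hL
  have hTL : stabT D l ≤ L := le_sup_left
  have hCL : centralizer (R : Set G) ≤ L := le_sup_right
  have hCDL : centralizer (D : Set G) ≤ L := hCDC.trans hCL
  have hDL : D ≤ L := hDC.trans hCL
  have hmL : MulH L l := BP.mulH hl hD hab' hCDL
  obtain ⟨bL, hbL, hlbL, hebL⟩ := eH_spec hmL
  have hMn' : (M.subgroupOf L).Normal := inferInstance
  have hLinf : ∀ x ∈ L, x ∈ centralizer (M : Set G) → x ∈ centralizer (R : Set G) := by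
    intro x hx hxM
    obtain ⟨t, ht, c, hc, rfl⟩ := mem_sup_of_norm hCT hx
    refine mul_mem ?_ hc
    have htM : t ∈ centralizer (M : Set G) := by
      have h1 := mul_mem hxM (inv_mem (hCRM hc))
      rwa [mul_inv_cancel_right] at h1
    rw [mem_centralizer_iff]
    intro r hr
    have h1 := ((hRmem r).1 hr).2 t ht htM
    calc r * t = t * r * t⁻¹ * t := by rw [h1]
      _ = t * r := by group
  have hsupp : ∀ x, x ∉ centralizer (R : Set G) → eH L l x = 0 := by
    intro x hx
    rw [hebL]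
    by_cases hxL : x ∈ L
    · unfold bF
      rw [ext_of_mem L _ hxL]
      have hbb' : conv (fun g => bL.coeff g) (fun g => bL.coeff g) = fun g => bL.coeff g := by
        funext g
        rw [← coeff_mul_eq_conv, hbL.2.1]
      refine idem_supp (p := p) (M.subgroupOf L) hM.comap_subtype
        ((P179C.mem_center_iff _).1 hbL.1) hbb' (g := ⟨x, hxL⟩) fun h => hx (hLinf x hxL ?_)
      rw [mem_centralizer_iff] at h ⊢
      intro m hm
      have h2 := h ⟨m, hDL (hMD hm)⟩ (mem_subgroupOf.2 hm)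
      exact congrArg Subtype.val h2
    · exact ext_of_not_mem L _ hxL
  have hst : ∀ g ∈ L, g ∈ stH (centralizer (R : Set G)) l := by
    have h1 : L ≤ stH (centralizer (R : Set G)) l := by
      refine sup_le (fun t ht => ?_) le_stH
      refine stabT_le_stH hl hCDC ht ?_
      rw [mem_normalizer_iff]
      intro x
      refine ⟨fun hx => hCT t ht x hx, fun hx => ?_⟩
      have h2 := hCT t⁻¹ (inv_mem ht) _ hx
      have h3 : t⁻¹ * (t * x * t⁻¹) * t⁻¹⁻¹ = x := by group
      rwa [h3] at h2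
    exact fun g hg => h1 hg
  have e2 : numSimpleIn (mkF fun g : L => eH (centralizer (R : Set G)) l g) =
      numSimpleIn bL := by
    rw [← eH_eq_of_supp hCL hmC hmL hst hsupp, hebL, mkF_bF]
  have hdf := isDefectGroup_low (p := p) hl hD hab hT hDL hCDL hbL hlbL
  have hRn : (R.subgroupOf L).Normal := by
    refine ⟨fun x hx g => ?_⟩
    rw [mem_subgroupOf] at hx ⊢
    obtain ⟨t, ht, c, hc, htc⟩ := mem_sup_of_norm hCT g.2
    have h1 : c * (x : G) * c⁻¹ = x := by
      rw [← (mem_centralizer_iff.1 hc) x hx]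
      group
    have h2 : ((g * x * g⁻¹ : L) : G) = t * (c * x * c⁻¹) * t⁻¹ := by
      push_cast
      rw [htc]
      group
    rw [h2, h1]
    exact hRT t ht x hx
  have hRp : IsPGroup p (R.subgroupOf L) := (hD.to_le hRD).comap_subtype
  have habL : ∀ a ∈ D.subgroupOf L, ∀ c ∈ D.subgroupOf L, a * c = c * a := fun a ha c hc =>
    ((mem_centralizer_iff.1 (comm_subgroupOf hab' hDL ha)) c hc).symm
  have hFN : inertialGroup D β ⊓ centralizer (M : Set G) ≤ normalizer (D : Set G) := by
    rw [← hST]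
    exact inf_le_left.trans hTN
  have hF : ¬ p ∣ (centralizer (D : Set G)).relIndex
      (inertialGroup D β ⊓ centralizer (M : Set G)) := by
    intro h1
    apply hT
    rw [hST]
    refine h1.trans ?_
    rw [← relIndex_mul_relIndex (centralizer (D : Set G))
      (inertialGroup D β ⊓ centralizer (M : Set G)) (inertialGroup D β)
      (le_inf (hST ▸ cent_le_stabT D l) hCN) inf_le_left]
    exact dvd_mul_right _ _
  have e3 : numSimpleIn bL = numWeightsIn p red bL := by
    refine eq_of_quoEq red hQ (R.subgroupOf L) hRp hbL hdf habL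
      fun X _ _ B' D' hB' hD' hf => ?_
    obtain ⟨f, hfs, hfk⟩ := hf
    refine h X B' D' hB' hD' ?_
    let c : D →* (D.subgroupOf L) := (subgroupOfEquivOfLe hDL).symm.toMonoidHom
    have hc : ∀ d : D, (((c d : D.subgroupOf L) : L) : G) = d := fun d => rfl
    refine equiv_of_fix hD hab hFN hF (f.comp c)
      (hfs.comp (subgroupOfEquivOfLe hDL).symm.surjective) fun d => ?_
    rw [MonoidHom.comp_apply, hfk, mem_subgroupOf, hc, hRmem, ← hST]
    constructor
    · rintro ⟨_, h1⟩ t ht
      exact h1 t ht.1 ht.2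
    · intro h1
      exact ⟨d.2, fun t ht htM => h1 t ⟨ht, htM⟩⟩
  rw [e1, e2, e3, numWeightsIn_below red hl hD hab' hT hDL hCDL hbL hlbL hdf hβ hlβ,
    numWeightsIn_eq_stabT red hB hDB hab hl hD hT hlz hβ hlβ]
  exact P179H292.numSimple_congr (inf_eq_left.mpr hTL) _

end Main

end P179H443
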