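import Vale.Agent.P179.R2.H443.BdSqF
import Vale.Agent.P179.R2.H292.FinalE

/-!
# Abelian defect groups of rank two and exponent at least `p ^ 2`
-/

namespace P179H443

open Subgroup

open scoped Classical

universe u

/-- **the equality for all abelian defect groups of rank two and exponent at least `p ^ 2`**,
`p` odd, any group, any fusion -/
theorem eq_rank2_all {p : ℕ} [hp : Fact p.Prime] {k : Type u} [Field k] [IsAlgClosed k]
    [hk : CharP k p] (red : integralClosure ℤ ℂ →+* k) (hp2 : p ≠ 2) {G : Type} [Group G]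
    [Finite G] {B : MonoidAlgebra k G} (hB : P179B.IsBlock B) {D : Subgroup G}
    (hD : P179B.IsDefectGroup B D) (hab : ∀ a ∈ D, ∀ b ∈ D, a * b = b * a)
    (h1 : Nat.card {x : G // x ∈ D ∧ x ^ p = 1} = p ^ 2) (h2 : ∃ z ∈ D, z ^ p ≠ 1) :
    P179B.numSimpleIn B = P179B.numWeightsIn p red B := by
  by_cases h3 : ∃ z ∈ D, z ^ p ^ 2 ≠ 1
  · exact P179H292.eq_of_rankTwo red hp2 hB hD hab ⟨h1, Or.inl h3⟩
  by_cases h4 : ∀ x ∈ D, x ^ p = 1 → ∃ y ∈ D, y ^ p = x
  · refine eq_sq red hp2 hB hD hab ⟨h1, h4, fun x hx => ?_⟩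
    by_contra hx2
    exact h3 ⟨x, hx, hx2⟩
  · push Not at h4
    exact P179H292.eq_of_rankTwo red hp2 hB hD hab ⟨h1, Or.inr ⟨h2, h4⟩⟩

end P179H443
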