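import Vale.Agent.P179.R2.H443.KnDef

/-!
# Abelian `p`-groups with a group of automorphisms for which the weight conjecture is known
-/

namespace P179B

open Subgroup

/-- A recursive condition on a finite abelian `p`-group `K` and a group `S` which normalises `K`:
`Known p K S` holds (`known`), or there are `a`, `j ≥ 1`, `o ≥ 1` and a coset `w Y` of order `o` of
the group `Y` of the `p ^ j`-th powers of the elements of `K` with the following properties
(`step`). The coset `w Y` is fixed only by the elements of `S` which centralise `K`. If `e` is the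
order of the group of automorphisms of `K` induced by `S` and `R` the set of the elements of `K`
whose centraliser in `S` is `C_S(K)`, then `e |K| < p ^ (2 j) |R|` and
`p |K : Y| ≤ o p ^ (a + 1)`. And for all subgroups `F` of `S` which centralise the `p ^ a`-th powers
of the elements of `K`, the condition holds for `[F, K]` and its normaliser in `S`. -/
inductive SolvedBy (p : ℕ) {G : Type*} [Group G] : Subgroup G → Subgroup G → Prop
  | known {K S : Subgroup G} : Known p K S → SolvedBy p K S
  | step {K S : Subgroup G} (a j o : ℕ) (w : G) : 1 ≤ j → 1 ≤ o → w ∈ K →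
    (∀ i : ℕ, (∃ d ∈ K, w ^ i = d ^ p ^ j) ↔ o ∣ i) →
    (∀ n ∈ S, (∃ d ∈ K, n * w * n⁻¹ * w⁻¹ = d ^ p ^ j) → n ∈ centralizer (K : Set G)) →
    (centralizer (K : Set G)).relIndex S * Nat.card K < p ^ (2 * j) *
      Nat.card {u : G // u ∈ K ∧ ∀ n ∈ S, n * u * n⁻¹ = u → n ∈ centralizer (K : Set G)} →
    Nat.card K * p ≤ p ^ (a + 1) * (Nat.card {y : G // ∃ d ∈ K, d ^ p ^ j = y} * o) →
    (∀ F ≤ S, (∀ n ∈ F, ∀ d ∈ K, n * d ^ p ^ a * n⁻¹ = d ^ p ^ a) →
      SolvedBy p ⁅F, K⁆ (S ⊓ normalizer ((⁅F, K⁆ : Subgroup G) : Set G))) →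
    SolvedBy p K S

end P179B
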