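import Vale.Agent.P179.R2.H292.LDefsE
import Vale.Agent.P179.R2.H443.SvDef

/-!
# Blocks with an abelian defect group and the condition `SolvedBy`
-/

namespace P179B

open Subgroup

/-- For the abelian group `D` and the inertial group `T` of `b`: for all subgroups `F` of `T` whose
elements centralise the `p ^ a`-th powers of the elements of `D`, `SolvedBy` holds for `[D, F]` with
the action of the normaliser of `[D, F]` in `T`. -/
def LevelSolved (p a : ℕ) {k : Type*} [Field k] {G : Type*} [Group G] (D : Subgroup G)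
    (b : MonoidAlgebra k (centralizer (D : Set G))) : Prop :=
  ∀ F ≤ inertialGroup D b, (∀ n ∈ F, ∀ d ∈ D, n * d ^ p ^ a * n⁻¹ = d ^ p ^ a) →
    SolvedBy p ⁅F, D⁆ (inertialGroup D b ⊓ normalizer ((⁅F, D⁆ : Subgroup G) : Set G))

/-- The prime `p` is odd, the block `B` of `G` has an abelian defect group `D`, and, for some block
`b` of `C_G(D)` with `b^G = B` and its inertial group `T`, `SolvedBy` holds with the action of `T`
for `D` or for `[D, C_T(M)]` for some normal `p`-subgroup `M` of `G` (so, for `M = 1`, for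
`[D, T]`). -/
def SolvedBlock (p : ℕ) {k : Type*} [Field k] {G : Type*} [Group G] (B : MonoidAlgebra k G) :
    Prop :=
  2 < p ∧ ∃ (D : Subgroup G) (b : MonoidAlgebra k (centralizer (D : Set G))),
    IsDefectGroup B D ∧ (∀ x ∈ D, ∀ y ∈ D, x * y = y * x) ∧ IsBlock b ∧ InducesTo b B ∧
    (SolvedBy p D (inertialGroup D b) ∨
      ∃ M : Subgroup G, M.Normal ∧ IsPGroup p M ∧
        SolvedBy p ⁅inertialGroup D b ⊓ centralizer (M : Set G), D⁆ (inertialGroup D b))

end P179B
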