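import Vale.Agent.P179.R2.H443.Ehat
import Vale.Agent.P179.R2.H443.Surj

/-!
# The numbers of simple modules of the subgroups `H ≀ Q` and of the diagonal subgroups
-/

namespace P179H443

open Subgroup P179A P179C P179H524 P179R RegularWreathProduct MonoidAlgebra Finset

open P179C.C2 (Om cls phi)

universe u

section Frob

variable {p : ℕ} [hp : Fact p.Prime] {k : Type u} [Field k] [IsAlgClosed k] [CharP k p]
  {G : Type} [Group G]

/-- the `p`-th powers of the coefficients do not change the number of simple modules -/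
theorem numSimpleIn_frob [Finite G] (z z' : MonoidAlgebra k G)
    (hz : z ∈ Subalgebra.center k (MonoidAlgebra k G))
    (h : ∀ x, z'.coeff x = z.coeff x ^ p) : numSimpleIn z' = numSimpleIn z := by
  classical
  have := Fintype.ofFinite G
  have hz' : z' ∈ Subalgebra.center k (MonoidAlgebra k G) := by
    rw [P179C.mem_center_iff] at hz ⊢
    intro g x
    beta_reduce
    rw [h, h]
    exact congrArg (· ^ p) (hz g x)
  rw [← finrank_VB' p z hz, ← finrank_VB' p z' hz']
  let σ : k ≃+* k := frobeniusEquiv k p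
  have hσ : ∀ x, σ x = x ^ p := fun x => frobeniusEquiv_def k p x
  let j : VB p z ≃+ VB p z' :=
    { toFun := fun ψ => ⟨fun ω => σ (ψ.1 ω), fun y hy => by
        have h1 := (mem_VB p).1 ψ.2 y hy
        change ∑ g, z'.coeff g * σ (ψ.1 (cls p (g * y))) = σ (ψ.1 (cls p y))
        rw [← h1, map_sum]
        refine Finset.sum_congr rfl fun g _ => ?_
        rw [map_mul, h, ← hσ]⟩
      invFun := fun ψ => ⟨fun ω => σ.symm (ψ.1 ω), fun y hy => by
        have h1 := (mem_VB p).1 ψ.2 y hy
        change ∑ g, z.coeff g * σ.symm (ψ.1 (cls p (g * y))) = σ.symm (ψ.1 (cls p y))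
        rw [← h1, map_sum]
        refine Finset.sum_congr rfl fun g _ => ?_
        rw [map_mul, h, ← hσ, RingEquiv.symm_apply_apply]⟩
      left_inv := fun ψ => Subtype.ext (funext fun ω => σ.symm_apply_apply _)
      right_inv := fun ψ => Subtype.ext (funext fun ω => σ.apply_symm_apply _)
      map_add' := fun ψ ψ' => Subtype.ext (funext fun ω => map_add σ _ _) }
  have hr : Module.rank k (VB p z) = Module.rank k (VB p z') :=
    rank_eq_of_equiv_equiv σ j σ.bijective fun r m =>
      Subtype.ext (funext fun ω => map_mul σ _ _)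
  unfold Module.finrank
  rw [hr]

end Frob

section WrSub

variable {G : Type} [Group G] {Q : Type} [Group Q]

/-- `H ≀ Q` as a subgroup of `G ≀ Q` -/
def wrEquiv (H : Subgroup G) (Q : Type) [Group Q] : H ≀ᵣ Q ≃* wrSub H Q where
  toFun x := ⟨⟨fun q => x.left q, x.right⟩, fun q => (x.left q).2⟩
  invFun x := ⟨fun q => ⟨x.1.left q, x.2 q⟩, x.1.right⟩
  left_inv x := rfl
  right_inv x := rfl
  map_mul' x y := by
    apply Subtype.ext
    ext q
    · simp [RegularWreathProduct.mul_left]
    · simp [RegularWreathProduct.mul_right]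

theorem card_wrSub [Finite G] [Finite Q] (H : Subgroup G) :
    Nat.card (wrSub H Q) = Nat.card H ^ Nat.card Q * Nat.card Q := by
  rw [← Nat.card_congr (wrEquiv H Q).toEquiv, Nat.card_congr (equivProd H Q), Nat.card_prod,
    Nat.card_fun]

variable {p : ℕ} [hp : Fact p.Prime] {k : Type u} [Field k] [IsAlgClosed k] [CharP k p]
  [Fintype G] [Fintype Q]

theorem nT_wrSub (hQ : Nat.card Q = p) (e : MonoidAlgebra k G)
    (he : e ∈ Subalgebra.center k (MonoidAlgebra k G)) (H : Subgroup G)
    (hZ : ZO (trunc H e)) :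
    p * nT (ehat Q e) (wrSub H Q) = nT e H ^ p + (p - 1) * nT e H := by
  classical
  have := Fintype.ofFinite H
  have h1 : nT (ehat Q e) (wrSub H Q) = numSimpleIn (ehat Q (trunc H e)) := by
    unfold nT
    symm
    refine numSimpleIn_equiv (p := p) (wrEquiv H Q) _ _ fun x => ?_
    rw [coeff_trunc, coeff_ehat, coeff_ehat]
    unfold wcoef
    have h2 : ((wrEquiv H Q x : wrSub H Q) : G ≀ᵣ Q).right = x.right := rfl
    have h3 : ∀ q, ((wrEquiv H Q x : wrSub H Q) : G ≀ᵣ Q).left q = x.left q := fun q => rfl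
    rw [h2]
    simp only [h3, coeff_trunc]
  rw [h1]
  exact numSimpleIn_ehat' hQ (trunc H e) (P179N.trunc_mem H he) hZ

/-- the subgroup `{(x, ..., x; q) | x ∈ K}` -/
def dgSub (K : Subgroup G) (Q : Type) [Group Q] : Subgroup (G ≀ᵣ Q) where
  carrier := {w | ∃ x ∈ K, w.left = fun _ => x}
  one_mem' := ⟨1, K.one_mem, rfl⟩
  mul_mem' := by
    rintro a b ⟨x, hx, ha⟩ ⟨y, hy, hb⟩
    refine ⟨x * y, K.mul_mem hx hy, ?_⟩
    funext q
    rw [RegularWreathProduct.mul_left, ha, hb]
    rfl
  inv_mem' := by
    rintro a ⟨x, hx, ha⟩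
    refine ⟨x⁻¹, K.inv_mem hx, ?_⟩
    funext q
    rw [inv_left, ha]
    rfl

omit [Fintype G] [Fintype Q] in
theorem mem_dgSub {K : Subgroup G} {w : G ≀ᵣ Q} :
    w ∈ dgSub K Q ↔ ∃ x ∈ K, w.left = fun _ => x := Iff.rfl

/-- `K × Q` -/
def dgEquiv (K : Subgroup G) (Q : Type) [Group Q] : K × Q ≃* dgSub K Q where
  toFun x := ⟨⟨fun _ => x.1, x.2⟩, ⟨x.1, x.1.2, rfl⟩⟩
  invFun w := ⟨⟨w.1.left 1, by
    obtain ⟨x, hx, h⟩ := w.2
    rw [h]; exact hx⟩, w.1.right⟩
  left_inv x := rfl
  right_inv w := by
    obtain ⟨w, x, hx, h⟩ := w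
    apply Subtype.ext
    ext q
    · change w.left 1 = w.left q
      rw [h]
    · rfl
  map_mul' x y := by
    apply Subtype.ext
    ext q
    · simp [RegularWreathProduct.mul_left]
    · simp [RegularWreathProduct.mul_right]

omit [Fintype G] [Fintype Q] in
theorem card_dgSub (K : Subgroup G) :
    Nat.card (dgSub K Q) = Nat.card K * Nat.card Q := by
  rw [← Nat.card_congr (dgEquiv K Q).toEquiv, Nat.card_prod]

theorem nT_dgSub (hQ : Nat.card Q = p) (e : MonoidAlgebra k G)
    (he : e ∈ Subalgebra.center k (MonoidAlgebra k G)) (K : Subgroup G) :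
    nT (ehat Q e) (dgSub K Q) = nT e K := by
  classical
  have := Fintype.ofFinite K
  unfold nT
  let z : MonoidAlgebra k (K × Q) := mapA k (dgEquiv K Q).symm.toMonoidHom
    (trunc (dgSub K Q) (ehat Q e))
  have hz : ∀ x : K × Q, z.coeff x = if x.2 = 1 then e.coeff (x.1 : G) ^ p else 0 := by
    intro x
    have h1 : x = (dgEquiv K Q).symm ((dgEquiv K Q) x) := (MulEquiv.symm_apply_apply _ _).symm
    have h2 : z.coeff x = (trunc (dgSub K Q) (ehat Q e)).coeff (dgEquiv K Q x) := by
      conv_lhs => rw [h1]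
      exact coeff_mapA_injective (dgEquiv K Q).symm.toMonoidHom
        (dgEquiv K Q).symm.injective _ _
    rw [h2, coeff_trunc, coeff_ehat, wcoef]
    change (if x.2 = 1 then ∏ q : Q, e.coeff (x.1 : G) else 0) = _
    rw [Finset.prod_const, Finset.card_univ, ← Nat.card_eq_fintype_card, hQ]
  have h1 : numSimpleIn (trunc (dgSub K Q) (ehat Q e)) = numSimpleIn z :=
    numSimpleIn_equiv (p := p) (dgEquiv K Q).symm _ _ fun x =>
      coeff_mapA_injective (dgEquiv K Q).symm.toMonoidHom (dgEquiv K Q).symm.injective _ _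
  have h2 : IsPGroup p (MonoidHom.fst K Q).ker := by
    have h3 : IsPGroup p Q := IsPGroup.of_card (n := 1) (by rw [hQ, pow_one])
    apply h3.of_injective ((MonoidHom.snd K Q).comp (MonoidHom.fst K Q).ker.subtype)
    rintro ⟨⟨a, b⟩, h⟩ ⟨⟨a', b'⟩, h'⟩ hab
    change a = 1 at h
    change a' = 1 at h'
    change b = b' at hab
    subst h h' hab
    rfl
  rw [h1, numSimpleIn_mapA (p := p) (MonoidHom.fst K Q) Prod.fst_surjective h2]
  refine numSimpleIn_frob _ _ (P179N.trunc_mem K he) fun x => ?_
  rw [coeff_trunc]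
  have hsum : ∀ w : MonoidAlgebra k (K × Q), (mapA k (MonoidHom.fst K Q) w).coeff x =
      ∑ q : Q, w.coeff (x, q) := by
    intro w
    induction w using MonoidAlgebra.induction_linear with
    | zero => simp
    | add a b ha hb =>
      rw [map_add]
      have h1 : (mapA k (MonoidHom.fst K Q) a + mapA k (MonoidHom.fst K Q) b).coeff x =
        (mapA k (MonoidHom.fst K Q) a).coeff x + (mapA k (MonoidHom.fst K Q) b).coeff x := by simp
      rw [h1, ha, hb, ← Finset.sum_add_distrib]
      exact Finset.sum_congr rfl fun q _ => by simp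
    | single g a =>
      rw [mapA_single, MonoidAlgebra.coeff_single, Finsupp.single_apply]
      simp only [MonoidAlgebra.coeff_single, Finsupp.single_apply]
      obtain ⟨g, t⟩ := g
      change (if g = x then a else 0) = _
      by_cases h : g = x
      · subst h
        rw [if_pos rfl, Finset.sum_eq_single t]
        · rw [if_pos rfl]
        · intro q _ hq
          rw [if_neg]
          intro h'
          exact hq (congrArg Prod.snd h').symm
        · intro h; exact absurd (Finset.mem_univ _) h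
      · rw [if_neg h]
        symm
        refine Finset.sum_eq_zero fun q _ => ?_
        rw [if_neg]
        intro h'
        exact h (congrArg Prod.fst h')
  rw [hsum]
  simp only [hz]
  rw [Finset.sum_ite_eq']
  simp

end WrSub

end P179H443
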